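import Mathlib
import Vale.Agent.P333.Bdl.B1

set_option linter.all false

/-!
P333, ratio 2: expansion of a cycle of classes into a closed walk, and the account of the weight.

An item `e` of the cycle has a block `blk e` (a nonempty list of strings), which starts with the
entry and ends with the exit of the item.
-/

namespace Vale.Agent.P333.H705

open Vale.Agent.P333 Vale.Agent.P333.U

theorem getLastD_append' {α : Type*} (A B : List α) (d : α) (hB : B ≠ []) :
    (A ++ B).getLastD d = B.getLastD d := by
  rw [List.getLastD_eq_getLast?, List.getLastD_eq_getLast?, List.getLast?_append_of_ne_nil _ hB]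

theorem headD_append' {α : Type*} (A B : List α) (d : α) (hA : A ≠ []) :
    (A ++ B).headD d = A.headD d := by
  cases A with
  | nil => exact absurd rfl hA
  | cons a A => rfl

/-- `linW` of a concatenation. -/
theorem linW_append' (A B : List (List ℕ)) (hA : A ≠ []) (hB : B ≠ []) :
    linW (A ++ B) = linW A + ((A.getLastD []).length - ov (A.getLastD []) (B.headD [])) +
      linW B := by
  induction A with
  | nil => exact absurd rfl hA
  | cons a A ih =>
    cases A with
    | nil =>
      cases B with
      | nil => exact absurd rfl hB
      | cons b B => simp [linW]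
    | cons a' A =>
      have := ih (by simp)
      have e1 : linW (a :: a' :: A ++ B) = (a.length - ov a a') + linW (a' :: A ++ B) := rfl
      have e2 : linW (a :: a' :: A) = (a.length - ov a a') + linW (a' :: A) := rfl
      have e3 : (a :: a' :: A).getLastD [] = (a' :: A).getLastD [] := by simp
      rw [e1, e2, e3, this]
      ring

variable {α : Type*}

theorem flatMap_ne_nil (blk : α → List (List ℕ)) {e : α} {es : List α} (hne : blk e ≠ []) :
    (e :: es).flatMap blk ≠ [] := by
  rw [List.flatMap_cons]
  exact List.append_ne_nil_of_left_ne_nil hne _

theorem flatMap_headD (blk : α → List (List ℕ)) {e : α} {es : List α} (hne : blk e ≠ []) :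
    ((e :: es).flatMap blk).headD [] = (blk e).headD [] := by
  rw [List.flatMap_cons]
  exact headD_append' _ _ _ hne

/-- The weight of a linear concatenation of blocks. -/
theorem linW_flatten (blk : α → List (List ℕ)) (h : α) :
    ∀ (e : α) (es : List α), (∀ x ∈ e :: es, blk x ≠ []) →
      linW ((e :: es).flatMap blk) +
        ((((e :: es).flatMap blk).getLastD []).length -
          ov (((e :: es).flatMap blk).getLastD []) ((blk h).headD [])) +
        ((prsC h (e :: es)).map
          (fun p => ov ((blk p.1).getLastD []) ((blk p.2).headD []))).sum =
      ((e :: es).map fun e => (mergeL (blk e)).length).sum := by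
  intro e es
  induction es generalizing e with
  | nil =>
    intro hne
    simp only [List.flatMap_cons, List.flatMap_nil, List.append_nil, prsC, List.map_cons,
      List.map_nil, List.sum_cons, List.sum_nil]
    rw [length_mergeL]
    have := ov_le_left ((blk e).getLastD []) ((blk h).headD [])
    omega
  | cons e' es ih =>
    intro hne
    have h1 := ih e' (fun x hx => hne x (List.mem_cons_of_mem _ hx))
    have he : blk e ≠ [] := hne e List.mem_cons_self
    have he' : blk e' ≠ [] := hne e' (List.mem_cons_of_mem _ List.mem_cons_self)
    have hf : (e' :: es).flatMap blk ≠ [] := flatMap_ne_nil blk he'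
    rw [List.flatMap_cons, linW_append' _ _ he hf, getLastD_append' _ _ _ hf,
      flatMap_headD blk he', prsC,
      List.map_cons, List.map_cons, List.sum_cons, List.sum_cons, ← h1, length_mergeL]
    have := ov_le_left ((blk e).getLastD []) ((blk e').headD [])
    dsimp only
    omega

/-- The weight of a cyclic concatenation of blocks. -/
theorem cycW_flatMap (blk : α → List (List ℕ)) (d : α) (es : List α)
    (hne : ∀ e ∈ es, blk e ≠ []) (hes : es ≠ []) :
    cycW (es.flatMap blk) +
      ((cprs d es).map (fun p => ov ((blk p.1).getLastD []) ((blk p.2).headD []))).sum =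
      (es.map fun e => (mergeL (blk e)).length).sum := by
  cases es with
  | nil => exact absurd rfl hes
  | cons e es =>
    have h1 := linW_flatten blk e e es hne
    rw [cycW, cycO, flatMap_headD blk (hne e List.mem_cons_self)]
    exact h1

theorem sum_cprs_fst (d : α) (es : List α) (f : α → ℤ) :
    ((cprs d es).map (fun p => f p.1)).sum = (es.map f).sum := by
  have : (cprs d es).map (fun p => f p.1) = es.map f := by
    conv_rhs => rw [← cprs_fst d es]
    rw [List.map_map]
    rfl
  rw [this]

theorem sum_cprs_snd (d : α) (es : List α) (f : α → ℤ) :
    ((cprs d es).map (fun p => f p.2)).sum = (es.map f).sum := by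
  have : (cprs d es).map (fun p => f p.2) = ((cprs d es).map Prod.snd).map f := by
    rw [List.map_map]
    rfl
  rw [this]
  exact ((cprs_snd d es).map f).sum_eq

theorem sum_map_add_int {β : Type*} (l : List β) (f g : β → ℤ) :
    (l.map (fun e => f e + g e)).sum = (l.map f).sum + (l.map g).sum :=
  List.sum_map_add

theorem sum_map_sub_int {β : Type*} (l : List β) (f g : β → ℤ) :
    (l.map (fun e => f e - g e)).sum = (l.map f).sum - (l.map g).sum := by
  induction l with
  | nil => simp
  | cons a l ih =>
    simp only [List.map_cons, List.sum_cons, ih]
    ring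

theorem cast_sum_map {β : Type*} (l : List β) (f : β → ℕ) :
    (((l.map f).sum : ℕ) : ℤ) = (l.map fun e => (f e : ℤ)).sum := by
  induction l with
  | nil => simp
  | cons a l ih => simp [ih]

/-- **Account of an expanded cycle.** The items `e` carry a constant `κ e` (in the applications:
twice the length of the string, or twice the weight of the circle) and the two corrections
`p e` (exit), `q e` (entry). The gain of the arc from `e` to `e'` is
`2 ov (exit e) (entry e') - p e - q e'`. -/
theorem account (blk : α → List (List ℕ)) (d : α) (es : List α)
    (hne : ∀ e ∈ es, blk e ≠ []) (hes : es ≠ []) (κ p q : α → ℤ) :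
    2 * (cycW (es.flatMap blk) : ℤ) +
      (es.map fun e => κ e + p e + q e - 2 * ((mergeL (blk e)).length : ℤ)).sum =
    (es.map κ).sum -
      ((cprs d es).map (fun r => 2 * (ov ((blk r.1).getLastD []) ((blk r.2).headD []) : ℤ) -
        p r.1 - q r.2)).sum := by
  have h := congrArg (fun n : ℕ => (n : ℤ)) (cycW_flatMap blk d es hne hes)
  simp only [Nat.cast_add, cast_sum_map] at h
  simp only [sum_map_add_int, sum_map_sub_int, List.sum_map_mul_left]
  rw [sum_cprs_fst d es p, sum_cprs_snd d es q]
  linarith

end Vale.Agent.P333.H705
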