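import Mathlib
import Vale.Agent.P333.Y.Parts
import Vale.Agent.P333.G.Acc
import Vale.Agent.P333.H705.Expand

set_option linter.all false

/-!
P333, ratio `2`, part B2: the closed walks of the cycles of classes.
-/

namespace Vale.Agent.P333.H705

open Vale.Agent.P333 Vale.Agent.P333.U Vale.Agent.P333.E Vale.Agent.P333.G Vale.Agent.P333.Y

/-! ### Cyclic pairs of cyclic pairs -/

theorem prsC_cons_form {δ : Type*} (h x : δ) (r : List δ) :
    ∃ y t, prsC h (x :: r) = (x, y) :: t := by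
  cases r with
  | nil => exact ⟨h, [], rfl⟩
  | cons y r => exact ⟨y, prsC h (y :: r), rfl⟩

theorem prsC_adj {δ : Type*} (h : δ) (h' : δ × δ) (hh : h'.1 = h) :
    ∀ l : List δ, ∀ r ∈ prsC h' (prsC h l), r.1.2 = r.2.1 := by
  intro l
  induction l with
  | nil => intro r hr; simp [prsC] at hr
  | cons x l ih =>
    cases l with
    | nil =>
      intro r hr
      simp only [prsC, List.mem_singleton] at hr
      rw [hr]
      exact hh.symm
    | cons y l =>
      intro r hr
      obtain ⟨z, t, hz⟩ := prsC_cons_form h y l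
      have e1 : prsC h (x :: y :: l) = (x, y) :: prsC h (y :: l) := rfl
      rw [e1, hz] at hr
      have e2 : prsC h' ((x, y) :: (y, z) :: t) = ((x, y), (y, z)) :: prsC h' ((y, z) :: t) := rfl
      rw [e2, ← hz] at hr
      rcases List.mem_cons.1 hr with rfl | hr
      · rfl
      · exact ih r hr

theorem cprs_adj {δ : Type*} (d : δ) (d' : δ × δ) (l : List δ) :
    ∀ r ∈ cprs d' (cprs d l), r.1.2 = r.2.1 := by
  cases l with
  | nil => intro r hr; simp [cprs, prsC] at hr
  | cons x l =>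
    refine prsC_adj _ _ ?_ _
    obtain ⟨y, t, hy⟩ := prsC_cons_form x x l
    have : cprs d (x :: l) = (x, y) :: t := hy
    rw [this]
    rfl

theorem cprs_loop {δ : Type*} (d a : δ) {l : List δ} (hl : l.Nodup) (h : (a, a) ∈ cprs d l) :
    l = [a] := by
  rcases mem_prsC d _ h with ⟨u, v, h1⟩ | ⟨h1, h2⟩
  · exfalso
    rw [h1] at hl
    have := (List.nodup_append.1 hl).2.1
    simp at this
  · cases l with
    | nil => simp [cprs, prsC] at h
    | cons x r =>
      simp only [List.headD_cons] at h2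
      subst h2
      cases r with
      | nil => rfl
      | cons y r =>
        exfalso
        have h3 : (a :: y :: r).getLastD d = (y :: r).getLastD d := by simp [List.getLastD]
        rw [h3] at h1
        have h4 : (y :: r).getLastD d ∈ y :: r := by
          rw [List.getLastD_eq_getLast?, List.getLast?_eq_some_getLast (by simp)]
          exact List.getLast_mem _
        rw [h1] at h4
        exact (List.nodup_cons.1 hl).1 h4

theorem cprs_ne {δ : Type*} (d : δ) {l : List δ} (hl : l ≠ []) : cprs d l ≠ [] := by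
  intro h
  have := congrArg (List.map Prod.fst) h
  rw [cprs_fst] at this
  exact hl this

theorem mem_cprs' {δ : Type*} (d : δ) {c : List δ} {e : δ × δ} (he : e ∈ cprs d c) :
    e.1 ∈ c ∧ e.2 ∈ c := by
  refine ⟨?_, ?_⟩
  · rw [← cprs_fst d c]
    exact List.mem_map_of_mem he
  · rw [← (cprs_snd d c).mem_iff]
    exact List.mem_map_of_mem he

theorem exists_cprs_snd {δ : Type*} (d : δ) {c : List δ} {s : δ} (hs : s ∈ c) :
    ∃ e ∈ cprs d c, e.2 = s := by
  rw [← (cprs_snd d c).mem_iff] at hs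
  obtain ⟨e, he, rfl⟩ := List.mem_map.1 hs
  exact ⟨e, he, rfl⟩

theorem exists_cprs_fst {δ : Type*} (d : δ) {c : List δ} {s : δ} (hs : s ∈ c) :
    ∃ e ∈ cprs d c, e.1 = s := by
  rw [← cprs_fst d c] at hs
  obtain ⟨e, he, rfl⟩ := List.mem_map.1 hs
  exact ⟨e, he, rfl⟩

/-! ### The chosen arcs -/

theorem foldl_amax_mem {α : Type} (f : α → ℕ) (l : List α) (b : α) :
    l.foldl (fun b x => if f b < f x then x else b) b = b ∨
      l.foldl (fun b x => if f b < f x then x else b) b ∈ l := by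
  induction l generalizing b with
  | nil => left; rfl
  | cons a l ih =>
    rw [List.foldl_cons]
    rcases ih (if f b < f a then a else b) with h | h
    · rw [h]
      split_ifs
      · right; exact List.mem_cons_self
      · left; rfl
    · right
      exact List.mem_cons_of_mem _ h

theorem amax_mem {α : Type} (f : α → ℕ) (d : α) {l : List α} (hl : l ≠ []) : amax f d l ∈ l := by
  cases l with
  | nil => exact absurd rfl hl
  | cons a l =>
    unfold amax
    rcases foldl_amax_mem f (a :: l) ((a :: l).headD d) with h | h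
    · rw [h]; exact List.mem_cons_self
    · exact h

theorem exs_ne {F : List Cir} {n : Cir} (hn : n ≠ []) : exs F n ≠ [] := by
  unfold exs
  split_ifs
  · simp [cprs_ne [] hn]
  · simp [hn]

theorem ens_ne {F : List Cir} {n : Cir} (hn : n ≠ []) : ens F n ≠ [] := by
  unfold ens
  split_ifs
  · simp [cprs_ne [] hn]
  · simp [hn]

theorem pk_mem (B : ℕ) {F : List Cir} {n m : Cir} (hn : n ≠ []) (hm : m ≠ []) :
    (pk B F n m).1 ∈ exs F n ∧ (pk B F n m).2 ∈ ens F m := by
  unfold pk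
  split_ifs with h
  · rw [Bool.and_eq_true, decide_eq_true_eq, decide_eq_true_eq] at h
    obtain ⟨h1, h2⟩ := h
    subst h2
    have h3 := AccB.last_mem_cprs n hn
    unfold exs ens
    rw [if_pos (by simpa using h1), if_pos (by simpa using h1)]
    exact ⟨List.mem_map.2 ⟨_, h3, rfl⟩, List.mem_map.2 ⟨_, h3, rfl⟩⟩
  · have hne : ((exs F n).flatMap (fun p => (ens F m).map (fun q => (p, q)))) ≠ [] := by
      intro h1
      obtain ⟨x, hx⟩ := List.exists_mem_of_ne_nil _ (exs_ne (F := F) hn)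
      obtain ⟨y, hy⟩ := List.exists_mem_of_ne_nil _ (ens_ne (F := F) hm)
      have : (x, y) ∈ ((exs F n).flatMap (fun p => (ens F m).map (fun q => (p, q)))) :=
        List.mem_flatMap.2 ⟨x, hx, List.mem_map.2 ⟨y, hy, rfl⟩⟩
      rw [h1] at this
      simp at this
    have h1 := amax_mem (fun p : (List ℕ × ℕ) × (List ℕ × ℕ) => gv B p.1 p.2)
      (([], 0), ([], 0)) hne
    obtain ⟨x, hx, h2⟩ := List.mem_flatMap.1 h1
    obtain ⟨y, hy, h3⟩ := List.mem_map.1 h2
    rw [← h3]
    exact ⟨hx, hy⟩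

/-! ### Classes -/

section

variable {S : List (List ℕ)} {L F : List Cir}

theorem mem_nodes {n : Cir} : n ∈ nodes L F ↔
    (n ∈ L ∧ n ∈ F) ∨ ∃ c ∈ L, c ∉ F ∧ ∃ s ∈ c, n = [s] := by
  unfold nodes
  rw [List.mem_flatMap]
  constructor
  · rintro ⟨c, hc, h⟩
    by_cases hF : c ∈ F
    · rw [if_pos (by simpa using hF), List.mem_singleton] at h
      subst h
      exact Or.inl ⟨hc, hF⟩
    · rw [if_neg (by simpa using hF), List.mem_map] at h
      obtain ⟨s, hs, rfl⟩ := h
      exact Or.inr ⟨c, hc, hF, s, hs, rfl⟩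
  · rintro (⟨h1, h2⟩ | ⟨c, hc, hF, s, hs, rfl⟩)
    · exact ⟨n, h1, by rw [if_pos (by simpa using h2)]; simp⟩
    · exact ⟨c, hc, by rw [if_neg (by simpa using hF)]; exact List.mem_map.2 ⟨s, hs, rfl⟩⟩

theorem mem_of_cir (hL : MinCover S L) {c : Cir} (hc : c ∈ L) {s : List ℕ} (hs : s ∈ c) :
    s ∈ S := hL.perm.mem_iff.1 (List.mem_flatten.2 ⟨c, hc, hs⟩)

theorem nodup_cir (hS : Sfree S) (hL : MinCover S L) {c : Cir} (hc : c ∈ L) : c.Nodup := by
  have h : L.flatten.Nodup := by
    rw [hL.perm.nodup_iff]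
    exact Sfree.nodup hS
  exact (List.nodup_flatten.1 h).1 c hc

theorem node_ne (hL : MinCover S L) {n : Cir} (hn : n ∈ nodes L F) : n ≠ [] := by
  rcases mem_nodes.1 hn with ⟨h1, h2⟩ | ⟨c, hc, hF, s, hs, rfl⟩
  · exact hL.ne n h1
  · simp

theorem node_mem (hL : MinCover S L) {n : Cir} (hn : n ∈ nodes L F) {s : List ℕ} (hs : s ∈ n) :
    s ∈ S := by
  rcases mem_nodes.1 hn with ⟨h1, h2⟩ | ⟨c, hc, hF, t, ht, rfl⟩
  · exact mem_of_cir hL h1 hs
  · rw [List.mem_singleton] at hs
    rw [hs]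
    exact mem_of_cir hL hc ht

theorem node_single {n : Cir} (hn : n ∈ nodes L F) (hF : n ∉ F) : ∃ s, n = [s] := by
  rcases mem_nodes.1 hn with ⟨h1, h2⟩ | ⟨c, hc, hF, t, ht, rfl⟩
  · exact absurd h2 hF
  · exact ⟨t, rfl⟩

theorem length_lt_bnd {s : List ℕ} (hs : s ∈ S) : s.length < bnd S := by
  unfold bnd
  rw [List.length_flatten]
  have := List.le_sum_of_mem (List.mem_map_of_mem (f := List.length) hs)
  omega

theorem exs_pen (hL : MinCover S L) {n : Cir} (hn : n ∈ nodes L F) {p : List ℕ × ℕ}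
    (hp : p ∈ exs F n) : p.2 < bnd S := by
  unfold exs at hp
  split_ifs at hp
  · obtain ⟨e, he, rfl⟩ := List.mem_map.1 hp
    have h1 := ov_le_left e.1 e.2
    have h2 := length_lt_bnd (node_mem hL hn (mem_cprs' [] he).1)
    dsimp only
    omega
  · obtain ⟨e, he, rfl⟩ := List.mem_map.1 hp
    unfold bnd
    dsimp only
    omega

theorem ens_pen (hL : MinCover S L) {n : Cir} (hn : n ∈ nodes L F) {p : List ℕ × ℕ}
    (hp : p ∈ ens F n) : p.2 < bnd S := by
  unfold ens at hp
  split_ifs at hp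
  · obtain ⟨e, he, rfl⟩ := List.mem_map.1 hp
    have h1 := ov_le_left e.1 e.2
    have h2 := length_lt_bnd (node_mem hL hn (mem_cprs' [] he).1)
    dsimp only
    omega
  · obtain ⟨e, he, rfl⟩ := List.mem_map.1 hp
    unfold bnd
    dsimp only
    omega

theorem exs_form {n : Cir} (hF : n ∈ F) {p : List ℕ × ℕ} (hp : p ∈ exs F n) :
    ∃ e ∈ cprs [] n, p = (e.1, ov e.1 e.2) := by
  unfold exs at hp
  rw [if_pos (by simpa using hF)] at hp
  obtain ⟨e, he, rfl⟩ := List.mem_map.1 hp
  exact ⟨e, he, rfl⟩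

theorem ens_form {n : Cir} (hF : n ∈ F) {p : List ℕ × ℕ} (hp : p ∈ ens F n) :
    ∃ e ∈ cprs [] n, p = (e.2, ov e.1 e.2) := by
  unfold ens at hp
  rw [if_pos (by simpa using hF)] at hp
  obtain ⟨e, he, rfl⟩ := List.mem_map.1 hp
  exact ⟨e, he, rfl⟩

theorem exs_single {s : List ℕ} (hF : [s] ∉ F) {p : List ℕ × ℕ} (hp : p ∈ exs F [s]) :
    p = (s, 0) := by
  unfold exs at hp
  rw [if_neg (by simpa using hF)] at hp
  simpa using hp

theorem ens_single {s : List ℕ} (hF : [s] ∉ F) {p : List ℕ × ℕ} (hp : p ∈ ens F [s]) :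
    p = (s, 0) := by
  unfold ens at hp
  rw [if_neg (by simpa using hF)] at hp
  simpa using hp

/-- Facts about the visit of a class with entry `q` and exit `p`. -/
structure SegOk (F : List Cir) (n : Cir) (p q : List ℕ × ℕ) : Prop where
  ne : seg F n q.1 p.1 ≠ []
  hd : (seg F n q.1 p.1).headD [] = q.1
  ls : (seg F n q.1 p.1).getLastD [] = p.1
  sub : ∀ s, s ∈ seg F n q.1 p.1 ↔ s ∈ n
  le : n ∈ F → 2 * (mergeL (seg F n q.1 p.1)).length ≤ 4 * cycW n + q.2 + p.2
  eq : n ∉ F → p.2 = 0 ∧ q.2 = 0 ∧ 2 * (mergeL (seg F n q.1 p.1)).length = base2 F n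

theorem segOk (hb : PartB1) (hS : Sfree S) (hL : MinCover S L) (hF : FOk L F) {n : Cir}
    (hn : n ∈ nodes L F) {p q : List ℕ × ℕ} (hp : p ∈ exs F n) (hq : q ∈ ens F n) :
    SegOk F n p q := by
  by_cases h : n ∈ F
  · obtain ⟨e1, he1, rfl⟩ := exs_form h hp
    obtain ⟨e2, he2, rfl⟩ := ens_form h hq
    have hnL := hF.sub n h
    obtain ⟨δ, ε, t⟩ := hb S hS n (node_ne hL hn) (nodup_cir hS hL hnL)
      (fun s hs => mem_of_cir hL hnL hs) e1 he1 e2 he2
    have hseg : seg F n e2.2 e1.1 = trav n e2.2 e1.1 := by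
      unfold seg
      rw [if_pos (by simpa using h)]
    refine ⟨?_, ?_, ?_, ?_, ?_, fun h' => absurd h h'⟩
    · rw [hseg]; exact t.ne
    · rw [hseg]; exact t.hd
    · rw [hseg]; exact t.ls
    · rw [hseg]; exact t.sub
    · intro _
      rw [hseg]
      have h1 := t.l1
      have h2 := t.l2
      have h3 := t.d1
      have h4 := t.d2
      dsimp only
      omega
  · obtain ⟨s, rfl⟩ := node_single hn h
    have h1 := exs_single h hp
    have h2 := ens_single h hq
    subst h1 h2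
    have hseg : seg F [s] s s = [s] := by
      unfold seg
      rw [if_neg (by simpa using h)]
    refine ⟨?_, ?_, ?_, ?_, fun h' => absurd h' h, fun _ => ⟨rfl, rfl, ?_⟩⟩
    · rw [hseg]; simp
    · rw [hseg]; simp
    · rw [hseg]; simp
    · rw [hseg]; simp
    · rw [hseg]
      unfold base2
      rw [if_neg (by simpa using h)]
      simp [mergeL]

end

/-! ### Items -/

/-- An arc between classes with its chosen strings. -/
def gA (B : ℕ) (F : List Cir) (e : Cir × Cir) : Arc := (e, pk B F e.1 e.2)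

/-- Pairs of consecutive arcs of a cycle of classes. -/
def rr (κ : List Cir) : List ((Cir × Cir) × (Cir × Cir)) := cprs ([], []) (cprs [] κ)

/-- The block of the visited class. -/
def blk (B : ℕ) (F : List Cir) (r : (Cir × Cir) × (Cir × Cir)) : Cir :=
  seg F r.1.2 (pk B F r.1.1 r.1.2).2.1 (pk B F r.2.1 r.2.2).1.1

theorem arcs_eq (B : ℕ) (F : List Cir) {κ : List Cir} (hκ : κ ≠ []) :
    cprs arc0 (arcsY B F κ) = (rr κ).map (fun r => (gA B F r.1, gA B F r.2)) :=
  cprs_map (gA B F) ([], []) arc0 (cprs [] κ) (cprs_ne [] hκ)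

theorem walkY_eq (B : ℕ) (F : List Cir) {κ : List Cir} (hκ : κ ≠ []) :
    walkY B F κ = (rr κ).flatMap (blk B F) := by
  have h : walkY B F κ = ((cprs arc0 (arcsY B F κ)).map
    (fun f => seg F f.1.1.2 f.1.2.2.1 f.2.2.1.1)).flatten := rfl
  rw [h, arcs_eq B F hκ, List.map_map, List.flatMap_def]
  rfl

theorem visF_eq (B : ℕ) (F : List Cir) {κ : List Cir} (hκ : κ ≠ []) :
    visF B F κ = ((rr κ).filter (fun r => decide (r.1.2 ∈ F))).map
      (fun r => (gA B F r.1, gA B F r.2)) := by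
  unfold visF
  rw [arcs_eq B F hκ, List.filter_map]
  rfl

theorem rr_ne {κ : List Cir} (hκ : κ ≠ []) : rr κ ≠ [] := cprs_ne _ (cprs_ne _ hκ)

theorem rr_adj {κ : List Cir} {r : (Cir × Cir) × (Cir × Cir)} (hr : r ∈ rr κ) :
    r.1.2 = r.2.1 := cprs_adj _ _ _ r hr

theorem rr_mem {κ : List Cir} {r : (Cir × Cir) × (Cir × Cir)} (hr : r ∈ rr κ) :
    r.1 ∈ cprs [] κ ∧ r.2 ∈ cprs [] κ := mem_cprs' _ hr

theorem exists_rr {κ : List Cir} {n : Cir} (hn : n ∈ κ) : ∃ r ∈ rr κ, r.1.2 = n := by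
  obtain ⟨e, he, rfl⟩ := exists_cprs_snd [] hn
  obtain ⟨r, hr, rfl⟩ := exists_cprs_fst ([], []) he
  exact ⟨r, hr, rfl⟩

theorem pk_loop (B : ℕ) {F : List Cir} {D : Cir} (hF : D ∈ F) :
    pk B F D D = ((D.getLastD [], cycO D), (D.headD [], cycO D)) := by
  unfold pk
  rw [if_pos (by simp [hF])]

theorem trav_self {D : Cir} (hD : D ≠ []) (hnd : D.Nodup) :
    trav D (D.headD []) (D.getLastD []) = D := by
  have h1 : D.idxOf (D.headD []) = 0 := by
    obtain ⟨a, D, rfl⟩ := List.exists_cons_of_ne_nil hD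
    simp
  have hl : 0 < D.length := List.length_pos_of_ne_nil hD
  have h2 : D.getLastD [] = D[D.length - 1]'(by omega) := by
    rw [List.getLastD_eq_getLast?, List.getLast?_eq_some_getLast hD, Option.getD_some,
      List.getLast_eq_getElem]
  have h3 : D.idxOf (D.getLastD []) = D.length - 1 := by
    rw [h2]
    exact List.Nodup.idxOf_getElem hnd _ _
  unfold trav
  rw [h1, List.rotate_zero, h3, Nat.sub_add_cancel hl, Nat.mod_self]
  simp

theorem rr_single (D : Cir) : rr [D] = [((D, D), (D, D))] := rfl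

theorem walkY_loop (B : ℕ) {F : List Cir} {D : Cir} (hD : D ≠ []) (hnd : D.Nodup)
    (hF : D ∈ F) : walkY B F [D] = D := by
  rw [walkY_eq B F (by simp), rr_single]
  simp only [List.flatMap_cons, List.flatMap_nil, List.append_nil, blk]
  rw [pk_loop B hF]
  unfold seg
  rw [if_pos (by simpa using hF)]
  exact trav_self hD hnd

section

variable {S : List (List ℕ)} {L F : List Cir}

theorem blkOk (hb : PartB1) (hS : Sfree S) (hL : MinCover S L) (hF : FOk L F) {κ : List Cir}
    (hκ : ∀ n ∈ κ, n ∈ nodes L F) (B : ℕ) {r : (Cir × Cir) × (Cir × Cir)} (hr : r ∈ rr κ) :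
    SegOk F r.1.2 (pk B F r.2.1 r.2.2).1 (pk B F r.1.1 r.1.2).2 := by
  obtain ⟨h1, h2⟩ := rr_mem hr
  have h3 := mem_cprs' _ h1
  have h4 := mem_cprs' _ h2
  have h5 := rr_adj hr
  refine segOk hb hS hL hF (hκ _ h3.2) ?_ ?_
  · rw [h5]
    exact (pk_mem B (node_ne hL (hκ _ h4.1)) (node_ne hL (hκ _ h4.2))).1
  · exact (pk_mem B (node_ne hL (hκ _ h3.1)) (node_ne hL (hκ _ h3.2))).2

theorem sum_map_congr {β : Type*} {l : List β} {f g : β → ℤ} (h : ∀ x ∈ l, f x = g x) :
    (l.map f).sum = (l.map g).sum := by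
  rw [List.map_congr_left h]

/-- Sum over a filtered list. -/
theorem sum_filter_map {β : Type*} (l : List β) (P : β → Prop) [DecidablePred P] (f : β → ℤ) :
    ((l.filter (fun x => decide (P x))).map f).sum =
      (l.map (fun x => if P x then f x else 0)).sum := by
  induction l with
  | nil => rfl
  | cons a l ih =>
    by_cases h : P a
    · rw [List.filter_cons_of_pos (by simpa using h)]
      simp [ih, h]
    · rw [List.filter_cons_of_neg (by simpa using h)]
      simp [ih, h]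

/-- The account, when there is no loop at a contracted circle. -/
theorem account_main (hb : PartB1) (hS : Sfree S) (hL : MinCover S L) (hF : FOk L F)
    {κ : List Cir} (hne : κ ≠ []) (hκ : ∀ n ∈ κ, n ∈ nodes L F)
    (hloop : ∀ e ∈ cprs [] κ, ¬ (e.1 ∈ F ∧ e.1 = e.2)) :
    2 * (cycW (walkY (bnd S) F κ) : ℤ) + (((visF (bnd S) F κ).map (slk F)).sum : ℕ) +
      (((cprs [] κ).map (fun e => gn (bnd S) F e.1 e.2)).sum : ℕ) =
    ((κ.map (fun n => if decide (n ∈ F) then 2 * cycW n else 0)).sum : ℕ) +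
      ((κ.map (base2 F)).sum : ℕ) + 2 * (bnd S : ℤ) * (κ.length : ℤ) := by
  set B := bnd S with hB
  -- the gain of an arc as an integer
  let G : Cir × Cir → ℤ := fun e => 2 * (ov (pk B F e.1 e.2).1.1 (pk B F e.1 e.2).2.1 : ℤ) -
    (pk B F e.1 e.2).1.2 - (pk B F e.1 e.2).2.2
  have hacc := account (blk B F) ((([], []), ([], [])) : (Cir × Cir) × (Cir × Cir)) (rr κ)
    (fun r hr => (blkOk hb hS hL hF hκ B hr).ne) (rr_ne hne)
    (fun r => (base2 F r.1.2 : ℤ)) (fun r => ((pk B F r.2.1 r.2.2).1.2 : ℤ))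
    (fun r => ((pk B F r.1.1 r.1.2).2.2 : ℤ))
  -- the gains
  have e1 : ((cprs ((([], []), ([], [])) : (Cir × Cir) × (Cir × Cir)) (rr κ)).map (fun r =>
      2 * (ov ((blk B F r.1).getLastD []) ((blk B F r.2).headD []) : ℤ) -
        ((pk B F r.1.2.1 r.1.2.2).1.2 : ℤ) - ((pk B F r.2.1.1 r.2.1.2).2.2 : ℤ))).sum =
      ((cprs [] κ).map G).sum := by
    have a1 : ((cprs ((([], []), ([], [])) : (Cir × Cir) × (Cir × Cir)) (rr κ)).map (fun r =>
      2 * (ov ((blk B F r.1).getLastD []) ((blk B F r.2).headD []) : ℤ) -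
        ((pk B F r.1.2.1 r.1.2.2).1.2 : ℤ) - ((pk B F r.2.1.1 r.2.1.2).2.2 : ℤ))).sum =
        ((cprs ((([], []), ([], [])) : (Cir × Cir) × (Cir × Cir)) (rr κ)).map
          (fun r => G r.1.2)).sum := by
      refine sum_map_congr fun r hr => ?_
      have hadj : r.1.2 = r.2.1 := cprs_adj _ _ _ r hr
      obtain ⟨hr1, hr2⟩ := mem_cprs' _ hr
      have b1 : (blk B F r.1).getLastD [] = (pk B F r.1.2.1 r.1.2.2).1.1 :=
        (blkOk hb hS hL hF hκ B hr1).ls
      have b2 : (blk B F r.2).headD [] = (pk B F r.2.1.1 r.2.1.2).2.1 :=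
        (blkOk hb hS hL hF hκ B hr2).hd
      rw [b1, b2, ← hadj]
    have a2 := sum_cprs_fst ((([], []), ([], [])) : (Cir × Cir) × (Cir × Cir)) (rr κ)
      (fun r => G r.2)
    have a3 := sum_cprs_snd (([], []) : Cir × Cir) (cprs [] κ) G
    exact a1.trans (a2.trans a3)
  rw [e1] at hacc
  -- the numbers of the classes
  have hsum : ∀ f : Cir → ℤ, ((rr κ).map (fun r => f r.1.2)).sum = (κ.map f).sum := by
    intro f
    have a1 := sum_cprs_fst (([], []) : Cir × Cir) (cprs [] κ) (fun e => f e.2)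
    have a2 := sum_cprs_snd ([] : Cir) κ f
    exact a1.trans a2
  rw [hsum (fun n => (base2 F n : ℤ))] at hacc
  -- the slack
  have e2 : ((((visF B F κ).map (slk F)).sum : ℕ) : ℤ) =
      ((rr κ).map (fun r => if r.1.2 ∈ F then 4 * (cycW r.1.2 : ℤ) +
        ((pk B F r.2.1 r.2.2).1.2 : ℤ) + ((pk B F r.1.1 r.1.2).2.2 : ℤ) -
        2 * ((mergeL (blk B F r)).length : ℤ) else 0)).sum := by
    rw [visF_eq B F hne, List.map_map, cast_sum_map]
    rw [← sum_filter_map (rr κ) (fun r => r.1.2 ∈ F)]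
    refine sum_map_congr fun r hr => ?_
    rw [List.mem_filter, decide_eq_true_eq] at hr
    have ok := blkOk hb hS hL hF hκ B hr.1
    have hle := ok.le hr.2
    have hnl : ¬ r.1.1 = r.1.2 := by
      intro h
      exact hloop r.1 (rr_mem hr.1).1 ⟨by rw [h]; exact hr.2, h⟩
    have hs : slk F (gA B F r.1, gA B F r.2) = 4 * cycW r.1.2 + (pk B F r.1.1 r.1.2).2.2 +
        (pk B F r.2.1 r.2.2).1.2 - 2 * (mergeL (blk B F r)).length := by
      unfold slk
      have hd : ¬ (decide ((gA B F r.1).1.1 = (gA B F r.1).1.2) = true) := by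
        rw [decide_eq_true_eq]
        exact hnl
      rw [if_neg hd]
      rfl
    simp only [Function.comp_apply]
    rw [hs]
    have hle' : 2 * (mergeL (blk B F r)).length ≤ 4 * cycW r.1.2 + (pk B F r.1.1 r.1.2).2.2 +
        (pk B F r.2.1 r.2.2).1.2 := hle
    push_cast [Nat.cast_sub hle']
    ring
  have e3 : ((rr κ).map (fun r => (base2 F r.1.2 : ℤ) + ((pk B F r.2.1 r.2.2).1.2 : ℤ) +
      ((pk B F r.1.1 r.1.2).2.2 : ℤ) - 2 * ((mergeL (blk B F r)).length : ℤ))).sum =
      ((rr κ).map (fun r => if r.1.2 ∈ F then 4 * (cycW r.1.2 : ℤ) +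
        ((pk B F r.2.1 r.2.2).1.2 : ℤ) + ((pk B F r.1.1 r.1.2).2.2 : ℤ) -
        2 * ((mergeL (blk B F r)).length : ℤ) else 0)).sum -
      ((rr κ).map (fun r => if r.1.2 ∈ F then 2 * (cycW r.1.2 : ℤ) else 0)).sum := by
    rw [← sum_map_sub_int]
    refine sum_map_congr fun r hr => ?_
    have ok := blkOk hb hS hL hF hκ B hr
    by_cases h : r.1.2 ∈ F
    · rw [if_pos h, if_pos h]
      unfold base2
      rw [if_pos (by simpa using h)]
      push_cast
      ring
    · rw [if_neg h, if_neg h]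
      obtain ⟨h1, h2, h3⟩ := ok.eq h
      have h3' : 2 * ((mergeL (blk B F r)).length : ℤ) = (base2 F r.1.2 : ℤ) := by
        exact_mod_cast h3
      rw [h1, h2, h3']
      push_cast
      ring
  rw [e3, ← e2, hsum (fun n => if n ∈ F then 2 * (cycW n : ℤ) else 0)] at hacc
  -- the gains of the matrix
  have e4 : ((((cprs [] κ).map (fun e => gn B F e.1 e.2)).sum : ℕ) : ℤ) =
      ((cprs [] κ).map G).sum + 2 * (B : ℤ) * (κ.length : ℤ) := by
    have hlen : (cprs [] κ).length = κ.length := by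
      have := congrArg List.length (cprs_fst ([] : Cir) κ)
      rwa [List.length_map] at this
    have a1 : ((cprs [] κ).map (fun _ => 2 * (B : ℤ))).sum = 2 * (B : ℤ) * (κ.length : ℤ) := by
      rw [List.map_const', List.sum_replicate, hlen]
      simp only [nsmul_eq_mul]
      ring
    rw [cast_sum_map, ← a1, ← sum_map_add_int]
    refine sum_map_congr fun e he => ?_
    have hm := mem_cprs' _ he
    have hn1 := hκ _ hm.1
    have hn2 := hκ _ hm.2
    have hpk := pk_mem B (F := F) (node_ne hL hn1) (node_ne hL hn2)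
    have p1 := exs_pen hL hn1 hpk.1
    have p2 := ens_pen hL hn2 hpk.2
    rw [← hB] at p1 p2
    have hgn : gn B F e.1 e.2 = gv B (pk B F e.1 e.2).1 (pk B F e.1 e.2).2 := by
      unfold gn
      rw [if_neg]
      rw [Bool.and_eq_true, decide_eq_true_eq, decide_eq_true_eq]
      exact hloop e he
    rw [hgn]
    unfold gv
    rw [Nat.cast_sub (by omega)]
    simp only [G]
    push_cast
    ring
  rw [e4]
  have e5 : ((((κ.map (fun n => if decide (n ∈ F) then 2 * cycW n else 0)).sum : ℕ)) : ℤ) =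
      (κ.map (fun n => if n ∈ F then 2 * (cycW n : ℤ) else 0)).sum := by
    rw [cast_sum_map]
    refine sum_map_congr fun n _ => ?_
    by_cases h : n ∈ F
    · rw [if_pos h, if_pos (by simpa using h)]
      push_cast
      ring
    · rw [if_neg h, if_neg (by simpa using h)]
      simp
  rw [e5, cast_sum_map κ (base2 F), walkY_eq B F hne]
  linarith

/-- The account for a loop at a contracted circle. -/
theorem account_loop (hS : Sfree S) (hL : MinCover S L) (hF : FOk L F) {D : Cir} (hD : D ∈ F) :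
    2 * cycW (walkY (bnd S) F [D]) + ((visF (bnd S) F [D]).map (slk F)).sum +
      ((cprs [] [D]).map (fun e => gn (bnd S) F e.1 e.2)).sum =
    (([D] : List Cir).map (fun n => if decide (n ∈ F) then 2 * cycW n else 0)).sum +
      (([D] : List Cir).map (base2 F)).sum + 2 * bnd S * ([D] : List Cir).length := by
  have hDL := hF.sub D hD
  have hne := hL.ne D hDL
  have hw := walkY_loop (bnd S) hne (nodup_cir hS hL hDL) hD
  have hv : visF (bnd S) F [D] = [(gA (bnd S) F (D, D), gA (bnd S) F (D, D))] := by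
    rw [visF_eq _ _ (by simp), rr_single, List.filter_cons_of_pos (by simpa using hD)]
    rfl
  have hs : slk F (gA (bnd S) F (D, D), gA (bnd S) F (D, D)) = 2 * cycO D := by
    unfold slk
    rw [if_pos (by simp [gA])]
    rfl
  have hg : gn (bnd S) F D D = 2 * bnd S + 2 * cycW D - 2 * cycO D := by
    unfold gn
    rw [if_pos (by simp [hD])]
  have hb : base2 F D = 2 * cycW D := by
    unfold base2
    rw [if_pos (by simpa using hD)]
  have ho : cycO D < bnd S := by
    have h1 := cycO_le_head D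
    have h2 : D.headD [] ∈ D := by
      obtain ⟨a, r, rfl⟩ := List.exists_cons_of_ne_nil hne
      simp
    have h3 := length_lt_bnd (mem_of_cir hL hDL h2)
    omega
  have hc : cprs ([] : Cir) [D] = [(D, D)] := rfl
  rw [hw, hv, hc]
  simp only [List.map_cons, List.map_nil, List.sum_cons, List.sum_nil, List.length_singleton]
  rw [hs, hg, hb, if_pos (by simpa using hD)]
  omega

/-- B2. -/
theorem partB2_of (hb : PartB1) : PartB2 := by
  intro S L F hS hL hF κ hne hnd hκ
  have hloopw : ∀ D ∈ F, κ = [D] → walkY (bnd S) F κ = D := by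
    intro D hD hk
    rw [hk]
    have hDL := hF.sub D hD
    exact walkY_loop (bnd S) (hL.ne D hDL) (nodup_cir hS hL hDL) hD
  refine ⟨?_, ?_, ?_, ?_⟩
  · by_cases hl : ∃ D ∈ F, κ = [D]
    · obtain ⟨D, hD, rfl⟩ := hl
      exact account_loop hS hL hF hD
    · have h := account_main hb hS hL hF hne hκ (by
        rintro ⟨a, b⟩ he ⟨h1, h2⟩
        dsimp only at h1 h2
        subst h2
        exact hl ⟨a, h1, cprs_loop [] a hnd he⟩)
      exact_mod_cast h
  · intro s
    rw [walkY_eq _ _ hne, List.mem_flatMap]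
    constructor
    · rintro ⟨r, hr, hs⟩
      exact ⟨r.1.2, (mem_cprs' _ (rr_mem hr).1).2,
        ((blkOk hb hS hL hF hκ (bnd S) hr).sub s).1 hs⟩
    · rintro ⟨n, hn, hs⟩
      obtain ⟨r, hr, rfl⟩ := exists_rr hn
      exact ⟨r, hr, ((blkOk hb hS hL hF hκ (bnd S) hr).sub s).2 hs⟩
  · intro n hn hnF
    obtain ⟨r, hr, rfl⟩ := exists_rr hn
    refine ⟨(gA (bnd S) F r.1, gA (bnd S) F r.2), ?_, rfl⟩
    rw [visF_eq _ _ hne]
    exact List.mem_map.2 ⟨r, List.mem_filter.2 ⟨hr, by simpa using hnF⟩, rfl⟩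
  · intro f hf
    rw [visF_eq _ _ hne] at hf
    obtain ⟨r, hr, rfl⟩ := List.mem_map.1 hf
    rw [List.mem_filter, decide_eq_true_eq] at hr
    obtain ⟨hr, hrF⟩ := hr
    obtain ⟨h1, h2⟩ := rr_mem hr
    have h3 := mem_cprs' _ h1
    have h4 := mem_cprs' _ h2
    have h5 := rr_adj hr
    refine ⟨h3.2, h5.symm, ?_, ?_, ?_⟩
    · intro heq
      have heq' : r.1.1 = r.1.2 := heq
      have h6 : κ = [r.1.2] := by
        refine cprs_loop [] r.1.2 hnd ?_
        have : r.1 = (r.1.2, r.1.2) := by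
          rw [Prod.ext_iff]
          exact ⟨heq', rfl⟩
        rw [← this]
        exact h1
      exact ⟨h6, hloopw _ hrF h6⟩
    · have hx := (pk_mem (bnd S) (F := F) (node_ne hL (hκ _ h4.1)) (node_ne hL (hκ _ h4.2))).1
      have hy := (pk_mem (bnd S) (F := F) (node_ne hL (hκ _ h3.1)) (node_ne hL (hκ _ h3.2))).2
      obtain ⟨e1, he1, hp1⟩ := exs_form (n := r.2.1) (by rw [← h5]; exact hrF) hx
      obtain ⟨e2, he2, hp2⟩ := ens_form hrF hy
      exact ⟨e1, by rw [← h5] at he1; exact he1, e2, he2, hp1, hp2⟩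
    · rw [walkY_eq _ _ hne, List.flatMap_def]
      exact List.infix_of_mem_flatten (List.mem_map.2 ⟨r, hr, rfl⟩)

end

end Vale.Agent.P333.H705
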