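import Mathlib
import Vale.Agent.P333.H705.B2

set_option linter.all false

/-!
P333, ratio `2`: the cycles of classes of an assignment.
-/

namespace Vale.Agent.P333.H705

open Vale.Agent.P333 Vale.Agent.P333.U Vale.Agent.P333.E Vale.Agent.P333.G Vale.Agent.P333.Y

theorem map_getD_range {δ : Type*} (N : List δ) (d : δ) :
    (List.range N.length).map (fun i => N.getD i d) = N := by
  apply List.ext_getElem
  · simp
  · intro i h1 h2
    simp only [List.getElem_map, List.getElem_range]
    rw [List.getD_eq_getElem _ _ h2]

theorem map_getD_perm {δ : Type*} (N : List δ) (d : δ) {Q : List ℕ}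
    (hQ : Q.Perm (List.range N.length)) : (Q.map (fun i => N.getD i d)).Perm N := by
  have h := hQ.map (fun i => N.getD i d)
  rwa [map_getD_range N d] at h

variable {M : List (List ℕ)} {N : List Cir} {P : List ℕ}

theorem ycs_ne {κ : List Cir} (h : κ ∈ ycs M N P) : κ ≠ [] := by
  obtain ⟨c, hc, rfl⟩ := List.mem_map.1 h
  have := (joinFold_ok N.length (arcsS M P N.length)).1.ne c hc
  simpa only [List.getD_eq_getElem?_getD, ne_eq, List.map_eq_nil_iff] using this

theorem ycs_perm (M : List (List ℕ)) (N : List Cir) (P : List ℕ) :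
    (ycs M N P).flatten.Perm N := by
  have h := (joinFold_ok N.length (arcsS M P N.length)).2
  have e : (ycs M N P).flatten =
      ((joinFold N.length (arcsS M P N.length)).flatten).map (fun i => N.getD i []) := by
    unfold ycs
    rw [List.map_flatten]
  rw [e]
  exact map_getD_perm N [] h

theorem ycs_mem {κ : List Cir} (h : κ ∈ ycs M N P) {n : Cir} (hn : n ∈ κ) : n ∈ N :=
  (ycs_perm M N P).mem_iff.1 (List.mem_flatten.2 ⟨κ, h, hn⟩)

theorem exists_ycs (M : List (List ℕ)) (P : List ℕ) {n : Cir} (hn : n ∈ N) :
    ∃ κ ∈ ycs M N P, n ∈ κ := List.mem_flatten.1 ((ycs_perm M N P).mem_iff.2 hn)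

theorem ycs_nodup (hN : N.Nodup) {κ : List Cir} (h : κ ∈ ycs M N P) : κ.Nodup := by
  have h1 : (ycs M N P).flatten.Nodup := (ycs_perm M N P).nodup_iff.2 hN
  exact (List.nodup_flatten.1 h1).1 κ h

theorem ycs_disj (hN : N.Nodup) : (ycs M N P).Pairwise List.Disjoint := by
  have h1 : (ycs M N P).flatten.Nodup := (ycs_perm M N P).nodup_iff.2 hN
  exact (List.nodup_flatten.1 h1).2

/-- The arcs of the cycles are the arcs of the assignment. -/
theorem ycs_arc (hP : P.Perm (List.range N.length)) {κ : List Cir} (h : κ ∈ ycs M N P)
    {e : Cir × Cir} (he : e ∈ cprs [] κ) :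
    ∃ i < N.length, e.1 = N.getD i [] ∧ e.2 = N.getD (P.getD i 0) [] := by
  obtain ⟨c, hc, rfl⟩ := List.mem_map.1 h
  have hok := joinFold_ok N.length (arcsS M P N.length)
  rw [cprs_map (fun i => N.getD i []) 0 [] c (hok.1.ne c hc)] at he
  obtain ⟨f, hf, rfl⟩ := List.mem_map.1 he
  have h1 := (closed_cycles hP hc).1 f hf
  refine ⟨f.1, ?_, rfl, ?_⟩
  · have h2 := (mem_cprs' 0 hf).1
    exact List.mem_range.1 (hok.2.mem_iff.1 (List.mem_flatten.2 ⟨c, hc, h2⟩))
  · dsimp only
    rw [h1]

/-- Sums over the arcs of the cycles. -/
theorem ycs_sum (hP : P.Perm (List.range N.length)) (g : Cir → Cir → ℕ) :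
    ((ycs M N P).map (fun κ => ((cprs [] κ).map (fun e => g e.1 e.2)).sum)).sum =
      ((List.range N.length).map
        (fun i => g (N.getD i []) (N.getD (P.getD i 0) []))).sum := by
  have hok := joinFold_ok N.length (arcsS M P N.length)
  have h1 : (ycs M N P).map (fun κ => ((cprs [] κ).map (fun e => g e.1 e.2)).sum) =
      (joinFold N.length (arcsS M P N.length)).map (fun c =>
        (c.map (fun i => g (N.getD i []) (N.getD (P.getD i 0) []))).sum) := by
    unfold ycs
    rw [List.map_map]
    refine List.map_congr_left fun c hc => ?_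
    simp only [Function.comp_apply]
    rw [cprs_map (fun i => N.getD i []) 0 [] c (hok.1.ne c hc), List.map_map]
    conv_rhs => rw [← cprs_fst 0 c, List.map_map]
    congr 1
    refine List.map_congr_left fun e he => ?_
    simp only [Function.comp_apply]
    rw [(closed_cycles hP hc).1 e he]
  rw [h1]
  have h2 := (hok.2.map (fun i => g (N.getD i []) (N.getD (P.getD i 0) []))).sum_eq
  rw [← h2, List.map_flatten, List.sum_flatten, List.map_map]
  rfl

theorem ent_gmat (B : ℕ) (F : List Cir) (N : List Cir) {i j : ℕ} (hi : i < N.length)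
    (hj : j < N.length) : ent (gmat B F N) i j = gn B F (N.getD i []) (N.getD j []) := by
  have h1 : (gmat B F N).getD i [] = N.map (fun m => gn B F (N.getD i []) m) := by
    unfold gmat
    rw [List.getD_eq_getElem _ _ (by simpa using hi), List.getElem_map,
      List.getD_eq_getElem _ _ hi]
  unfold ent
  rw [h1, List.getD_eq_getElem _ _ (by simpa using hj), List.getElem_map,
    List.getD_eq_getElem _ _ hj]

theorem asgVal_gmat (B : ℕ) (F : List Cir) (hP : P.Perm (List.range N.length)) :
    asgVal (gmat B F N) P = ((List.range N.length).map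
      (fun i => gn B F (N.getD i []) (N.getD (P.getD i 0) []))).sum := by
  unfold asgVal
  have hl : (gmat B F N).length = N.length := by simp [gmat]
  rw [hl]
  congr 1
  refine List.map_congr_left fun i hi => ?_
  rw [List.mem_range] at hi
  have hl2 : P.length = N.length := by rw [hP.length_eq, List.length_range]
  have hj : P.getD i 0 < N.length := by
    rw [List.getD_eq_getElem _ _ (by omega)]
    exact List.mem_range.1 (hP.mem_iff.1 (List.getElem_mem _))
  exact ent_gmat B F N hi hj

/-- The value of the assignment is the sum of the gains of the cycles. -/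
theorem ycs_gn (B : ℕ) (F : List Cir) (hP : P.Perm (List.range N.length)) :
    ((ycs M N P).map (fun κ => ((cprs [] κ).map (fun e => gn B F e.1 e.2)).sum)).sum =
      asgVal (gmat B F N) P := by
  rw [ycs_sum hP (gn B F), asgVal_gmat B F hP]

/-- Sums over the classes. -/
theorem ycs_classes (M : List (List ℕ)) (N : List Cir) (P : List ℕ) (f : Cir → ℕ) :
    ((ycs M N P).map (fun κ => (κ.map f).sum)).sum = (N.map f).sum := by
  have h := ((ycs_perm M N P).map f).sum_eq
  rw [← h, List.map_flatten, List.sum_flatten, List.map_map]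
  rfl

theorem ycs_length (M : List (List ℕ)) (N : List Cir) (P : List ℕ) :
    ((ycs M N P).map List.length).sum = N.length := by
  rw [← List.length_flatten]
  exact (ycs_perm M N P).length_eq

/-- The strings of the classes. -/
theorem nodes_flatten (L F : List Cir) : (nodes L F).flatten = L.flatten := by
  unfold nodes
  induction L with
  | nil => rfl
  | cons c L ih =>
    rw [List.flatMap_cons, List.flatten_append, ih, List.flatten_cons]
    congr 1
    split_ifs
    · simp
    · rw [← List.flatMap_def]
      exact List.flatMap_singleton' c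

/-- No class occurs twice. -/
theorem nodes_nodup {S : List (List ℕ)} {L F : List Cir} (hS : Sfree S) (hL : MinCover S L) :
    (nodes L F).Nodup := by
  have hflat : L.flatten.Nodup := by
    rw [hL.perm.nodup_iff]
    exact Sfree.nodup hS
  have hn : ((nodes L F).flatten) = L.flatten := nodes_flatten L F
  have h1 : (nodes L F).flatten.Nodup := by rw [hn]; exact hflat
  have h2 := (List.nodup_flatten.1 h1).2
  refine h2.imp_of_mem ?_
  rintro a b ha hb hd rfl
  obtain ⟨x, hx⟩ := List.exists_mem_of_ne_nil _ (node_ne hL ha)
  exact hd hx hx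

/-- **All cycles together.** -/
theorem sum_walkY (hb : PartB2) {S : List (List ℕ)} {L F : List Cir} (hS : Sfree S)
    (hL : MinCover S L) (hF : FOk L F) (hP : P.Perm (List.range (nodes L F).length)) :
    2 * ((ycs M (nodes L F) P).map (fun κ => cycW (walkY (bnd S) F κ))).sum +
      ((ycs M (nodes L F) P).map (fun κ => ((visF (bnd S) F κ).map (slk F)).sum)).sum +
      asgVal (gmat (bnd S) F (nodes L F)) P =
    ((nodes L F).map (fun n => if decide (n ∈ F) then 2 * cycW n else 0)).sum +
      ((nodes L F).map (base2 F)).sum + 2 * bnd S * (nodes L F).length := by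
  have hN := nodes_nodup (F := F) hS hL
  have key : ∀ κ ∈ ycs M (nodes L F) P,
      2 * cycW (walkY (bnd S) F κ) + ((visF (bnd S) F κ).map (slk F)).sum +
        ((cprs [] κ).map (fun e => gn (bnd S) F e.1 e.2)).sum =
      (κ.map (fun n => if decide (n ∈ F) then 2 * cycW n else 0)).sum + (κ.map (base2 F)).sum +
        2 * bnd S * κ.length := fun κ hκ =>
    (hb S L F hS hL hF κ (ycs_ne hκ) (ycs_nodup hN hκ) (fun n hn => ycs_mem hκ hn)).1
  have hsum : ((ycs M (nodes L F) P).map (fun κ =>
      2 * cycW (walkY (bnd S) F κ) + ((visF (bnd S) F κ).map (slk F)).sum +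
        ((cprs [] κ).map (fun e => gn (bnd S) F e.1 e.2)).sum)).sum =
      ((ycs M (nodes L F) P).map (fun κ =>
      (κ.map (fun n => if decide (n ∈ F) then 2 * cycW n else 0)).sum + (κ.map (base2 F)).sum +
        2 * bnd S * κ.length)).sum := by
    rw [List.map_congr_left key]
  rw [List.sum_map_add, List.sum_map_add, List.sum_map_add, List.sum_map_add,
    List.sum_map_mul_left, List.sum_map_mul_left, ycs_gn (bnd S) F hP, ycs_classes, ycs_classes,
    ycs_length] at hsum
  exact hsum

/-- A string lies in one circle only. -/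
theorem cir_eq {S : List (List ℕ)} {L : List Cir} (hS : Sfree S) (hL : MinCover S L) {c d : Cir}
    (hc : c ∈ L) (hd : d ∈ L) {s : List ℕ} (h1 : s ∈ c) (h2 : s ∈ d) : c = d := by
  by_contra hne
  have hflat : L.flatten.Nodup := by
    rw [hL.perm.nodup_iff]
    exact Sfree.nodup hS
  have h3 := (List.nodup_flatten.1 hflat).2
  have : Std.Symm (List.Disjoint : Cir → Cir → Prop) := ⟨fun a b h => h.symm⟩
  exact h3.forall hc hd hne h1 h2

/-- Weights of the contracted circles and of the other circles. -/
theorem sum_cycW_split {S : List (List ℕ)} {L F : List Cir} (hS : Sfree S) (hL : MinCover S L)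
    (hF : FOk L F) :
    ((nodes L F).map (fun n => if decide (n ∈ F) then 2 * cycW n else 0)).sum +
      2 * ((L.filter (fun c => !decide (c ∈ F))).map cycW).sum = 2 * (L.map cycW).sum := by
  -- singletons of circles outside `F` are not in `F`
  have hsing : ∀ c ∈ L, c ∉ F → ∀ s ∈ c, ([s] : Cir) ∉ F := by
    intro c hc hcF s hs h
    have h1 := cir_eq hS hL hc (hF.sub _ h) hs (by simp)
    exact hcF (h1 ▸ h)
  have key : ∀ K : List Cir, (∀ c ∈ K, c ∈ L) →
      ((K.flatMap (fun c => if decide (c ∈ F) then [c] else c.map (fun s => [s]))).map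
        (fun n => if decide (n ∈ F) then 2 * cycW n else 0)).sum +
      2 * ((K.filter (fun c => !decide (c ∈ F))).map cycW).sum = 2 * (K.map cycW).sum := by
    intro K
    induction K with
    | nil => intro _; rfl
    | cons c K ih =>
      intro hK
      have h1 := ih fun d hd => hK d (List.mem_cons_of_mem _ hd)
      have hc := hK c List.mem_cons_self
      rw [List.flatMap_cons, List.map_append, List.sum_append, List.map_cons, List.sum_cons]
      by_cases hcF : c ∈ F
      · rw [if_pos (by simpa using hcF), List.filter_cons_of_neg (by simpa using hcF)]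
        simp only [List.map_cons, List.map_nil, List.sum_cons, List.sum_nil]
        rw [if_pos (by simpa using hcF)]
        omega
      · rw [if_neg (by simpa using hcF), List.filter_cons_of_pos (by simpa using hcF)]
        simp only [List.map_cons, List.sum_cons, List.map_map]
        have h2 : (c.map ((fun n : Cir => if decide (n ∈ F) then 2 * cycW n else 0) ∘
            fun s => [s])).sum = 0 := by
          rw [List.sum_eq_zero_iff]
          intro x hx
          obtain ⟨s, hs, rfl⟩ := List.mem_map.1 hx
          simp only [Function.comp_apply]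
          rw [if_neg (by simpa using hsing c hc hcF s hs)]
        rw [h2]
        omega
  exact key L fun c hc => hc

end Vale.Agent.P333.H705
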