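import Mathlib
import Vale.Agent.P333.H120.B1
import Vale.Agent.P333.H705.B2

set_option linter.all false

/-!
P333, ratio `2`: part B2.
-/

namespace Vale.Agent.P333.H705

/-- B2. -/
theorem partB2 : Vale.Agent.P333.Y.PartB2 := partB2_of Vale.Agent.P333.H120.partB1

end Vale.Agent.P333.H705
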