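import Mathlib
import Vale.Agent.P333.Model

set_option autoImplicit false

/-!
P333: definition of the runs of the greedy algorithm, with arbitrary choices for the ties.
-/

namespace Vale.Agent.P333.Greedy

/-- `k` is the length of the longest overlap of `x` and `y`, that is, of the longest string which
is a suffix of `x` and a prefix of `y`. -/
def IsOverlap (x y : List ℕ) (k : ℕ) : Prop :=
  IsGreatest {k : ℕ | ∃ w : List ℕ, w.length = k ∧ w <:+ x ∧ w <+: y} k

/-- `F` lists, each one once, the strings of `S` which are not substrings of other strings of
`S`. -/
def Reduced (S F : List (List ℕ)) : Prop :=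
  F.Nodup ∧ ∀ s, s ∈ F ↔ s ∈ S ∧ ∀ t ∈ S, s <:+: t → s = t

/-- One step of the greedy algorithm: two distinct strings `x`, `y` of the family with a longest
overlap among all ordered pairs of distinct strings of the family are replaced by their merge along
this overlap. The ties are broken arbitrarily. -/
def Step (F F' : List (List ℕ)) : Prop :=
  ∃ (x y : List ℕ) (R : List (List ℕ)) (k : ℕ), F.Perm (x :: y :: R) ∧ IsOverlap x y k ∧
    (∀ (z w : List ℕ) (R' : List (List ℕ)) (l : ℕ), F.Perm (z :: w :: R') →
      IsOverlap z w l → l ≤ k) ∧
    F' = (x.take (x.length - k) ++ y) :: R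

/-- `t` is a possible output of the greedy algorithm for the family `S`: it starts with the reduced
family and makes steps until one string `t` remains. -/
def Output (S : List (List ℕ)) (t : List ℕ) : Prop :=
  ∃ F, Reduced S F ∧ Relation.ReflTransGen Step F [t]

end Vale.Agent.P333.Greedy
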