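import Vale.Agent.P333.H705.GrE

set_option autoImplicit false

/-!
P333, the greedy algorithm: culprits, the strings before and after them, matchings.
-/

namespace Vale.Agent.P333.H705.Gr

open Classical

/-- Overlaps of a path of `m` strings in which every pair is dominated; `G q` is the overlap of the
strings `q - 1` and `q` plus one, and zero at the ends. -/
structure PD (m : ℕ) (o : ℕ → ℕ → ℕ) (G : ℕ → ℕ) : Prop where
  z0 : G 0 = 0
  zm : G m = 0
  gi : ∀ q, 0 < q → q < m → G q = o (q - 1) q + 1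
  gp : ∀ i j, i < m → j < m → o i j < G (i + 1) ∨ o i j < G j ∨
    (j ≤ i ∧ ∀ q, j < q → q ≤ i → o i j < G q)

/-- The overlap of the ends of the interval is larger than the overlaps outside, and smaller than
the overlaps inside. -/
def Bad (m : ℕ) (o : ℕ → ℕ → ℕ) (G : ℕ → ℕ) (a b : ℕ) : Prop :=
  a ≤ b ∧ b < m ∧ G a ≤ o b a ∧ G (b + 1) ≤ o b a ∧ ∀ q, a < q → q ≤ b → o b a < G q

/-- A minimal bad interval. -/
def Cu (m : ℕ) (o : ℕ → ℕ → ℕ) (G : ℕ → ℕ) (a b : ℕ) : Prop :=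
  Bad m o G a b ∧ ∀ a' b', Bad m o G a' b' → a ≤ a' → b' ≤ b → a' = a ∧ b' = b

/-- The index lies in a minimal bad interval. -/
def IM (m : ℕ) (o : ℕ → ℕ → ℕ) (G : ℕ → ℕ) (x : ℕ) : Prop :=
  ∃ a b, Cu m o G a b ∧ a ≤ x ∧ x ≤ b

/-- The index is the end of a minimal bad interval. -/
def IE (m : ℕ) (o : ℕ → ℕ → ℕ) (G : ℕ → ℕ) (x : ℕ) : Prop := ∃ a, Cu m o G a x

/-- The index lies on the left of a minimal bad interval. -/
def IL (m : ℕ) (o : ℕ → ℕ → ℕ) (G : ℕ → ℕ) (i : ℕ) : Prop :=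
  ¬ IM m o G i ∧ ∃ n, i < n ∧ IM m o G n ∧ ∀ x, i ≤ x → x < n → ¬ IM m o G x ∧
    ∀ a, ¬ Bad m o G a x

/-- The other indices. -/
def IR (m : ℕ) (o : ℕ → ℕ → ℕ) (G : ℕ → ℕ) (j : ℕ) : Prop :=
  j < m ∧ ¬ IM m o G j ∧ ¬ IL m o G j

/-- The value of a tail. -/
noncomputable def al (m : ℕ) (o : ℕ → ℕ → ℕ) (G : ℕ → ℕ) (i : ℕ) : ℕ :=
  if h : IE m o G i then o i h.choose else G (i + 1) - 1

/-- The value of a head. -/
noncomputable def be (m : ℕ) (o : ℕ → ℕ → ℕ) (G : ℕ → ℕ) (j : ℕ) : ℕ :=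
  if h : ∃ b, Cu m o G j b then o h.choose j else G j - 1

/-- The successor; the first index of the interval for the last one. -/
noncomputable def nx (m : ℕ) (o : ℕ → ℕ → ℕ) (G : ℕ → ℕ) (i : ℕ) : ℕ :=
  if h : IE m o G i then h.choose else i + 1

variable {m : ℕ} {o : ℕ → ℕ → ℕ} {G : ℕ → ℕ}

theorem cross {a b c d : ℕ} (h1 : Bad m o G a b) (h2 : Bad m o G c d) (hac : a < c)
    (hcb : c ≤ b) (hbd : b < d) : False := by
  obtain ⟨-, -, -, h3, h4⟩ := h1
  obtain ⟨-, -, h5, -, h6⟩ := h2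
  have e1 := h4 c hac hcb
  have e2 := h6 (b + 1) (by omega) (by omega)
  omega

theorem exists_cu : ∀ (n a b : ℕ), b - a ≤ n → Bad m o G a b →
    ∃ a' b', a ≤ a' ∧ b' ≤ b ∧ Cu m o G a' b' := by
  intro n
  induction n with
  | zero =>
    intro a b hn h
    refine ⟨a, b, le_rfl, le_rfl, h, ?_⟩
    intro a' b' h' h1 h2
    have h3 := h'.1
    have h4 := h.1
    omega
  | succ n ih =>
    intro a b hn h
    by_cases hmin : ∀ a' b', Bad m o G a' b' → a ≤ a' → b' ≤ b → a' = a ∧ b' = b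
    · exact ⟨a, b, le_rfl, le_rfl, h, hmin⟩
    · push Not at hmin
      obtain ⟨a', b', h1, h2, h3, h4⟩ := hmin
      have h5 := h1.1
      obtain ⟨c, d, h6, h7, h8⟩ := ih a' b' (by
        by_cases e : a' = a
        · have := h4 e; omega
        · omega) h1
      exact ⟨c, d, by omega, by omega, h8⟩

theorem bad_im {a b : ℕ} (h : Bad m o G a b) : ∃ a' b', a ≤ a' ∧ a' ≤ b' ∧ b' ≤ b ∧
    Cu m o G a' b' := by
  obtain ⟨a', b', h1, h2, h3⟩ := exists_cu _ a b le_rfl h
  exact ⟨a', b', h1, h3.1.1, h2, h3⟩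

theorem Cu.eq {a b c d x : ℕ} (h1 : Cu m o G a b) (h2 : Cu m o G c d) (ha : a ≤ x) (hb : x ≤ b)
    (hc : c ≤ x) (hd : x ≤ d) : a = c ∧ b = d := by
  rcases Nat.lt_trichotomy a c with h | h | h
  · rcases Nat.lt_or_ge b d with h' | h'
    · exact (cross h1.1 h2.1 h (by omega) h').elim
    · have := h1.2 c d h2.1 h.le h'
      omega
  · rcases Nat.le_total b d with h' | h'
    · have := h2.2 a b h1.1 h.ge h'
      omega
    · have := h1.2 c d h2.1 h.le h'
      omega
  · rcases Nat.lt_or_ge d b with h' | h'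
    · exact (cross h2.1 h1.1 h (by omega) h').elim
    · have := h2.2 a b h1.1 h.le h'
      omega

theorem Cu.im {a b x : ℕ} (h : Cu m o G a b) (ha : a ≤ x) (hb : x ≤ b) : IM m o G x :=
  ⟨a, b, h, ha, hb⟩

theorem IM.lt {x : ℕ} (h : IM m o G x) : x < m := by
  obtain ⟨a, b, h1, h2, h3⟩ := h
  have := h1.1.2.1
  omega

theorem Cu.ie {a b : ℕ} (h : Cu m o G a b) : IE m o G b := ⟨a, h⟩

theorem IE.im {x : ℕ} (h : IE m o G x) : IM m o G x := by
  obtain ⟨a, h⟩ := h
  exact h.im h.1.1 le_rfl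

theorem Cu.al {a b : ℕ} (h : Cu m o G a b) : al m o G b = o b a := by
  have h1 : IE m o G b := h.ie
  unfold Gr.al
  rw [dif_pos h1]
  have h2 := h1.choose_spec
  have h3 := (h.eq h2 h.1.1 le_rfl h2.1.1 le_rfl).1
  rw [← h3]

theorem Cu.nx {a b : ℕ} (h : Cu m o G a b) : nx m o G b = a := by
  have h1 : IE m o G b := h.ie
  unfold Gr.nx
  rw [dif_pos h1]
  have h2 := h1.choose_spec
  exact ((h.eq h2 h.1.1 le_rfl h2.1.1 le_rfl).1).symm

theorem Cu.be {a b : ℕ} (h : Cu m o G a b) : be m o G a = o b a := by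
  have h1 : ∃ b, Cu m o G a b := ⟨b, h⟩
  unfold Gr.be
  rw [dif_pos h1]
  have h2 := h1.choose_spec
  have h3 := (h.eq h2 le_rfl h.1.1 le_rfl h2.1.1).2
  rw [← h3]

theorem al_not {i : ℕ} (h : ¬ IE m o G i) : al m o G i = G (i + 1) - 1 := dif_neg h

theorem nx_not {i : ℕ} (h : ¬ IE m o G i) : nx m o G i = i + 1 := dif_neg h

theorem be_not {j : ℕ} (h : ¬ ∃ b, Cu m o G j b) : be m o G j = G j - 1 := dif_neg h

/-- An index of a minimal bad interval other than its end. -/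
theorem Cu.not_ie {a b i : ℕ} (h : Cu m o G a b) (ha : a ≤ i) (hb : i < b) : ¬ IE m o G i := by
  rintro ⟨a', h'⟩
  have := (h.eq h' ha hb.le h'.1.1 le_rfl).2
  omega

theorem Cu.not_start {a b j : ℕ} (h : Cu m o G a b) (ha : a < j) (hb : j ≤ b) :
    ¬ ∃ b', Cu m o G j b' := by
  rintro ⟨b', h'⟩
  have := (h.eq h' ha.le hb le_rfl h'.1.1).1
  omega

theorem al_ge {i j : ℕ} (h : o i j < G (i + 1)) : o i j ≤ al m o G i := by
  by_cases he : IE m o G i
  · obtain ⟨a, ha⟩ := he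
    rw [ha.al]
    have := ha.1.2.2.2.1
    omega
  · rw [al_not he]
    omega

theorem be_ge {i j : ℕ} (h : o i j < G j) : o i j ≤ be m o G j := by
  by_cases he : ∃ b, Cu m o G j b
  · obtain ⟨b, hb⟩ := he
    rw [hb.be]
    have := hb.1.2.2.1
    omega
  · rw [be_not he]
    omega

/-- No bad interval starts at an index of the third kind. -/
theorem IR.not_bad {j : ℕ} (h : IR m o G j) (b : ℕ) : ¬ Bad m o G j b := by
  intro hb
  obtain ⟨h1, h2, h3⟩ := h
  obtain ⟨a', b', e1, e2, e3, e4⟩ := bad_im hb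
  -- the first index of a minimal bad interval after `j`
  have hex : ∃ n, j < n ∧ IM m o G n := by
    refine ⟨a', ?_, e4.im le_rfl e2⟩
    rcases Nat.lt_or_ge j a' with h | h
    · exact h
    · exfalso
      have : j = a' := by omega
      rw [this] at h2
      exact h2 (e4.im le_rfl e2)
  have hn := Nat.find_spec hex
  have hmin := fun k (hk : k < Nat.find hex) => Nat.find_min hex hk
  set n := Nat.find hex with hndef
  have hno : ∀ x, j ≤ x → x < n → ¬ IM m o G x := by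
    intro x hx hxn hM
    rcases Nat.eq_or_lt_of_le hx with h | h
    · rw [h] at h2; exact h2 hM
    · exact hmin x hxn ⟨h, hM⟩
  have hnb : n ≤ b := by
    by_contra hcon
    exact hno a' e1 (by omega) (e4.im le_rfl e2)
  apply h3
  refine ⟨h2, n, hn.1, hn.2, fun x hx hxn => ⟨hno x hx hxn, fun a ha => ?_⟩⟩
  obtain ⟨c, d, f1, f2, f3, f4⟩ := bad_im ha
  have f5 : a < j := by
    by_contra hcon
    exact hno d (by omega) (by omega) (f4.im f2 le_rfl)
  exact cross ha hb f5 hx (by omega)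

theorem IL.not_bad {i : ℕ} (h : IL m o G i) (a : ℕ) : ¬ Bad m o G a i := by
  obtain ⟨h1, n, h2, h3, h4⟩ := h
  exact (h4 i le_rfl h2).2 a

theorem IL.succ {i : ℕ} (h : IL m o G i) : IM m o G (i + 1) ∨ IL m o G (i + 1) := by
  obtain ⟨h1, n, h2, h3, h4⟩ := h
  by_cases hM : IM m o G (i + 1)
  · exact Or.inl hM
  · right
    refine ⟨hM, n, ?_, h3, fun x hx => h4 x (by omega)⟩
    rcases Nat.eq_or_lt_of_le (show i + 1 ≤ n from h2) with h | h
    · rw [← h] at h3; exact absurd h3 hM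
    · exact h

theorem IL.lt {i : ℕ} (h : IL m o G i) : i + 1 < m := by
  obtain ⟨h1, n, h2, h3, h4⟩ := h
  have := h3.lt
  omega

/-- Every pair is dominated by the values of its tail and its head, unless the tail is of the third
kind and the head is of the second kind. -/
theorem PD.dom (hG : PD m o G) {i j : ℕ} (hi : i < m) (hj : j < m)
    (h : ¬ (IR m o G i ∧ IL m o G j)) : o i j ≤ max (al m o G i) (be m o G j) := by
  by_cases h1 : o i j < G (i + 1)
  · exact (al_ge h1).trans (le_max_left _ _)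
  by_cases h2 : o i j < G j
  · exact (be_ge h2).trans (le_max_right _ _)
  rcases hG.gp i j hi hj with h3 | h3 | ⟨h3, h4⟩
  · exact absurd h3 h1
  · exact absurd h3 h2
  have hbad : Bad m o G j i := ⟨h3, hi, by omega, by omega, h4⟩
  have hM : IM m o G i ∨ IM m o G j := by
    by_contra hcon
    push Not at hcon
    apply h
    constructor
    · exact ⟨hi, hcon.1, fun hL => hL.not_bad j hbad⟩
    · by_contra hL
      exact (show IR m o G j from ⟨hj, hcon.2, hL⟩).not_bad i hbad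
  rcases hM with ⟨a, b, hC, ha, hb⟩ | ⟨a, b, hC, ha, hb⟩
  · refine le_trans ?_ (le_max_left _ _)
    rcases Nat.eq_or_lt_of_le hb with rfl | hb
    · rw [hC.al]
      rcases Nat.lt_trichotomy j a with h5 | h5 | h5
      · have e1 := h4 a h5 ha
        have e2 := hC.1.2.2.1
        omega
      · rw [h5]
      · have := hC.2 j i hbad h5.le le_rfl
        omega
    · exfalso
      rcases Nat.lt_or_ge j a with h5 | h5
      · exact cross hbad hC.1 h5 ha hb
      · have := hC.2 j i hbad h5 hb.le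
        omega
  · refine le_trans ?_ (le_max_right _ _)
    rcases Nat.eq_or_lt_of_le ha with rfl | ha
    · rw [hC.be]
      rcases Nat.lt_trichotomy b i with h5 | h5 | h5
      · have e1 := h4 (b + 1) (by omega) (by omega)
        have e2 := hC.1.2.2.2.1
        omega
      · rw [h5]
      · have := hC.2 a i hbad le_rfl h5.le
        omega
    · exfalso
      rcases Nat.lt_or_ge b i with h5 | h5
      · exact cross hC.1 hbad ha hb h5
      · have := hC.2 j i hbad ha.le h5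
        omega

/-! ### The successor on the minimal bad intervals -/

theorem IM.nx {i : ℕ} (h : IM m o G i) : IM m o G (nx m o G i) := by
  obtain ⟨a, b, hC, ha, hb⟩ := h
  rcases Nat.eq_or_lt_of_le hb with rfl | hb
  · rw [hC.nx]
    exact hC.im le_rfl ha
  · rw [nx_not (hC.not_ie ha hb)]
    exact hC.im (by omega) hb

theorem nx_inj {i j : ℕ} (hi : IM m o G i) (hj : IM m o G j)
    (h : nx m o G i = nx m o G j) : i = j := by
  obtain ⟨a, b, hC, ha, hb⟩ := hi
  obtain ⟨c, d, hD, hc, hd⟩ := hj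
  rcases Nat.eq_or_lt_of_le hb with rfl | hb
  · rw [hC.nx] at h
    rcases Nat.eq_or_lt_of_le hd with rfl | hd
    · rw [hD.nx] at h
      exact (hC.eq hD le_rfl ha h.ge (by omega)).2
    · rw [nx_not (hD.not_ie hc hd)] at h
      have := (hC.eq hD le_rfl ha (by omega) (by omega)).1
      omega
  · rw [nx_not (hC.not_ie ha hb)] at h
    rcases Nat.eq_or_lt_of_le hd with rfl | hd
    · rw [hD.nx] at h
      have := (hC.eq hD (x := c) (by omega) (by omega) le_rfl hc).1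
      omega
    · rw [nx_not (hD.not_ie hc hd)] at h
      omega

theorem nx_surj {j : ℕ} (hj : IM m o G j) : ∃ i, IM m o G i ∧ nx m o G i = j := by
  obtain ⟨a, b, hC, ha, hb⟩ := hj
  rcases Nat.eq_or_lt_of_le ha with rfl | ha
  · exact ⟨b, hC.im hb le_rfl, hC.nx⟩
  · refine ⟨j - 1, hC.im (by omega) (by omega), ?_⟩
    rw [nx_not (hC.not_ie (by omega) (by omega))]
    omega

theorem PD.al_nx (hG : PD m o G) {i : ℕ} (hi : IM m o G i) :
    o i (nx m o G i) = al m o G i := by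
  obtain ⟨a, b, hC, ha, hb⟩ := hi
  rcases Nat.eq_or_lt_of_le hb with rfl | hb
  · rw [hC.nx, hC.al]
  · have h1 := hC.not_ie ha hb
    rw [nx_not h1, al_not h1, hG.gi (i + 1) (by omega) (by have := hC.1.2.1; omega)]
    simp

theorem PD.be_nx (hG : PD m o G) {i : ℕ} (hi : IM m o G i) :
    o i (nx m o G i) = be m o G (nx m o G i) := by
  obtain ⟨a, b, hC, ha, hb⟩ := hi
  rcases Nat.eq_or_lt_of_le hb with rfl | hb
  · rw [hC.nx, hC.be]
  · have h1 := hC.not_ie ha hb
    have h2 := hC.not_start (j := i + 1) (by omega) hb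
    rw [nx_not h1, be_not h2, hG.gi (i + 1) (by omega) (by have := hC.1.2.1; omega)]
    simp

theorem al_out {i : ℕ} (h : ¬ IM m o G i) : al m o G i = G (i + 1) - 1 :=
  al_not fun h' => h h'.im

theorem be_in {j : ℕ} (h : ¬ IM m o G j) : be m o G j = G j - 1 :=
  be_not fun ⟨_, h'⟩ => h (h'.im le_rfl h'.1.1)

/-! ### Matchings on the minimal bad intervals -/

/-- The indices of the minimal bad intervals. -/
noncomputable def FM (m : ℕ) (o : ℕ → ℕ → ℕ) (G : ℕ → ℕ) : Finset ℕ :=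
  (Finset.range m).filter (fun i => IM m o G i)

theorem mem_FM {i : ℕ} : i ∈ FM m o G ↔ IM m o G i := by
  unfold FM
  rw [Finset.mem_filter, Finset.mem_range]
  exact ⟨fun h => h.2, fun h => ⟨h.lt, h⟩⟩

theorem one_copy (hM : Exch o) (hG : PD m o G) (P : List (ℕ × ℕ)) (h1 : (P.map Prod.fst).Nodup)
    (h2 : (P.map Prod.snd).Nodup) (h3 : ∀ e ∈ P, IM m o G e.1 ∧ IM m o G e.2) :
    val o P ≤ ∑ i ∈ FM m o G, al m o G i := by
  have h := lemE hM (al m o G) (be m o G) (fun _ => 0) (nx m o G) _ (FM m o G) (FM m o G)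
    (FM m o G) P le_rfl (Finset.Subset.refl _) (fun i hi => mem_FM.2 (mem_FM.1 hi).nx)
    (fun i hi j hj => nx_inj (mem_FM.1 hi) (mem_FM.1 hj)) (fun _ _ => le_rfl)
    (fun i hi => hG.al_nx (mem_FM.1 hi)) (fun i hi => hG.be_nx (mem_FM.1 hi))
    (fun i hi j hj _ => hG.dom (mem_FM.1 hi).lt (mem_FM.1 hj).lt
      (fun h => h.1.2.1 (mem_FM.1 hi)))
    ⟨h1, h2, fun e he => ⟨mem_FM.2 (h3 e he).1, mem_FM.2 (h3 e he).2, le_rfl⟩⟩
  have h4 : (FM m o G).filter (fun y => y ∉ (FM m o G).image (nx m o G)) = ∅ := by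
    refine Finset.filter_eq_empty_iff.2 ?_
    intro y hy hy2
    obtain ⟨i, hi, hi2⟩ := nx_surj (mem_FM.1 hy)
    exact hy2 (Finset.mem_image.2 ⟨i, mem_FM.2 hi, hi2⟩)
  rw [h4, Finset.sum_empty, Nat.add_zero] at h
  exact h

/-! ### Matchings on two copies -/

/-- The indices of the second kind and of the minimal bad intervals. -/
noncomputable def FA (m : ℕ) (o : ℕ → ℕ → ℕ) (G : ℕ → ℕ) : Finset ℕ :=
  (Finset.range m).filter (fun i => IM m o G i ∨ IL m o G i)

/-- The indices of the third kind and of the minimal bad intervals. -/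
noncomputable def FB (m : ℕ) (o : ℕ → ℕ → ℕ) (G : ℕ → ℕ) : Finset ℕ :=
  (Finset.range m).filter (fun i => IM m o G i ∨ ¬ IL m o G i)

theorem sum_FAB (f : ℕ → ℕ) : ∑ i ∈ FA m o G, f i + ∑ i ∈ FB m o G, f i =
    ∑ i ∈ Finset.range m, f i + ∑ i ∈ FM m o G, f i := by
  unfold FA FB FM
  rw [Finset.sum_filter, Finset.sum_filter, Finset.sum_filter, ← Finset.sum_add_distrib,
    ← Finset.sum_add_distrib]
  refine Finset.sum_congr rfl fun i _ => ?_
  by_cases h1 : IM m o G i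
  · rw [if_pos (Or.inl h1), if_pos (Or.inl h1), if_pos h1]
  · rw [if_neg h1]
    by_cases h2 : IL m o G i
    · rw [if_pos (Or.inr h2), if_neg (by tauto)]
    · rw [if_neg (by tauto), if_pos (Or.inr h2)]
      omega

/-- The vertices of the two copies. -/
noncomputable def XX (m : ℕ) (o : ℕ → ℕ → ℕ) (G : ℕ → ℕ) : Finset (ℕ × Bool) :=
  (FA m o G) ×ˢ {false} ∪ (FB m o G) ×ˢ {true}

theorem sum_XX (f : ℕ → ℕ) : ∑ v ∈ XX m o G, f v.1 =
    ∑ i ∈ FA m o G, f i + ∑ i ∈ FB m o G, f i := by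
  unfold XX
  rw [Finset.sum_union, Finset.sum_product, Finset.sum_product]
  · simp
  · rw [Finset.disjoint_left]
    rintro ⟨i, a⟩ h1 h2
    rw [Finset.mem_product, Finset.mem_singleton] at h1 h2
    exact absurd (h1.2.symm.trans h2.2) (by simp)

theorem mem_XX {i : ℕ} {a : Bool} : (i, a) ∈ XX m o G ↔ i < m ∧
    (IM m o G i ∨ (IL m o G i ∧ a = false) ∨ (¬ IM m o G i ∧ ¬ IL m o G i ∧ a = true)) := by
  unfold XX FA FB
  rw [Finset.mem_union, Finset.mem_product, Finset.mem_product, Finset.mem_filter,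
    Finset.mem_filter, Finset.mem_singleton, Finset.mem_singleton, Finset.mem_range]
  have h1 : IL m o G i → ¬ IM m o G i := fun h => h.1
  cases a
  · simp only [Bool.false_eq_true]
    tauto
  · simp only [Bool.true_eq_false]
    tauto

/-- The successor in the two copies. -/
noncomputable def cc (m : ℕ) (o : ℕ → ℕ → ℕ) (G : ℕ → ℕ) (v : ℕ × Bool) : ℕ × Bool :=
  (nx m o G v.1, if IM m o G v.1 then v.2 else (if IL m o G (v.1 + 1) then false else true))

/-- The tails with a chosen arc. -/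
noncomputable def CX (m : ℕ) (o : ℕ → ℕ → ℕ) (G : ℕ → ℕ) : Finset (ℕ × Bool) :=
  (XX m o G).filter (fun v => IM m o G v.1 ∨ (v.1 + 1 < m ∧ ¬ IM m o G (v.1 + 1)))

/-- The rank of a copy. -/
def rk (v : ℕ × Bool) : ℕ := if v.2 then 1 else 0

theorem cc_im {v : ℕ × Bool} (h : IM m o G v.1) : cc m o G v = (nx m o G v.1, v.2) := by
  unfold cc
  rw [if_pos h]

theorem cc_il {v : ℕ × Bool} (h : ¬ IM m o G v.1) (h2 : IL m o G (v.1 + 1)) :
    cc m o G v = (v.1 + 1, false) := by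
  unfold cc
  rw [if_neg h, if_pos h2, nx_not (fun h' => h h'.im)]

theorem cc_ir {v : ℕ × Bool} (h : ¬ IM m o G v.1) (h2 : ¬ IL m o G (v.1 + 1)) :
    cc m o G v = (v.1 + 1, true) := by
  unfold cc
  rw [if_neg h, if_neg h2, nx_not (fun h' => h h'.im)]

theorem mem_CX {i : ℕ} {a : Bool} : (i, a) ∈ CX m o G ↔ (i, a) ∈ XX m o G ∧
    (IM m o G i ∨ (i + 1 < m ∧ ¬ IM m o G (i + 1))) := by
  unfold CX
  rw [Finset.mem_filter]

theorem cc_mem : ∀ v ∈ CX m o G, cc m o G v ∈ XX m o G := by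
  rintro ⟨i, a⟩ hv
  obtain ⟨h1, h2⟩ := mem_CX.1 hv
  by_cases h3 : IM m o G i
  · rw [cc_im (v := (i, a)) h3]
    exact mem_XX.2 ⟨h3.nx.lt, Or.inl h3.nx⟩
  · rcases h2 with h2 | ⟨h2, h4⟩
    · exact absurd h2 h3
    · by_cases h5 : IL m o G (i + 1)
      · rw [cc_il (v := (i, a)) h3 h5]
        exact mem_XX.2 ⟨h2, Or.inr (Or.inl ⟨h5, rfl⟩)⟩
      · rw [cc_ir (v := (i, a)) h3 h5]
        exact mem_XX.2 ⟨h2, Or.inr (Or.inr ⟨h4, h5, rfl⟩)⟩

theorem cc_fst {i : ℕ} {a : Bool} (h : ¬ IM m o G i) : (cc m o G (i, a)).1 = i + 1 := by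
  unfold cc
  exact nx_not (fun h' => h h'.im)

theorem cc_inj : ∀ v ∈ CX m o G, ∀ w ∈ CX m o G, cc m o G v = cc m o G w → v = w := by
  rintro ⟨i, a⟩ hv ⟨j, b⟩ hw h
  obtain ⟨h1, h2⟩ := mem_CX.1 hv
  obtain ⟨k1, k2⟩ := mem_CX.1 hw
  rw [mem_XX] at h1 k1
  by_cases h3 : IM m o G i
  · by_cases k3 : IM m o G j
    · rw [cc_im (v := (i, a)) h3, cc_im (v := (j, b)) k3, Prod.mk.injEq] at h
      exact Prod.ext (nx_inj h3 k3 h.1) h.2
    · exfalso
      have e := congrArg Prod.fst h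
      rw [cc_im (v := (i, a)) h3, cc_fst k3] at e
      dsimp only at e
      have e2 := h3.nx
      rw [e] at e2
      rcases k2 with k2 | k2
      · exact k3 k2
      · exact k2.2 e2
  · by_cases k3 : IM m o G j
    · exfalso
      have e := congrArg Prod.fst h
      rw [cc_im (v := (j, b)) k3, cc_fst h3] at e
      dsimp only at e
      have e2 := k3.nx
      rw [← e] at e2
      rcases h2 with h2 | h2
      · exact h3 h2
      · exact h2.2 e2
    · have e := congrArg Prod.fst h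
      rw [cc_fst h3, cc_fst k3] at e
      have e2 : i = j := by omega
      subst e2
      rw [Prod.mk.injEq]
      refine ⟨rfl, ?_⟩
      rcases h1.2 with h4 | ⟨h4, rfl⟩ | ⟨_, h4, rfl⟩
      · exact absurd h4 h3
      · rcases k1.2 with k4 | ⟨_, rfl⟩ | ⟨_, k4, _⟩
        · exact absurd k4 h3
        · rfl
        · exact absurd h4 k4
      · rcases k1.2 with k4 | ⟨k4, _⟩ | ⟨_, _, rfl⟩
        · exact absurd k4 h3
        · exact absurd k4 h4
        · rfl

theorem cc_rk : ∀ v ∈ CX m o G, rk (cc m o G v) ≤ rk v := by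
  rintro ⟨i, a⟩ hv
  obtain ⟨h1, h2⟩ := mem_CX.1 hv
  rw [mem_XX] at h1
  by_cases h3 : IM m o G i
  · rw [cc_im (v := (i, a)) h3]
    exact le_rfl
  · rcases h1.2 with h4 | ⟨h4, rfl⟩ | ⟨_, _, rfl⟩
    · exact absurd h4 h3
    · rcases h2 with h2 | h2
      · exact absurd h2 h3
      · rcases h4.succ with h5 | h5
        · exact absurd h5 h2.2
        · rw [cc_il (v := (i, false)) h3 h5]
          exact le_rfl
    · unfold rk
      rw [if_pos rfl]
      split_ifs <;> omega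

theorem cc_al (hG : PD m o G) : ∀ v ∈ CX m o G, o v.1 (cc m o G v).1 = al m o G v.1 := by
  rintro ⟨i, a⟩ hv
  obtain ⟨h1, h2⟩ := mem_CX.1 hv
  by_cases h3 : IM m o G i
  · exact hG.al_nx h3
  · rcases h2 with h2 | h2
    · exact absurd h2 h3
    · rw [cc_fst h3, al_out h3, hG.gi (i + 1) (by omega) h2.1]
      simp

theorem cc_be (hG : PD m o G) : ∀ v ∈ CX m o G,
    o v.1 (cc m o G v).1 = be m o G (cc m o G v).1 := by
  rintro ⟨i, a⟩ hv
  obtain ⟨h1, h2⟩ := mem_CX.1 hv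
  by_cases h3 : IM m o G i
  · exact hG.be_nx h3
  · rcases h2 with h2 | h2
    · exact absurd h2 h3
    · rw [cc_fst h3, be_in h2.2, hG.gi (i + 1) (by omega) h2.1]
      simp

theorem XX_dom (hG : PD m o G) : ∀ v ∈ XX m o G, ∀ w ∈ XX m o G, rk v ≤ rk w →
    o v.1 w.1 ≤ max (al m o G v.1) (be m o G w.1) := by
  rintro ⟨i, a⟩ hv ⟨j, b⟩ hw h
  rw [mem_XX] at hv hw
  refine hG.dom hv.1 hw.1 ?_
  rintro ⟨⟨_, h1, h2⟩, h3⟩
  have ha : a = true := by
    rcases hv.2 with h4 | ⟨h4, _⟩ | ⟨_, _, h4⟩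
    · exact absurd h4 h1
    · exact absurd h4 h2
    · exact h4
  have hb : b = false := by
    rcases hw.2 with h4 | ⟨_, h4⟩ | ⟨_, h4, _⟩
    · exact absurd h4 h3.1
    · exact h4
    · exact absurd h3 h4
  rw [ha, hb] at h
  simp [rk] at h

theorem single {y : ℕ × Bool} (hy : y ∈ XX m o G) (hy2 : y ∉ (CX m o G).image (cc m o G)) :
    ¬ IM m o G y.1 ∧ (y.1 = 0 ∨ (0 < y.1 ∧ IM m o G (y.1 - 1))) := by
  obtain ⟨j, a⟩ := y
  rw [mem_XX] at hy
  have h1 : ¬ IM m o G j := by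
    intro h
    obtain ⟨i, hi, hi2⟩ := nx_surj h
    apply hy2
    refine Finset.mem_image.2 ⟨(i, a), mem_CX.2 ⟨mem_XX.2 ⟨hi.lt, Or.inl hi⟩, Or.inl hi⟩, ?_⟩
    rw [cc_im (v := (i, a)) hi]
    dsimp only
    rw [hi2]
  refine ⟨h1, ?_⟩
  rcases Nat.eq_zero_or_pos j with h2 | h2
  · exact Or.inl h2
  · right
    refine ⟨h2, ?_⟩
    by_contra h3
    dsimp only at h3
    apply hy2
    have e : j - 1 + 1 = j := by omega
    have hex : ∃ b : Bool, (j - 1, b) ∈ XX m o G := by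
      by_cases h4 : IL m o G (j - 1)
      · exact ⟨false, mem_XX.2 ⟨by omega, Or.inr (Or.inl ⟨h4, rfl⟩)⟩⟩
      · exact ⟨true, mem_XX.2 ⟨by omega, Or.inr (Or.inr ⟨h3, h4, rfl⟩)⟩⟩
    obtain ⟨b, hb⟩ := hex
    refine Finset.mem_image.2 ⟨(j - 1, b), mem_CX.2 ⟨hb, Or.inr ⟨by omega, by rw [e]; exact h1⟩⟩, ?_⟩
    rcases hy.2 with h4 | ⟨h4, rfl⟩ | ⟨_, h4, rfl⟩
    · exact absurd h4 h1
    · rw [cc_il (v := (j - 1, b)) h3 (by dsimp only; rw [e]; exact h4)]
      dsimp only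
      rw [e]
    · rw [cc_ir (v := (j - 1, b)) h3 (by dsimp only; rw [e]; exact h4)]
      dsimp only
      rw [e]

theorem sum_single (hG : PD m o G) :
    ∑ y ∈ (XX m o G).filter (fun y => y ∉ (CX m o G).image (cc m o G)), be m o G y.1 ≤
      ∑ i ∈ Finset.range m, (if IE m o G i then G (i + 1) - 1 else 0) := by
  let f : ℕ → ℕ := fun j => if ¬ IM m o G j ∧ 0 < j ∧ IM m o G (j - 1) then G j - 1 else 0
  have h1 : ∑ y ∈ (XX m o G).filter (fun y => y ∉ (CX m o G).image (cc m o G)), be m o G y.1 ≤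
      ∑ y ∈ XX m o G, f y.1 := by
    rw [Finset.sum_filter]
    refine Finset.sum_le_sum fun y hy => ?_
    by_cases h2 : y ∉ (CX m o G).image (cc m o G)
    · rw [if_pos h2]
      obtain ⟨h3, h4⟩ := single hy h2
      rw [be_in h3]
      rcases h4 with h4 | h4
      · rw [h4, hG.z0]
        exact Nat.zero_le _
      · show _ ≤ (if ¬ IM m o G y.1 ∧ 0 < y.1 ∧ IM m o G (y.1 - 1) then G y.1 - 1 else 0)
        rw [if_pos ⟨h3, h4.1, h4.2⟩]
    · rw [if_neg h2]
      exact Nat.zero_le _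
  have h2 : ∑ i ∈ FM m o G, f i = 0 := by
    refine Finset.sum_eq_zero fun i hi => ?_
    exact if_neg (fun h => h.1 (mem_FM.1 hi))
  rw [sum_XX, sum_FAB, h2, Nat.add_zero] at h1
  have h3 : ∑ i ∈ Finset.range m, f i ≤ ∑ i ∈ Finset.range m, f (i + 1) := by
    have h4 : f 0 = 0 := if_neg (fun h => by omega)
    have h5 := Finset.sum_range_succ' f m
    have h6 := Finset.sum_range_succ f m
    omega
  refine h1.trans (h3.trans (Finset.sum_le_sum fun i _ => ?_))
  show (if ¬ IM m o G (i + 1) ∧ 0 < i + 1 ∧ IM m o G (i + 1 - 1) then G (i + 1) - 1 else 0) ≤ _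
  split_ifs with h7 h8 h9
  · exact le_rfl
  · exfalso
    apply h8
    obtain ⟨h9, _, h10⟩ := h7
    rw [Nat.add_sub_cancel] at h10
    obtain ⟨a, b, hC, ha, hb⟩ := h10
    rcases Nat.eq_or_lt_of_le hb with rfl | hb
    · exact hC.ie
    · exact absurd (hC.im (by omega) hb) h9
  · exact Nat.zero_le _
  · exact le_rfl

theorem two_copies (hM : Exch o) (hG : PD m o G) (P Q : List (ℕ × ℕ))
    (h1 : (P.map Prod.fst).Nodup) (h2 : (P.map Prod.snd).Nodup)
    (h3 : ∀ e ∈ P, e.1 ∈ FA m o G ∧ e.2 ∈ FA m o G)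
    (k1 : (Q.map Prod.fst).Nodup) (k2 : (Q.map Prod.snd).Nodup)
    (k3 : ∀ e ∈ Q, e.1 ∈ FB m o G ∧ e.2 ∈ FB m o G) :
    val o P + val o Q ≤ ∑ i ∈ FA m o G, al m o G i + ∑ i ∈ FB m o G, al m o G i +
      ∑ i ∈ Finset.range m, (if IE m o G i then G (i + 1) - 1 else 0) := by
  have hA : ∀ x ∈ FA m o G, (x, false) ∈ XX m o G := by
    intro x hx
    unfold XX
    exact Finset.mem_union_left _ (Finset.mem_product.2 ⟨hx, Finset.mem_singleton.2 rfl⟩)
  have hB : ∀ x ∈ FB m o G, (x, true) ∈ XX m o G := by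
    intro x hx
    unfold XX
    exact Finset.mem_union_right _ (Finset.mem_product.2 ⟨hx, Finset.mem_singleton.2 rfl⟩)
  have hnd : ∀ (l l' : List ℕ), l.Nodup → l'.Nodup →
      (l.map (fun x => (x, false)) ++ l'.map (fun x => (x, true))).Nodup := by
    intro l l' hl hl'
    refine List.Nodup.append (hl.map fun x y h => (Prod.mk.inj h).1)
      (hl'.map fun x y h => (Prod.mk.inj h).1) ?_
    intro v hv hv'
    obtain ⟨x, _, rfl⟩ := List.mem_map.1 hv
    obtain ⟨y, _, h⟩ := List.mem_map.1 hv'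
    exact absurd (Prod.mk.inj h).2 (by simp)
  have hmat : Mat rk (XX m o G) (XX m o G) (P.map (fun e => ((e.1, false), (e.2, false))) ++
      Q.map (fun e => ((e.1, true), (e.2, true)))) := by
    refine ⟨?_, ?_, ?_⟩
    · have := hnd _ _ h1 k1
      rw [List.map_map, List.map_map] at this
      rw [List.map_append, List.map_map, List.map_map]
      exact this
    · have := hnd _ _ h2 k2
      rw [List.map_map, List.map_map] at this
      rw [List.map_append, List.map_map, List.map_map]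
      exact this
    · intro e he
      rcases List.mem_append.1 he with he | he
      · obtain ⟨x, hx, rfl⟩ := List.mem_map.1 he
        exact ⟨hA _ (h3 x hx).1, hA _ (h3 x hx).2, le_rfl⟩
      · obtain ⟨x, hx, rfl⟩ := List.mem_map.1 he
        exact ⟨hB _ (k3 x hx).1, hB _ (k3 x hx).2, le_rfl⟩
  have h := lemE (V := ℕ × Bool) (o := fun v w => o v.1 w.1)
    (fun i j i' j' => hM i.1 j.1 i'.1 j'.1) (fun v => al m o G v.1) (fun v => be m o G v.1)
    rk (cc m o G) _ (XX m o G) (XX m o G) (CX m o G) _ le_rfl (Finset.filter_subset _ _)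
    cc_mem cc_inj cc_rk (cc_al hG) (cc_be hG) (XX_dom hG) hmat
  have e1 : val (fun v w : ℕ × Bool => o v.1 w.1)
      (P.map (fun e => ((e.1, false), (e.2, false))) ++
        Q.map (fun e => ((e.1, true), (e.2, true)))) = val o P + val o Q := by
    unfold val
    rw [List.map_append, List.sum_append, List.map_map, List.map_map]
    rfl
  rw [e1, sum_XX (al m o G)] at h
  exact h.trans (Nat.add_le_add_left (sum_single hG) _)

end Vale.Agent.P333.H705.Gr
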