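import Vale.Agent.P333.H705.GrP
import Vale.Agent.P333.H705.GrC

set_option autoImplicit false

/-!
P333, the greedy algorithm: the bound.
-/

namespace Vale.Agent.P333.H705.Gr

open Vale.Agent.P333 Vale.Agent.P333.U Vale.Agent.P333.H120

/-- The string of the index `i`. -/
def st (P : List (List ℕ)) (i : ℕ) : List ℕ := P.getD i []

/-- Overlaps of indices. -/
def oi (P : List (List ℕ)) (i j : ℕ) : ℕ := ov (st P i) (st P j)

theorem pd_of_gp {P : List (List ℕ)} (h : GP P) : PD P.length (oi P) (lk P) := by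
  refine ⟨?_, ?_, ?_, h⟩
  · unfold lk
    rw [if_neg (by omega)]
  · unfold lk
    rw [if_neg (by omega)]
  · intro q h1 h2
    unfold lk
    rw [if_pos ⟨h1, h2⟩]
    rfl

theorem exch_oi (P : List (List ℕ)) : Exch (oi P) := fun i j i' j' =>
  exch_ov (st P i) (st P j) (st P i') (st P j')

/-! ### Lengths -/

theorem lk_cons (x : List ℕ) (p : List (List ℕ)) {k : ℕ} (hk : 0 < k) :
    lk (x :: p) (k + 1) = lk p k := by
  unfold lk
  obtain ⟨k, rfl⟩ := Nat.exists_eq_succ_of_ne_zero hk.ne'
  by_cases h : k + 1 < p.length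
  · rw [if_pos ⟨by omega, by rw [List.length_cons]; omega⟩, if_pos ⟨by omega, h⟩]
    rfl
  · rw [if_neg (by rw [List.length_cons]; omega), if_neg (by omega)]

theorem len_path (x : List ℕ) (r : List (List ℕ)) :
    (mergeL (x :: r)).length + ∑ i ∈ Finset.range (x :: r).length, (lk (x :: r) (i + 1) - 1) =
      ∑ i ∈ Finset.range (x :: r).length, (st (x :: r) i).length := by
  induction r generalizing x with
  | nil => simp [mergeL, lk, st]
  | cons y r ih =>
    have h1 := ih y
    have e1 : (mergeL (x :: y :: r)).length = (x.length - ov x y) + (mergeL (y :: r)).length := by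
      rw [spec_mergeL, List.length_append, List.length_take]
      omega
    have e2 : lk (x :: y :: r) (0 + 1) - 1 = ov x y := by
      unfold lk
      rw [if_pos ⟨by omega, by simp⟩]
      rfl
    have e3 : ∑ i ∈ Finset.range (y :: r).length, (lk (x :: y :: r) (i + 1 + 1) - 1) =
        ∑ i ∈ Finset.range (y :: r).length, (lk (y :: r) (i + 1) - 1) :=
      Finset.sum_congr rfl fun i _ => by rw [lk_cons _ _ (Nat.succ_pos i)]
    have e4 : ∑ i ∈ Finset.range (y :: r).length, (st (x :: y :: r) (i + 1)).length =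
        ∑ i ∈ Finset.range (y :: r).length, (st (y :: r) i).length := rfl
    have e5 : (st (x :: y :: r) 0).length = x.length := rfl
    have h2 := ov_le_left x y
    have h3 : (x :: y :: r).length = (y :: r).length + 1 := rfl
    rw [h3, Finset.sum_range_succ', Finset.sum_range_succ', e1, e2, e3, e4, e5]
    omega

/-! ### Matchings from superstrings -/

theorem st_ne {P : List (List ℕ)} (hP : Sfree P) {i : ℕ} (hi : i < P.length) : st P i ≠ [] := by
  unfold st
  rw [List.getD_eq_getElem _ _ hi]
  exact hP.1 _ (List.getElem_mem _)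

theorem st_mem {P : List (List ℕ)} {i : ℕ} (hi : i < P.length) : st P i ∈ P := by
  unfold st
  rw [List.getD_eq_getElem _ _ hi]
  exact List.getElem_mem _

theorem st_not_infix {P : List (List ℕ)} (hP : Sfree P) {i j : ℕ} (hi : i < P.length)
    (hj : j < P.length) (hij : i ≠ j) : ¬ st P i <:+: st P j := by
  unfold st
  rw [List.getD_eq_getElem _ _ hi, List.getD_eq_getElem _ _ hj]
  have h := List.pairwise_iff_getElem.1 hP.2
  rcases Nat.lt_or_ge i j with h1 | h1
  · exact (h i j hi hj h1).1
  · exact (h j i hj hi (by omega)).2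

theorem pairwise_st {P : List (List ℕ)} (hP : Sfree P) {l : List ℕ} (hl : l.Nodup)
    (h : ∀ i ∈ l, i < P.length) :
    (l.map (st P)).Pairwise (fun s t => ¬ s <:+: t ∧ ¬ t <:+: s) := by
  rw [List.pairwise_map]
  refine hl.pairwise_of_forall_ne ?_
  intro i hi j hj hij
  exact ⟨st_not_infix hP (h i hi) (h j hj) hij, st_not_infix hP (h j hj) (h i hi) hij.symm⟩

/-- A superstring gives a matching of small cost. -/
theorem mat_of_super {P : List (List ℕ)} (hP : Sfree P) {T : List ℕ} (hT : IsSuperstring P T)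
    (I : Finset ℕ) (hI : ∀ i ∈ I, i < P.length) :
    ∃ Q : List (ℕ × ℕ), (Q.map Prod.fst).Nodup ∧ (Q.map Prod.snd).Nodup ∧
      (∀ e ∈ Q, e.1 ∈ I ∧ e.2 ∈ I) ∧
      ∑ i ∈ I, (st P i).length ≤ T.length + val (oi P) Q := by
  have hl : ∀ i ∈ I.toList, i < P.length := fun i hi => hI i (Finset.mem_toList.1 hi)
  obtain ⟨J, hJ1, hJ2⟩ := order_le (pairwise_st hP (Finset.nodup_toList I) hl) (U := T) (by
    intro s hs
    obtain ⟨i, hi, rfl⟩ := List.mem_map.1 hs
    exact hT _ (st_mem (hl i hi)))
  obtain ⟨l, hl1, rfl⟩ := exists_map_of_perm hJ1 (st P) I.toList rfl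
  have hs : ∑ i ∈ I, (st P i).length = ((l.map (st P)).map List.length).sum := by
    rw [← Finset.sum_map_toList I (fun i => (st P i).length), ((hl1.map _).map _).sum_eq,
      List.map_map]
    rfl
  by_cases hne : l = []
  · refine ⟨[], by simp, by simp, by simp, ?_⟩
    rw [hs, hne]
    simp
  · refine ⟨cprs 0 l, ?_, ?_, ?_, ?_⟩
    · rw [cprs_fst]
      exact hl1.nodup_iff.2 (Finset.nodup_toList I)
    · exact (cprs_snd 0 l).nodup_iff.2 (hl1.nodup_iff.2 (Finset.nodup_toList I))
    · intro e he
      constructor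
      · have : e.1 ∈ (cprs 0 l).map Prod.fst := List.mem_map_of_mem he
        rw [cprs_fst] at this
        exact Finset.mem_toList.1 (hl1.mem_iff.1 this)
      · have : e.2 ∈ (cprs 0 l).map Prod.snd := List.mem_map_of_mem he
        exact Finset.mem_toList.1 (hl1.mem_iff.1 ((cprs_snd 0 l).mem_iff.1 this))
    · have h1 := cycW_cprs (l.map (st P)) (by simpa using hne)
      have h2 := length_mergeL' (l.map (st P))
      rw [cprs_map (st P) 0 [] l hne, List.map_map] at h1
      have h3 : val (oi P) (cprs 0 l) =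
          ((cprs 0 l).map ((fun e : List ℕ × List ℕ => ov e.1 e.2) ∘
            fun e => (st P e.1, st P e.2))).sum := rfl
      rw [hs, h3]
      omega

/-! ### The minimal bad intervals as a cycle cover -/

open Classical in
/-- The minimal bad intervals. -/
noncomputable def CL (m : ℕ) (o : ℕ → ℕ → ℕ) (G : ℕ → ℕ) : List (ℕ × ℕ) :=
  ((Finset.range m ×ˢ Finset.range m).filter (fun p => Cu m o G p.1 p.2)).toList

/-- The indices of an interval. -/
def itv (p : ℕ × ℕ) : List ℕ := List.range' p.1 (p.2 + 1 - p.1)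

variable {m : ℕ} {o : ℕ → ℕ → ℕ} {G : ℕ → ℕ}

theorem mem_CL {p : ℕ × ℕ} : p ∈ CL m o G ↔ Cu m o G p.1 p.2 := by
  classical
  unfold CL
  rw [Finset.mem_toList, Finset.mem_filter, Finset.mem_product, Finset.mem_range,
    Finset.mem_range]
  constructor
  · exact fun h => h.2
  · intro h
    have h1 := h.1.1
    have h2 := h.1.2.1
    exact ⟨⟨by omega, h2⟩, h⟩

theorem nodup_CL : (CL m o G).Nodup := by
  unfold CL
  exact Finset.nodup_toList _

theorem mem_itv {p : ℕ × ℕ} {i : ℕ} (hp : p.1 ≤ p.2) : i ∈ itv p ↔ p.1 ≤ i ∧ i ≤ p.2 := by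
  unfold itv
  rw [List.mem_range'_1]
  omega

theorem itv_ne {p : ℕ × ℕ} (hp : p.1 ≤ p.2) : itv p ≠ [] := by
  intro h
  have := (mem_itv (i := p.1) hp).2 ⟨le_rfl, hp⟩
  rw [h] at this
  simp at this

/-- The indices of the minimal bad intervals. -/
noncomputable def CI (m : ℕ) (o : ℕ → ℕ → ℕ) (G : ℕ → ℕ) : List ℕ := (CL m o G).flatMap itv

theorem mem_CI {i : ℕ} : i ∈ CI m o G ↔ IM m o G i := by
  unfold CI
  rw [List.mem_flatMap]
  constructor
  · rintro ⟨p, hp, hi⟩
    have h1 := mem_CL.1 hp
    rw [mem_itv h1.1.1] at hi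
    exact ⟨p.1, p.2, h1, hi.1, hi.2⟩
  · rintro ⟨a, b, hC, ha, hb⟩
    exact ⟨(a, b), mem_CL.2 hC, (mem_itv (p := (a, b)) hC.1.1).2 ⟨ha, hb⟩⟩

theorem nodup_CI : (CI m o G).Nodup := by
  unfold CI
  rw [List.nodup_flatMap]
  constructor
  · intro p _
    exact List.nodup_range'
  · refine nodup_CL.pairwise_of_forall_ne ?_
    intro p hp q hq hpq
    show List.Disjoint (itv p) (itv q)
    intro x hx hx'
    have h1 := mem_CL.1 hp
    have h2 := mem_CL.1 hq
    rw [mem_itv h1.1.1] at hx
    rw [mem_itv h2.1.1] at hx'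
    have := h1.eq h2 hx.1 hx.2 hx'.1 hx'.2
    exact hpq (Prod.ext this.1 this.2)

theorem sum_CI (f : ℕ → ℕ) : ((CI m o G).map f).sum = ∑ i ∈ FM m o G, f i := by
  rw [← List.sum_toFinset f nodup_CI]
  congr 1
  ext i
  rw [List.mem_toFinset, mem_CI, mem_FM]

/-- The cyclic pairs of an interval. -/
theorem prsC_range' (h : ℕ) : ∀ (k a : ℕ), prsC h (List.range' a (k + 1)) =
    (List.range' a (k + 1)).map (fun i => (i, if i = a + k then h else i + 1)) := by
  intro k
  induction k with
  | zero => intro a; simp [prsC]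
  | succ k ih =>
    intro a
    have e : List.range' a (k + 1 + 1) = a :: (a + 1) :: List.range' (a + 1 + 1) k := by
      rw [List.range'_succ, List.range'_succ]
    have e2 : List.range' (a + 1) (k + 1) = (a + 1) :: List.range' (a + 1 + 1) k := by
      rw [List.range'_succ]
    rw [e, prsC, ← e2, ih (a + 1), List.map_cons, if_neg (by omega)]
    congr 1
    refine List.map_congr_left fun i _ => ?_
    have e3 : a + 1 + k = a + (k + 1) := by omega
    rw [e3]

theorem cprs_itv {p : ℕ × ℕ} (hp : Cu m o G p.1 p.2) :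
    cprs 0 (itv p) = (itv p).map (fun i => (i, nx m o G i)) := by
  have h1 := hp.1.1
  obtain ⟨k, hk⟩ : ∃ k, p.2 + 1 - p.1 = k + 1 := ⟨p.2 - p.1, by omega⟩
  have e1 : (itv p).headD 0 = p.1 := by
    unfold itv
    rw [hk, List.range'_succ]
    rfl
  unfold cprs
  rw [e1]
  unfold itv
  rw [hk, prsC_range']
  refine List.map_congr_left fun i hi => ?_
  rw [List.mem_range'_1] at hi
  have h2 : p.1 + k = p.2 := by omega
  rw [h2]
  by_cases h3 : i = p.2
  · rw [if_pos h3, h3, hp.nx]
  · rw [if_neg h3, nx_not (hp.not_ie hi.1 (by omega))]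

/-- The cycles of strings of the minimal bad intervals. -/
noncomputable def LC (P : List (List ℕ)) : List (List (List ℕ)) :=
  (CL P.length (oi P) (lk P)).map (fun p => (itv p).map (st P))

theorem flatten_LC (P : List (List ℕ)) :
    (LC P).flatten = (CI P.length (oi P) (lk P)).map (st P) := by
  unfold LC CI
  rw [List.map_flatMap, List.flatMap_def]

theorem ne_LC (P : List (List ℕ)) : ∀ c ∈ LC P, c ≠ [] := by
  intro c hc
  obtain ⟨p, hp, rfl⟩ := List.mem_map.1 hc
  have h := itv_ne (mem_CL.1 hp).1.1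
  simpa using h

theorem arcs_LC (P : List (List ℕ)) : (LC P).flatMap (cprs []) =
    (CI P.length (oi P) (lk P)).map (fun i => (st P i, st P (nx P.length (oi P) (lk P) i))) := by
  unfold LC CI
  rw [List.flatMap_map, List.map_flatMap, List.flatMap_def, List.flatMap_def]
  congr 1
  refine List.map_congr_left fun p hp => ?_
  have h := mem_CL.1 hp
  rw [cprs_map (st P) 0 [] _ (itv_ne h.1.1), cprs_itv h, List.map_map]
  rfl

theorem ov_LC {P : List (List ℕ)} (h : GP P) :
    (((LC P).flatMap (cprs [])).map fun e => ov e.1 e.2).sum =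
      ∑ i ∈ FM P.length (oi P) (lk P), al P.length (oi P) (lk P) i := by
  rw [arcs_LC, List.map_map, ← sum_CI]
  congr 1
  refine List.map_congr_left fun i hi => ?_
  exact (pd_of_gp h).al_nx (mem_CI.1 hi)

theorem cycO_itv (P : List (List ℕ)) {p : ℕ × ℕ} (hp : p.1 ≤ p.2) :
    cycO ((itv p).map (st P)) = oi P p.2 p.1 := by
  obtain ⟨k, hk⟩ : ∃ k, p.2 + 1 - p.1 = k + 1 := ⟨p.2 - p.1, by omega⟩
  have e1 : ((itv p).map (st P)).headD [] = st P p.1 := by
    unfold itv
    rw [hk, List.range'_succ]
    rfl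
  have e2 : ((itv p).map (st P)).getLastD [] = st P p.2 := by
    unfold itv
    rw [hk, List.range'_concat, List.map_append, List.map_cons, List.map_nil,
      last_app _ _ _ (by simp), List.getLastD_cons, List.getLastD_nil]
    congr 1
    omega
  unfold cycO oi
  rw [e1, e2]

theorem chain_range' {α : Type*} (R : α → α → Prop) (f : ℕ → α) : ∀ (k a : ℕ),
    (∀ q, a ≤ q → q + 1 < a + k → R (f q) (f (q + 1))) →
      List.IsChain R ((List.range' a k).map f) := by
  intro k
  induction k with
  | zero => intro a _; simp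
  | succ k ih =>
    intro a h
    have h1 := ih (a + 1) (fun q hq hq' => h q (by omega) (by omega))
    rw [List.range'_succ, List.map_cons]
    cases k with
    | zero => simp
    | succ k =>
      rw [List.range'_succ, List.map_cons] at h1 ⊢
      exact List.isChain_cons_cons.2 ⟨h a le_rfl (by omega), h1⟩

theorem st_idx {P : List (List ℕ)} (hP : Sfree P) {i : ℕ} (hi : i < P.length) :
    P.idxOf (st P i) = i := by
  unfold st
  rw [List.getD_eq_getElem _ _ hi]
  exact hP.nodup.idxOf_getElem i hi

theorem idx_st {P : List (List ℕ)} {s : List ℕ} (hs : s ∈ P) : st P (P.idxOf s) = s :=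
  getD_idxOf hs

/-- The minimal bad intervals form a minimum cycle cover. -/
theorem minCover_LC {P : List (List ℕ)} (hP : Sfree P) (h : GP P) :
    MinCover (LC P).flatten (LC P) := by
  have hG := pd_of_gp h
  refine ⟨List.Perm.refl _, ne_LC P, ?_, ?_⟩
  · intro c hc
    obtain ⟨p, hp, rfl⟩ := List.mem_map.1 hc
    have hC := mem_CL.1 hp
    rw [cycO_itv P hC.1.1]
    unfold itv
    refine chain_range' _ _ _ _ ?_
    intro q hq hq'
    have h1 := hC.1.1
    have h2 := hC.1.2.1
    have h3 := hC.1.2.2.2.2 (q + 1) (by omega) (by omega)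
    rw [hG.gi (q + 1) (by omega) (by omega)] at h3
    exact Nat.lt_succ_iff.1 h3
  · intro L' hL' hne
    have e1 := sum_cycW L' hne
    have e2 := sum_cycW (LC P) (ne_LC P)
    rw [(hL'.map _).sum_eq] at e1
    rw [ov_LC h] at e2
    -- the arcs of the other cover
    set Q := L'.flatMap (cprs []) with hQ
    have hsub : ∀ s ∈ (LC P).flatten, ∃ i, IM P.length (oi P) (lk P) i ∧ st P i = s := by
      intro s hs
      rw [flatten_LC] at hs
      obtain ⟨i, hi, rfl⟩ := List.mem_map.1 hs
      exact ⟨i, mem_CI.1 hi, rfl⟩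
    have hmem : ∀ e ∈ Q, e.1 ∈ (LC P).flatten ∧ e.2 ∈ (LC P).flatten := by
      intro e he
      constructor
      · refine hL'.mem_iff.1 ?_
        rw [← flatMap_fst [] L']
        exact List.mem_map_of_mem he
      · exact hL'.mem_iff.1 ((flatMap_snd [] L').mem_iff.1 (List.mem_map_of_mem he))
    let F : List (ℕ × ℕ) := Q.map fun e => (P.idxOf e.1, P.idxOf e.2)
    have hmap : ((LC P).flatten).map (fun s => P.idxOf s) = CI P.length (oi P) (lk P) := by
      rw [flatten_LC, List.map_map]
      conv_rhs => rw [← List.map_id (CI P.length (oi P) (lk P))]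
      exact List.map_congr_left fun i hi => st_idx hP (mem_CI.1 hi).lt
    have hF1 : (F.map Prod.fst).Perm (CI P.length (oi P) (lk P)) := by
      have h1 : F.map Prod.fst = (Q.map Prod.fst).map fun s => P.idxOf s := by
        simp only [F, List.map_map]
        rfl
      rw [h1, hQ, flatMap_fst, ← hmap]
      exact hL'.map fun s => P.idxOf s
    have hF2 : (F.map Prod.snd).Perm (CI P.length (oi P) (lk P)) := by
      have h1 : F.map Prod.snd = (Q.map Prod.snd).map fun s => P.idxOf s := by
        simp only [F, List.map_map]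
        rfl
      rw [h1, ← hmap]
      exact ((flatMap_snd [] L').trans hL').map fun s => P.idxOf s
    have hone := one_copy (exch_oi P) hG F (hF1.nodup_iff.2 nodup_CI) (hF2.nodup_iff.2 nodup_CI)
      (fun e he => ⟨mem_CI.1 (hF1.mem_iff.1 (List.mem_map_of_mem he)),
        mem_CI.1 (hF2.mem_iff.1 (List.mem_map_of_mem he))⟩)
    have hval : val (oi P) F = (Q.map fun e => ov e.1 e.2).sum := by
      simp only [val, F, List.map_map]
      congr 1
      refine List.map_congr_left fun e he => ?_
      obtain ⟨i, hi, hi2⟩ := hsub _ (hmem e he).1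
      obtain ⟨j, hj, hj2⟩ := hsub _ (hmem e he).2
      simp only [Function.comp, oi]
      rw [idx_st (by rw [← hi2]; exact st_mem hi.lt), idx_st (by rw [← hj2]; exact st_mem hj.lt)]
    rw [hval] at hone
    omega

theorem sfree_LC {P : List (List ℕ)} (hP : Sfree P) : Sfree (LC P).flatten := by
  rw [flatten_LC]
  refine ⟨?_, pairwise_st hP nodup_CI (fun i hi => (mem_CI.1 hi).lt)⟩
  intro s hs
  obtain ⟨i, hi, rfl⟩ := List.mem_map.1 hs
  exact st_ne hP (mem_CI.1 hi).lt

open Classical in
theorem sum_ends (P : List (List ℕ)) :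
    ((LC P).map cycO).sum = ∑ i ∈ Finset.range P.length,
      (if IE P.length (oi P) (lk P) i then al P.length (oi P) (lk P) i else 0) := by
  have h1 : ((LC P).map cycO).sum =
      (((CL P.length (oi P) (lk P)).map Prod.snd).map (al P.length (oi P) (lk P))).sum := by
    unfold LC
    rw [List.map_map, List.map_map]
    congr 1
    refine List.map_congr_left fun p hp => ?_
    have h := mem_CL.1 hp
    simp only [Function.comp]
    rw [cycO_itv P h.1.1, h.al]
  have h2 : ((CL P.length (oi P) (lk P)).map Prod.snd).Nodup := by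
    refine List.Nodup.map_on ?_ nodup_CL
    intro p hp q hq hpq
    have e1 := mem_CL.1 hp
    have e2 := mem_CL.1 hq
    have := e1.eq e2 (x := p.2) e1.1.1 le_rfl (by have := e2.1.1; omega) hpq.le
    exact Prod.ext this.1 this.2
  rw [h1, ← List.sum_toFinset _ h2, ← Finset.sum_filter]
  congr 1
  ext i
  rw [List.mem_toFinset, List.mem_map, Finset.mem_filter, Finset.mem_range]
  constructor
  · rintro ⟨p, hp, rfl⟩
    have e1 := mem_CL.1 hp
    exact ⟨e1.1.2.1, e1.ie⟩
  · rintro ⟨_, a, ha⟩
    exact ⟨(a, i), mem_CL.2 ha, rfl⟩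

theorem sum_sub_le (L : List (List (List ℕ))) :
    (L.map cycO).sum ≤ (L.map (fun c => cycO c + 1 - cycW c)).sum + (L.map cycW).sum := by
  induction L with
  | nil => simp
  | cons c L ih =>
    simp only [List.map_cons, List.sum_cons]
    omega

/-- The merge of a dominated ordering is at most three times as long as a superstring. -/
theorem three_bound {P : List (List ℕ)} (hP : Sfree P) (hne : P ≠ []) (h : GP P)
    {T : List ℕ} (hT : IsSuperstring P T) : (mergeL P).length ≤ 3 * T.length := by
  classical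
  have hG := pd_of_gp h
  -- lengths
  have e1 : (mergeL P).length + ∑ i ∈ Finset.range P.length, (lk P (i + 1) - 1) =
      ∑ i ∈ Finset.range P.length, (st P i).length := by
    obtain ⟨x, r, rfl⟩ := List.exists_cons_of_ne_nil hne
    exact len_path x r
  -- two matchings
  obtain ⟨QA, a1, a2, a3, a4⟩ := mat_of_super hP hT (FA P.length (oi P) (lk P)) (by
    intro i hi
    unfold FA at hi
    exact Finset.mem_range.1 (Finset.mem_filter.1 hi).1)
  obtain ⟨QB, b1, b2, b3, b4⟩ := mat_of_super hP hT (FB P.length (oi P) (lk P)) (by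
    intro i hi
    unfold FB at hi
    exact Finset.mem_range.1 (Finset.mem_filter.1 hi).1)
  have e2 := two_copies (exch_oi P) hG QA QB a1 a2 a3 b1 b2 b3
  have e3 := sum_FAB (m := P.length) (o := oi P) (G := lk P) (fun i => (st P i).length)
  have e4 := sum_FAB (m := P.length) (o := oi P) (G := lk P) (al P.length (oi P) (lk P))
  have e5 : ∑ i ∈ Finset.range P.length, al P.length (oi P) (lk P) i +
      ∑ i ∈ Finset.range P.length,
        (if IE P.length (oi P) (lk P) i then lk P (i + 1) - 1 else 0) =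
      ∑ i ∈ Finset.range P.length, (lk P (i + 1) - 1) +
      ∑ i ∈ Finset.range P.length,
        (if IE P.length (oi P) (lk P) i then al P.length (oi P) (lk P) i else 0) := by
    rw [← Finset.sum_add_distrib, ← Finset.sum_add_distrib]
    refine Finset.sum_congr rfl fun i _ => ?_
    by_cases hi : IE P.length (oi P) (lk P) i
    · rw [if_pos hi, if_pos hi]
      omega
    · rw [if_neg hi, if_neg hi, al_not hi]
  -- the minimal bad intervals
  have e6 := wordsA_of rauzyBound placeLemma _ _ T (sfree_LC hP) (minCover_LC hP h) (by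
    intro s hs
    rw [flatten_LC] at hs
    obtain ⟨i, hi, rfl⟩ := List.mem_map.1 hs
    exact hT _ (st_mem (mem_CI.1 hi).lt))
  have e7 := sum_sub_le (LC P)
  have e8 := sum_ends P
  have e9 := sum_cycW (LC P) (ne_LC P)
  rw [ov_LC h, flatten_LC, List.map_map] at e9
  have e10 := sum_CI (m := P.length) (o := oi P) (G := lk P) (fun i => (st P i).length)
  have e11 : ((CI P.length (oi P) (lk P)).map (List.length ∘ st P)).sum =
      ((CI P.length (oi P) (lk P)).map (fun i => (st P i).length)).sum := rfl
  rw [e11, e10] at e9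
  omega

end Vale.Agent.P333.H705.Gr
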