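import Vale.Agent.P333.H705.GrDefs
import Vale.Agent.P333.H705.GrF

set_option autoImplicit false

/-!
P333, the greedy algorithm: every output is at most three times as long as the optimum.
-/

namespace Vale.Agent.P333.H705.Gr

open Vale.Agent.P333 Vale.Agent.P333.U Vale.Agent.P333.H120 Vale.Agent.P333.Greedy

/-! ### Overlaps -/

theorem isOverlap_ov {x y : List ℕ} (h1 : ¬ x <:+: y) (h2 : ¬ y <:+: x) :
    IsOverlap x y (ov x y) := by
  constructor
  · obtain ⟨w, a1, a2, a3⟩ := ov_wit x y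
    exact ⟨w, a3, a1, a2⟩
  · rintro k ⟨w, rfl, a1, a2⟩
    apply le_ov' a1 a2
    · rcases Nat.lt_or_ge w.length x.length with h | h
      · exact h
      · exfalso
        have e : w = x := a1.eq_of_length_le h
        rw [e] at a2
        exact h1 a2.isInfix
    · rcases Nat.lt_or_ge w.length y.length with h | h
      · exact h
      · exfalso
        have e : w = y := a2.eq_of_length_le h
        rw [e] at a1
        exact h2 a1.isInfix

theorem eq_ov {x y : List ℕ} {k : ℕ} (h1 : ¬ x <:+: y) (h2 : ¬ y <:+: x)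
    (h : IsOverlap x y k) : k = ov x y :=
  h.unique (isOverlap_ov h1 h2)

theorem not_infix_of_perm {F : List (List ℕ)} (hF : Sfree F) {x y : List ℕ}
    {R : List (List ℕ)} (h : F.Perm (x :: y :: R)) : ¬ x <:+: y ∧ ¬ y <:+: x := by
  have h1 := (sfree_perm hF h).2
  rw [List.pairwise_cons] at h1
  exact h1.1 y (by simp)

theorem step_gstep {F F' : List (List ℕ)} (hF : Sfree F) (h : Step F F') :
    GStep F F' ∧ Sfree F' := by
  obtain ⟨x, y, R, k, h1, h2, h3, rfl⟩ := h
  have e := not_infix_of_perm hF h1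
  have ek := eq_ov e.1 e.2 h2
  subst ek
  have hmax : ∀ z w R', F.Perm (z :: w :: R') → ov z w ≤ ov x y := by
    intro z w R' hR'
    have e' := not_infix_of_perm hF hR'
    exact h3 z w R' _ hR' (isOverlap_ov e'.1 e'.2)
  have hm : mergeL [x, y] = x.take (x.length - ov x y) ++ y := by
    rw [spec_mergeL]
    rfl
  rw [← hm]
  refine ⟨⟨x, y, R, h1, hmax, rfl⟩, sfree_step (sfree_perm hF h1) ?_⟩
  intro z hz
  obtain ⟨R1, hR1⟩ : ∃ R1, R.Perm (z :: R1) := ⟨R.erase z, List.perm_cons_erase hz⟩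
  refine hmax x z (y :: R1) (h1.trans ?_)
  refine List.Perm.cons _ ?_
  exact (List.Perm.cons _ hR1).trans (List.Perm.swap _ _ _)

theorem run_grun {F F' : List (List ℕ)} (hF : Sfree F)
    (h : Relation.ReflTransGen Step F F') : Relation.ReflTransGen GStep F F' ∧ Sfree F' := by
  induction h with
  | refl => exact ⟨Relation.ReflTransGen.refl, hF⟩
  | tail _ hs ih =>
    have h1 := step_gstep ih.2 hs
    exact ⟨ih.1.tail h1.1, h1.2⟩

/-! ### The reduced family -/

theorem exists_reduced (S : List (List ℕ)) : ∃ F, Reduced S F := by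
  classical
  refine ⟨(S.filter (fun s => decide (∀ t ∈ S, s <:+: t → s = t))).dedup, List.nodup_dedup _, ?_⟩
  intro s
  rw [List.mem_dedup, List.mem_filter]
  simp

theorem infix_reduced {S F : List (List ℕ)} (h : Reduced S F) {s : List ℕ} (hs : s ∈ S) :
    ∃ t ∈ F, s <:+: t := by
  classical
  obtain ⟨t, ht, hmax⟩ := Finset.exists_max_image (S.toFinset.filter (fun t => s <:+: t))
    List.length ⟨s, Finset.mem_filter.2 ⟨List.mem_toFinset.2 hs, List.infix_refl _⟩⟩
  rw [Finset.mem_filter, List.mem_toFinset] at ht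
  refine ⟨t, (h.2 t).2 ⟨ht.1, ?_⟩, ht.2⟩
  intro u hu htu
  have h1 := hmax u (Finset.mem_filter.2 ⟨List.mem_toFinset.2 hu, ht.2.trans htu⟩)
  exact htu.eq_of_length_le h1

theorem sfree_reduced {S F : List (List ℕ)} (h : Reduced S F) (hne : [] ∉ F) : Sfree F := by
  refine ⟨fun s hs h0 => hne (h0 ▸ hs), ?_⟩
  refine h.1.pairwise_of_forall_ne ?_
  intro s hs t ht hst
  exact ⟨fun h1 => hst (((h.2 s).1 hs).2 t ((h.2 t).1 ht).1 h1),
    fun h1 => hst (((h.2 t).1 ht).2 s ((h.2 s).1 hs).1 h1).symm⟩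

theorem step_length {F F' : List (List ℕ)} (h : Step F F') : F.length = F'.length + 1 := by
  obtain ⟨x, y, R, k, h1, -, -, rfl⟩ := h
  rw [h1.length_eq]
  rfl

theorem step_pos {F F' : List (List ℕ)} (h : Step F F') : 2 ≤ F.length := by
  obtain ⟨x, y, R, k, h1, -, -, rfl⟩ := h
  rw [h1.length_eq, List.length_cons, List.length_cons]
  omega

theorem run_single {F : List (List ℕ)} {t : List ℕ} (hl : F.length ≤ 1)
    (h : Relation.ReflTransGen Step F [t]) : F = [t] := by
  rcases Relation.ReflTransGen.cases_head h with h1 | ⟨c, h1, -⟩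
  · exact h1
  · have := step_pos h1
    omega

/-- Every output is a common superstring, at most three times as long as the optimum. -/
theorem output_le {S : List (List ℕ)} {t : List ℕ} (h : Output S t) :
    IsSuperstring S t ∧ t.length ≤ 3 * opt S := by
  obtain ⟨F, hF, hrun⟩ := h
  by_cases hne : [] ∈ F
  · -- all strings are empty
    have h1 : ∀ s ∈ S, s = [] := fun s hs => (((hF.2 []).1 hne).2 s hs (List.nil_infix)).symm
    have h2 : ∀ s ∈ F, s = [] := fun s hs => h1 s ((hF.2 s).1 hs).1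
    have h3 : F.length ≤ 1 := by
      rcases F with _ | ⟨a, _ | ⟨b, F⟩⟩
      · simp
      · simp
      · exfalso
        have e1 := h2 a (by simp)
        have e2 := h2 b (by simp)
        have := hF.1
        rw [e1, e2] at this
        simp at this
    have h4 := run_single h3 hrun
    have h5 : t = [] := h2 t (by rw [h4]; simp)
    subst h5
    refine ⟨fun s hs => ?_, Nat.zero_le _⟩
    rw [h1 s hs]
  · have hS := sfree_reduced hF hne
    obtain ⟨P, hP1, hP2, rfl, hP4⟩ := greedy_order hS (run_grun hS hrun).1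
    constructor
    · intro s hs
      obtain ⟨u, hu, hsu⟩ := infix_reduced hF hs
      exact hsu.trans (infix_mergeL (hP1.mem_iff.2 hu))
    · obtain ⟨T, hT1, hT2⟩ := exists_opt S
      rw [← hT2]
      refine three_bound (sfree_perm hS hP1.symm) hP2 hP4 ?_
      intro s hs
      exact hT1 s ((hF.2 s).1 (hP1.mem_iff.1 hs)).1

/-! ### Every non-empty family has an output -/

theorem exists_isOverlap (x y : List ℕ) : ∃ k, IsOverlap x y k := by
  refine ⟨_, Nat.sSup_mem (s := {k : ℕ | ∃ w : List ℕ, w.length = k ∧ w <:+ x ∧ w <+: y}) ?_ ?_,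
    fun k hk => le_csSup ?_ hk⟩
  · exact ⟨0, [], rfl, List.nil_suffix, List.nil_prefix⟩
  all_goals
    refine ⟨x.length, ?_⟩
    rintro k ⟨w, rfl, h1, -⟩
    exact h1.length_le

theorem exists_step {F : List (List ℕ)} (h : 2 ≤ F.length) : ∃ F', Step F F' := by
  have hbdd : BddAbove {l : ℕ | ∃ (z w : List ℕ) (R' : List (List ℕ)),
      F.Perm (z :: w :: R') ∧ IsOverlap z w l} := by
    refine ⟨F.flatten.length, ?_⟩
    rintro l ⟨z, w, R', h1, ⟨v, rfl, h2, -⟩, -⟩
    have h3 : z ∈ F := h1.mem_iff.2 (by simp)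
    exact h2.length_le.trans (List.infix_of_mem_flatten h3).length_le
  have hne : {l : ℕ | ∃ (z w : List ℕ) (R' : List (List ℕ)),
      F.Perm (z :: w :: R') ∧ IsOverlap z w l}.Nonempty := by
    rcases F with _ | ⟨a, _ | ⟨b, F⟩⟩
    · simp at h
    · simp at h
    · obtain ⟨k, hk⟩ := exists_isOverlap a b
      exact ⟨k, a, b, F, List.Perm.refl _, hk⟩
  obtain ⟨x, y, R, h1, h2⟩ := Nat.sSup_mem hne hbdd
  exact ⟨_, x, y, R, _, h1, h2, fun z w R' l hR' hl => le_csSup hbdd ⟨z, w, R', hR', hl⟩, rfl⟩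

theorem exists_run : ∀ (n : ℕ) (F : List (List ℕ)), F.length = n + 1 →
    ∃ t, Relation.ReflTransGen Step F [t] := by
  intro n
  induction n with
  | zero =>
    intro F hF
    obtain ⟨t, rfl⟩ := List.length_eq_one_iff.1 hF
    exact ⟨t, Relation.ReflTransGen.refl⟩
  | succ n ih =>
    intro F hF
    obtain ⟨F', hF'⟩ := exists_step (F := F) (by omega)
    have h1 := step_length hF'
    obtain ⟨t, ht⟩ := ih F' (by omega)
    exact ⟨t, Relation.ReflTransGen.head hF' ht⟩

theorem exists_output {S : List (List ℕ)} (hS : S ≠ []) : ∃ t, Output S t := by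
  obtain ⟨F, hF⟩ := exists_reduced S
  obtain ⟨s, S', rfl⟩ := List.exists_cons_of_ne_nil hS
  obtain ⟨u, hu, -⟩ := infix_reduced hF (s := s) (by simp)
  have h1 := List.length_pos_of_mem hu
  obtain ⟨t, ht⟩ := exists_run (F.length - 1) F (by omega)
  exact ⟨t, F, hF, ht⟩

end Vale.Agent.P333.H705.Gr
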