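import Vale.Agent.P333.H705.GrDefs

set_option autoImplicit false

/-!
P333: copies of an instance over disjoint alphabets.
-/

namespace Vale.Agent.P333.H705.Copies

open Vale.Agent.P333.Greedy

/-- all overlaps of the family are at most `k` -/
def MaxOv (F : List (List ℕ)) (k : ℕ) : Prop :=
  ∀ (z w : List ℕ) (R' : List (List ℕ)) (l : ℕ), F.Perm (z :: w :: R') → IsOverlap z w l → l ≤ k

theorem MaxOv.mono {F : List (List ℕ)} {k l : ℕ} (h : MaxOv F k) (hk : k ≤ l) : MaxOv F l :=
  fun z w R' m hp hm => (h z w R' m hp hm).trans hk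

theorem MaxOv.single (t : List ℕ) (k : ℕ) : MaxOv [t] k := by
  intro z w R' l hp _
  have := hp.length_eq
  simp at this

/-- all letters satisfy `P` -/
def Let (P : ℕ → Prop) (F : List (List ℕ)) : Prop := ∀ s ∈ F, ∀ a ∈ s, P a

theorem overlap_cross {P : ℕ → Prop} {x y : List ℕ} (hx : ∀ a ∈ x, P a) (hy : ∀ a ∈ y, ¬ P a)
    {k : ℕ} (h : IsOverlap x y k) : k = 0 := by
  obtain ⟨u, hu, h1, h2⟩ := h.1
  cases u with
  | nil => simpa using hu.symm
  | cons a u =>
    exact absurd (hx a (h1.subset List.mem_cons_self)) (hy a (h2.subset List.mem_cons_self))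

theorem overlap_zero {P : ℕ → Prop} {x y : List ℕ} (hx : ∀ a ∈ x, P a) (hy : ∀ a ∈ y, ¬ P a) :
    IsOverlap x y 0 := by
  refine ⟨⟨[], rfl, List.nil_suffix, List.nil_prefix⟩, ?_⟩
  rintro l ⟨u, hu, h1, h2⟩
  cases u with
  | nil => simpa using hu.symm.le
  | cons a u =>
    exact absurd (hx a (h1.subset List.mem_cons_self)) (hy a (h2.subset List.mem_cons_self))

/-- a pair of the union is a pair of one part or a crossing pair -/
theorem pair_union {A B : List (List ℕ)} {z w : List ℕ} {R' : List (List ℕ)}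
    (h : (A ++ B).Perm (z :: w :: R')) :
    (∃ R, A.Perm (z :: w :: R)) ∨ (∃ R, B.Perm (z :: w :: R)) ∨ (z ∈ A ∧ w ∈ B) ∨
      (z ∈ B ∧ w ∈ A) := by
  have hz : z ∈ A ++ B := h.mem_iff.2 List.mem_cons_self
  rcases List.mem_append.1 hz with hz | hz
  · have h1 : A.Perm (z :: A.erase z) := List.perm_cons_erase hz
    have h2 : (z :: (A.erase z ++ B)).Perm (z :: w :: R') :=
      ((h1.append_right B).symm).trans h
    have h3 : (A.erase z ++ B).Perm (w :: R') := (List.perm_cons z).1 h2
    rcases List.mem_append.1 (h3.mem_iff.2 List.mem_cons_self) with hw | hw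
    · exact Or.inl ⟨_, h1.trans ((List.perm_cons z).2 (List.perm_cons_erase hw))⟩
    · exact Or.inr (Or.inr (Or.inl ⟨hz, hw⟩))
  · have h1 : B.Perm (z :: B.erase z) := List.perm_cons_erase hz
    have h2 : (z :: (A ++ B.erase z)).Perm (z :: w :: R') :=
      ((List.perm_middle.symm.trans (h1.append_left A).symm)).trans h
    have h3 : (A ++ B.erase z).Perm (w :: R') := (List.perm_cons z).1 h2
    rcases List.mem_append.1 (h3.mem_iff.2 List.mem_cons_self) with hw | hw
    · exact Or.inr (Or.inr (Or.inr ⟨hz, hw⟩))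
    · exact Or.inr (Or.inl ⟨_, h1.trans ((List.perm_cons z).2 (List.perm_cons_erase hw))⟩)

theorem MaxOv.union {P : ℕ → Prop} {A B : List (List ℕ)} (hA : Let P A)
    (hB : Let (fun a => ¬ P a) B) {k : ℕ} (h1 : MaxOv A k) (h2 : MaxOv B k) :
    MaxOv (A ++ B) k := by
  intro z w R' l hp hl
  rcases pair_union hp with ⟨R, h⟩ | ⟨R, h⟩ | ⟨hz, hw⟩ | ⟨hz, hw⟩
  · exact h1 z w R l h hl
  · exact h2 z w R l h hl
  · rw [overlap_cross (P := P) (hA z hz) (hB w hw) hl]; exact Nat.zero_le _
  · have : l = 0 := overlap_cross (P := fun a => ¬ P a) (hB z hz)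
      (fun a ha => not_not.2 (hA w hw a ha)) hl
    rw [this]; exact Nat.zero_le _

/-! ### steps -/

theorem step_iff {F F' : List (List ℕ)} : Step F F' ↔ ∃ (x y : List ℕ) (R : List (List ℕ)) (k : ℕ),
    F.Perm (x :: y :: R) ∧ IsOverlap x y k ∧ MaxOv F k ∧
      F' = (x.take (x.length - k) ++ y) :: R := Iff.rfl

theorem step_perm {F G F' : List (List ℕ)} (h : Step F F') (hp : F.Perm G) : Step G F' := by
  obtain ⟨x, y, R, k, h1, h2, h3, h4⟩ := h
  exact ⟨x, y, R, k, hp.symm.trans h1, h2,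
    fun z w R' l hq hl => h3 z w R' l (hp.trans hq) hl, h4⟩

theorem run_perm {F G : List (List ℕ)} {t : List ℕ} (h : Relation.ReflTransGen Step F [t])
    (hp : F.Perm G) : Relation.ReflTransGen Step G [t] := by
  rcases h.cases_head with h1 | ⟨c, h1, h2⟩
  · subst h1
    rw [List.singleton_perm.1 hp]
  · exact Relation.ReflTransGen.head (step_perm h1 hp) h2

theorem step_let {P : ℕ → Prop} {F F' : List (List ℕ)} (h : Step F F') (hF : Let P F) :
    Let P F' := by
  obtain ⟨x, y, R, k, h1, -, -, h4⟩ := h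
  subst h4
  intro s hs a ha
  rcases List.mem_cons.1 hs with h5 | h5
  · subst h5
    rcases List.mem_append.1 ha with h6 | h6
    · exact hF x (h1.mem_iff.2 List.mem_cons_self) a (List.mem_of_mem_take h6)
    · exact hF y (h1.mem_iff.2 (List.mem_cons_of_mem _ List.mem_cons_self)) a h6
  · exact hF s (h1.mem_iff.2 (List.mem_cons_of_mem _ (List.mem_cons_of_mem _ h5))) a ha

theorem step_length {F F' : List (List ℕ)} (h : Step F F') : F.length = F'.length + 1 := by
  obtain ⟨x, y, R, k, h1, -, -, h4⟩ := h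
  subst h4
  rw [h1.length_eq]
  rfl

/-- the runs of two families over disjoint alphabets can be merged -/
theorem join {P : ℕ → Prop} : ∀ (n : ℕ) (A B : List (List ℕ)) (t t' : List ℕ),
    A.length + B.length = n → Let P A → Let (fun a => ¬ P a) B →
    Relation.ReflTransGen Step A [t] → Relation.ReflTransGen Step B [t'] →
    ∃ u, Relation.ReflTransGen Step (A ++ B) [u] ∧ u.length = t.length + t'.length := by
  intro n
  induction n with
  | zero =>
    intro A B t t' hn hA hB hrA hrB
    exfalso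
    have h1 : A = [] := List.eq_nil_of_length_eq_zero (by omega)
    subst h1
    rcases hrA.cases_head with h2 | ⟨c, h2, -⟩
    · simp at h2
    · have := step_length h2
      simp at this
  | succ n ih =>
    intro A B t t' hn hA hB hrA hrB
    have left : ∀ (x y : List ℕ) (R : List (List ℕ)) (k : ℕ), A.Perm (x :: y :: R) →
        IsOverlap x y k → MaxOv A k → MaxOv B k →
        Relation.ReflTransGen Step ((x.take (x.length - k) ++ y) :: R) [t] →
        ∃ u, Relation.ReflTransGen Step (A ++ B) [u] ∧ u.length = t.length + t'.length := by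
      intro x y R k h1 h2 h3 h4 h5
      have hs : Step A ((x.take (x.length - k) ++ y) :: R) := ⟨x, y, R, k, h1, h2, h3, rfl⟩
      obtain ⟨u, hu, hl⟩ := ih ((x.take (x.length - k) ++ y) :: R) B t t'
        (by have := step_length hs; omega) (step_let hs hA) hB h5 hrB
      refine ⟨u, Relation.ReflTransGen.head ?_ hu, hl⟩
      exact ⟨x, y, R ++ B, k, h1.append_right B, h2, MaxOv.union hA hB h3 h4, rfl⟩
    have right : ∀ (x y : List ℕ) (R : List (List ℕ)) (k : ℕ), B.Perm (x :: y :: R) →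
        IsOverlap x y k → MaxOv A k → MaxOv B k →
        Relation.ReflTransGen Step ((x.take (x.length - k) ++ y) :: R) [t'] →
        ∃ u, Relation.ReflTransGen Step (A ++ B) [u] ∧ u.length = t.length + t'.length := by
      intro x y R k h1 h2 h3 h4 h5
      have hs : Step B ((x.take (x.length - k) ++ y) :: R) := ⟨x, y, R, k, h1, h2, h4, rfl⟩
      obtain ⟨u, hu, hl⟩ := ih A ((x.take (x.length - k) ++ y) :: R) t t'
        (by have := step_length hs; omega) hA (step_let hs hB) hrA h5
      have hu' : Relation.ReflTransGen Step ((x.take (x.length - k) ++ y) :: (A ++ R)) [u] :=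
        run_perm hu List.perm_middle
      refine ⟨u, Relation.ReflTransGen.head ?_ hu', hl⟩
      refine ⟨x, y, A ++ R, k, ?_, h2, MaxOv.union hA hB h3 h4, rfl⟩
      have h6 : (A ++ B).Perm (A ++ (x :: y :: R)) := h1.append_left A
      exact h6.trans (List.perm_middle.trans ((List.perm_cons x).2 List.perm_middle))
    rcases hrA.cases_head with hA1 | ⟨A1, hA1, hA2⟩
    · rcases hrB.cases_head with hB1 | ⟨B1, hB1, hB2⟩
      · subst hA1
        subst hB1
        have h1 : ∀ a ∈ t, P a := hA t List.mem_cons_self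
        have h2 : ∀ a ∈ t', ¬ P a := hB t' List.mem_cons_self
        refine ⟨t ++ t', Relation.ReflTransGen.single ?_, List.length_append⟩
        refine ⟨t, t', [], 0, List.Perm.refl _, overlap_zero (P := P) h1 h2,
          MaxOv.union hA hB (MaxOv.single _ _) (MaxOv.single _ _), ?_⟩
        simp
      · obtain ⟨x, y, R, k, h1, h2, h3, h4⟩ := hB1
        subst h4
        subst hA1
        exact right x y R k h1 h2 (MaxOv.single _ _) h3 hB2
    · obtain ⟨x, y, R, k, h1, h2, h3, h4⟩ := hA1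
      subst h4
      rcases hrB.cases_head with hB1 | ⟨B1, hB1, hB2⟩
      · subst hB1
        exact left x y R k h1 h2 h3 (MaxOv.single _ _) hA2
      · obtain ⟨x', y', R', k', h1', h2', h3', h4'⟩ := hB1
        subst h4'
        rcases le_total k' k with hk | hk
        · exact left x y R k h1 h2 h3 (MaxOv.mono h3' hk) hA2
        · exact right x' y' R' k' h1' h2' (MaxOv.mono h3 hk) h3' hB2

/-! ### renaming of the letters -/

theorem suffix_map {f : ℕ → ℕ} {u x : List ℕ} (h : u <:+ x.map f) : ∃ v, v <:+ x ∧ v.map f = u := by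
  obtain ⟨s, hs⟩ := h
  obtain ⟨l1, l2, h1, h2, h3⟩ := List.map_eq_append_iff.1 hs.symm
  exact ⟨l2, ⟨l1, h1.symm⟩, h3⟩

theorem prefix_map {f : ℕ → ℕ} {u x : List ℕ} (h : u <+: x.map f) : ∃ v, v <+: x ∧ v.map f = u := by
  obtain ⟨s, hs⟩ := h
  obtain ⟨l1, l2, h1, h2, h3⟩ := List.map_eq_append_iff.1 hs.symm
  exact ⟨l1, ⟨l2, h1.symm⟩, h2⟩

theorem infix_map {f : ℕ → ℕ} {u x : List ℕ} (h : u <:+: x.map f) :
    ∃ v, v <:+: x ∧ v.map f = u := by
  obtain ⟨s, t, hs⟩ := h
  obtain ⟨l1, l2, h1, h2, h3⟩ := List.map_eq_append_iff.1 hs.symm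
  obtain ⟨l3, l4, h4, h5, h6⟩ := List.map_eq_append_iff.1 h2
  exact ⟨l4, ⟨l3, l2, by rw [h1, h4]⟩, h6⟩

theorem overlap_map {f : ℕ → ℕ} (hf : Function.Injective f) {x y : List ℕ} {k : ℕ} :
    IsOverlap (x.map f) (y.map f) k ↔ IsOverlap x y k := by
  have key : ∀ l : ℕ, (∃ w : List ℕ, w.length = l ∧ w <:+ x.map f ∧ w <+: y.map f) ↔
      ∃ w : List ℕ, w.length = l ∧ w <:+ x ∧ w <+: y := by
    intro l
    constructor
    · rintro ⟨w, h1, h2, h3⟩
      obtain ⟨v, hv, hv'⟩ := suffix_map h2
      obtain ⟨v', hw, hw'⟩ := prefix_map h3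
      have : v = v' := hf.list_map (by rw [hv', hw'])
      subst this
      exact ⟨v, by rw [← h1, ← hv', List.length_map], hv, hw⟩
    · rintro ⟨w, h1, h2, h3⟩
      exact ⟨w.map f, by rw [List.length_map, h1], h2.map f, h3.map f⟩
  unfold IsOverlap
  have : {k : ℕ | ∃ w : List ℕ, w.length = k ∧ w <:+ x.map f ∧ w <+: y.map f} =
      {k : ℕ | ∃ w : List ℕ, w.length = k ∧ w <:+ x ∧ w <+: y} := Set.ext key
  rw [this]

theorem maxOv_map {f : ℕ → ℕ} (hf : Function.Injective f) {F : List (List ℕ)} {k : ℕ}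
    (h : MaxOv F k) : MaxOv (F.map (List.map f)) k := by
  intro z w R' l hp hl
  have hz : z ∈ F.map (List.map f) := hp.mem_iff.2 List.mem_cons_self
  obtain ⟨z', hz', rfl⟩ := List.mem_map.1 hz
  have h1 : F.Perm (z' :: F.erase z') := List.perm_cons_erase hz'
  have h2 : (z'.map f :: (F.erase z').map (List.map f)).Perm (z'.map f :: w :: R') :=
    (h1.map (List.map f)).symm.trans hp
  have h3 := (List.perm_cons _).1 h2
  obtain ⟨w', hw', rfl⟩ := List.mem_map.1 (h3.mem_iff.2 List.mem_cons_self)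
  exact h z' w' _ l (h1.trans ((List.perm_cons z').2 (List.perm_cons_erase hw')))
    ((overlap_map hf).1 hl)

theorem step_map {f : ℕ → ℕ} (hf : Function.Injective f) {F F' : List (List ℕ)}
    (h : Step F F') : Step (F.map (List.map f)) (F'.map (List.map f)) := by
  obtain ⟨x, y, R, k, h1, h2, h3, h4⟩ := h
  subst h4
  refine ⟨x.map f, y.map f, R.map (List.map f), k, h1.map (List.map f), (overlap_map hf).2 h2,
    maxOv_map hf h3, ?_⟩
  simp [List.map_take]

theorem run_map {f : ℕ → ℕ} (hf : Function.Injective f) {F F' : List (List ℕ)}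
    (h : Relation.ReflTransGen Step F F') :
    Relation.ReflTransGen Step (F.map (List.map f)) (F'.map (List.map f)) := by
  induction h with
  | refl => exact Relation.ReflTransGen.refl
  | tail _ h2 ih => exact ih.tail (step_map hf h2)

theorem reduced_map {f : ℕ → ℕ} (hf : Function.Injective f) {F : List (List ℕ)}
    (h : Reduced F F) : Reduced (F.map (List.map f)) (F.map (List.map f)) := by
  refine ⟨h.1.map hf.list_map, fun s => ⟨fun hs => ⟨hs, ?_⟩, fun hs => hs.1⟩⟩
  intro t ht hst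
  obtain ⟨s', hs', rfl⟩ := List.mem_map.1 hs
  obtain ⟨t', ht', rfl⟩ := List.mem_map.1 ht
  obtain ⟨v, hv, hv'⟩ := infix_map hst
  have h1 : v = s' := hf.list_map hv'
  subst h1
  rw [((h.2 v).1 hs').2 t' ht' hv]

/-! ### the union of two instances -/

/-- an instance: reduced family of non-empty strings, output of the greedy algorithm, superstring -/
structure Inst (S : List (List ℕ)) (a b : ℕ) : Prop where
  red : Reduced S S
  ne : ∀ s ∈ S, s ≠ []
  run : ∃ t, Relation.ReflTransGen Step S [t] ∧ t.length = a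
  sup : ∃ T, IsSuperstring S T ∧ T.length = b

theorem Inst.map {S : List (List ℕ)} {a b : ℕ} (h : Inst S a b) {f : ℕ → ℕ}
    (hf : Function.Injective f) : Inst (S.map (List.map f)) a b := by
  refine ⟨reduced_map hf h.red, ?_, ?_, ?_⟩
  · intro s hs
    obtain ⟨s', hs', rfl⟩ := List.mem_map.1 hs
    intro h0
    exact h.ne s' hs' (List.map_eq_nil_iff.1 h0)
  · obtain ⟨t, h1, h2⟩ := h.run
    exact ⟨t.map f, run_map hf h1, by rw [List.length_map, h2]⟩
  · obtain ⟨T, h1, h2⟩ := h.sup
    refine ⟨T.map f, ?_, by rw [List.length_map, h2]⟩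
    intro s hs
    obtain ⟨s', hs', rfl⟩ := List.mem_map.1 hs
    exact (h1 s' hs').map f

theorem not_infix {P : ℕ → Prop} {x y : List ℕ} (hx : ∀ a ∈ x, P a) (hy : ∀ a ∈ y, ¬ P a)
    (hne : x ≠ []) : ¬ x <:+: y := by
  intro h
  cases x with
  | nil => exact hne rfl
  | cons a x => exact hy a (h.subset List.mem_cons_self) (hx a List.mem_cons_self)

theorem Inst.union {P : ℕ → Prop} {S S' : List (List ℕ)} {a b a' b' : ℕ} (h : Inst S a b)
    (h' : Inst S' a' b') (hP : Let P S) (hP' : Let (fun c => ¬ P c) S') :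
    Inst (S ++ S') (a + a') (b + b') := by
  refine ⟨⟨?_, fun s => ⟨fun hs => ⟨hs, ?_⟩, fun hs => hs.1⟩⟩, ?_, ?_, ?_⟩
  · refine List.Nodup.append h.red.1 h'.red.1 ?_
    intro s hs hs'
    exact not_infix (hP s hs) (hP' s hs') (h.ne s hs) (List.infix_refl s)
  · intro t ht hst
    rcases List.mem_append.1 hs with h1 | h1 <;> rcases List.mem_append.1 ht with h2 | h2
    · exact ((h.red.2 s).1 h1).2 t h2 hst
    · exact absurd hst (not_infix (hP s h1) (hP' t h2) (h.ne s h1))
    · exact absurd hst (not_infix (P := fun c => ¬ P c) (hP' s h1)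
        (fun c hc => not_not.2 (hP t h2 c hc)) (h'.ne s h1))
    · exact ((h'.red.2 s).1 h1).2 t h2 hst
  · intro s hs
    rcases List.mem_append.1 hs with h1 | h1
    · exact h.ne s h1
    · exact h'.ne s h1
  · obtain ⟨t, h1, h2⟩ := h.run
    obtain ⟨t', h3, h4⟩ := h'.run
    obtain ⟨u, h5, h6⟩ := join (P := P) _ S S' t t' rfl hP hP' h1 h3
    exact ⟨u, h5, by rw [h6, h2, h4]⟩
  · obtain ⟨T, h1, h2⟩ := h.sup
    obtain ⟨T', h3, h4⟩ := h'.sup
    refine ⟨T ++ T', ?_, by rw [List.length_append, h2, h4]⟩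
    intro s hs
    rcases List.mem_append.1 hs with h5 | h5
    · exact (h1 s h5).trans (List.infix_append' [] T T')
    · exact (h3 s h5).trans (List.infix_append_iff.2 (Or.inr (Or.inl (List.infix_refl _))))

/-- `N` copies -/
theorem Inst.copies {S : List (List ℕ)} {a b : ℕ} (h : Inst S a b) : ∀ N : ℕ, 0 < N →
    ∃ S' : List (List ℕ), Inst S' (N * a) (N * b) := by
  intro N hN
  induction N, hN using Nat.le_induction with
  | base => exact ⟨S, by simpa using h⟩
  | succ n hn ih =>
    obtain ⟨S', h'⟩ := ih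
    have e : Function.Injective (fun c : ℕ => 2 * c) := fun c d hcd => by
      have : 2 * c = 2 * d := hcd
      omega
    have o : Function.Injective (fun c : ℕ => 2 * c + 1) := fun c d hcd => by
      have : 2 * c + 1 = 2 * d + 1 := hcd
      omega
    refine ⟨S'.map (List.map fun c => 2 * c) ++ S.map (List.map fun c => 2 * c + 1), ?_⟩
    rw [Nat.succ_mul, Nat.succ_mul]
    refine Inst.union (P := fun c => c % 2 = 0) (h'.map e) (h.map o) ?_ ?_
    · intro s hs c hc
      obtain ⟨s', -, rfl⟩ := List.mem_map.1 hs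
      obtain ⟨d, -, rfl⟩ := List.mem_map.1 hc
      show 2 * d % 2 = 0
      omega
    · intro s hs c hc
      obtain ⟨s', -, rfl⟩ := List.mem_map.1 hs
      obtain ⟨d, -, rfl⟩ := List.mem_map.1 hc
      show ¬ (2 * d + 1) % 2 = 0
      omega

theorem opt_le {S T : _} (h : IsSuperstring S T) : opt S ≤ T.length := Nat.sInf_le ⟨T, h, rfl⟩

/-- **Copies of an instance over disjoint alphabets.** -/
theorem copies {S : List (List ℕ)} {t T : List ℕ} (hred : Reduced S S) (hne : ∀ s ∈ S, s ≠ [])
    (hrun : Relation.ReflTransGen Step S [t]) (hT : IsSuperstring S T) (N : ℕ) (hN : 0 < N) :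
    ∃ (S' : List (List ℕ)) (t' : List ℕ), Reduced S' S' ∧ Output S' t' ∧
      opt S' ≤ N * T.length ∧ t'.length = N * t.length := by
  obtain ⟨S', h⟩ := Inst.copies (S := S) (a := t.length) (b := T.length)
    ⟨hred, hne, ⟨t, hrun, rfl⟩, ⟨T, hT, rfl⟩⟩ N hN
  obtain ⟨t', h1, h2⟩ := h.run
  obtain ⟨T', h3, h4⟩ := h.sup
  exact ⟨S', t', h.red, ⟨S', h.red, h1⟩, h4 ▸ opt_le h3, h2⟩

/-- no additive constant helps -/
theorem unbounded {S : List (List ℕ)} {t T : List ℕ} (hred : Reduced S S) (hne : ∀ s ∈ S, s ≠ [])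
    (hrun : Relation.ReflTransGen Step S [t]) (hT : IsSuperstring S T) {p q : ℕ}
    (h : p * T.length < q * t.length) (C : ℕ) :
    ∃ (S' : List (List ℕ)) (t' : List ℕ), Reduced S' S' ∧ Output S' t' ∧
      p * opt S' + C < q * t'.length := by
  obtain ⟨S', t', h1, h2, h3, h4⟩ := copies hred hne hrun hT (C + 1) (Nat.succ_pos C)
  refine ⟨S', t', h1, h2, ?_⟩
  rw [h4]
  have h5 : p * opt S' ≤ p * ((C + 1) * T.length) := Nat.mul_le_mul_left _ h3
  have h6 : p * ((C + 1) * T.length) = (C + 1) * (p * T.length) := by ring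
  have h7 : q * ((C + 1) * t.length) = (C + 1) * (q * t.length) := by ring
  have h8 : (C + 1) * (p * T.length + 1) ≤ (C + 1) * (q * t.length) :=
    Nat.mul_le_mul_left _ h
  have h9 : (C + 1) * (p * T.length + 1) = (C + 1) * (p * T.length) + (C + 1) := by ring
  omega

end Vale.Agent.P333.H705.Copies
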