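import Vale.Agent.P333.H705.Copies
import Vale.Agent.P333.H705.GrG
import Vale.Agent.P333.H984.Chk

set_option autoImplicit false

/-!
P333: copies of an instance over disjoint alphabets, for all ways of breaking the ties.
-/

namespace Vale.Agent.P333.H705.Copies

open Vale.Agent.P333.Greedy
open Vale.Agent.P333.H984.Chk (NoOv total zero_end)

/-- every run ends with a string of length `n` -/
def EndsC (F : List (List ℕ)) (n : ℕ) : Prop :=
  ∀ t, Relation.ReflTransGen Step F [t] → t.length = n

theorem EndsC.step {F F' : List (List ℕ)} {n : ℕ} (h : EndsC F n) (hs : Step F F') :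
    EndsC F' n := fun t ht => h t (Relation.ReflTransGen.head hs ht)

theorem total_of_zero {F : List (List ℕ)} (h0 : H984.Chk.Zero F) (hne : F ≠ []) {n : ℕ}
    (h : EndsC F n) : total F = n := by
  have hl : 0 < F.length := List.length_pos_iff.2 hne
  obtain ⟨t, ht⟩ := Gr.exists_run (F.length - 1) F (by omega)
  have h1 := zero_end h0 ht
  have h2 := h t ht
  rw [← h1, ← h2]
  simp [total]

theorem zero_of_maxOv {F : List (List ℕ)} (h : MaxOv F 0) : H984.Chk.Zero F := by
  unfold H984.Chk.Zero
  rw [List.pairwise_iff_forall_sublist]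
  intro a b hab
  obtain ⟨R, hR⟩ := hab.exists_perm_append
  have key : ∀ (z w : List ℕ) (R' : List (List ℕ)), F.Perm (z :: w :: R') → NoOv z w := by
    intro z w R' hp u hu hw
    obtain ⟨k, hk⟩ := Gr.exists_isOverlap z w
    have h1 := h z w R' k hp hk
    have h2 : u.length ≤ k := hk.2 ⟨u, rfl, hu, hw⟩
    exact List.length_eq_zero_iff.1 (by omega)
  exact ⟨key a b R hR, key b a R (hR.trans (List.Perm.swap b a R))⟩

theorem MaxOv.left {A B : List (List ℕ)} {k : ℕ} (h : MaxOv (A ++ B) k) : MaxOv A k :=
  fun z w R' l hp hl => h z w (R' ++ B) l (hp.append_right B) hl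

theorem MaxOv.right {A B : List (List ℕ)} {k : ℕ} (h : MaxOv (A ++ B) k) : MaxOv B k :=
  fun z w R' l hp hl => h z w (A ++ R') l ((hp.append_left A).trans
    (List.perm_middle.trans ((List.perm_cons z).2 List.perm_middle))) hl

/-- **All runs of the union of two families over disjoint alphabets.** -/
theorem ends_union {P : ℕ → Prop} : ∀ (n : ℕ) (A B : List (List ℕ)) (a b : ℕ),
    A.length + B.length = n → A ≠ [] → B ≠ [] → Let P A → Let (fun c => ¬ P c) B →
    EndsC A a → EndsC B b → EndsC (A ++ B) (a + b) := by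
  intro n
  induction n using Nat.strong_induction_on with
  | _ n ih =>
    intro A B a b hn hA0 hB0 hA hB hEA hEB t ht
    have la : 0 < A.length := List.length_pos_iff.2 hA0
    have lb : 0 < B.length := List.length_pos_iff.2 hB0
    have cross : ∀ k : ℕ, k = 0 → MaxOv (A ++ B) k → t.length = a + b := by
      intro k hk hmax
      subst hk
      have h1 := zero_end (zero_of_maxOv hmax) ht
      have h2 := total_of_zero (zero_of_maxOv (MaxOv.left hmax)) hA0 hEA
      have h3 := total_of_zero (zero_of_maxOv (MaxOv.right hmax)) hB0 hEB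
      have h4 : total (A ++ B) = total A + total B := by simp [total]
      have h5 : total [t] = t.length := by simp [total]
      rw [← h5, h1, h4, h2, h3]
    rcases ht.cases_head with h1 | ⟨F', hs, ht'⟩
    · have := congrArg List.length h1
      simp at this
      omega
    · obtain ⟨x, y, R, k, hp, hov, hmax, rfl⟩ := hs
      have hmax' : MaxOv (A ++ B) k := hmax
      rcases pair_union hp with ⟨R1, h⟩ | ⟨R1, h⟩ | ⟨hz, hw⟩ | ⟨hz, hw⟩
      · have hsA : Step A ((x.take (x.length - k) ++ y) :: R1) :=
          ⟨x, y, R1, k, h, hov, MaxOv.left hmax', rfl⟩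
        have hR : R.Perm (R1 ++ B) := by
          have h2 : (x :: y :: R).Perm (x :: y :: (R1 ++ B)) :=
            hp.symm.trans (h.append_right B)
          exact (List.perm_cons _).1 ((List.perm_cons _).1 h2)
        have h3 := ih _ (by have := step_length hsA; omega)
          ((x.take (x.length - k) ++ y) :: R1) B a b rfl (by simp) hB0 (step_let hsA hA) hB
          (hEA.step hsA) hEB
        exact h3 t (run_perm ht' ((List.perm_cons _).2 hR))
      · have hsB : Step B ((x.take (x.length - k) ++ y) :: R1) :=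
          ⟨x, y, R1, k, h, hov, MaxOv.right hmax', rfl⟩
        have hR : R.Perm (A ++ R1) := by
          have h2 : (A ++ B).Perm (x :: y :: (A ++ R1)) := (h.append_left A).trans
            (List.perm_middle.trans ((List.perm_cons x).2 List.perm_middle))
          exact (List.perm_cons _).1 ((List.perm_cons _).1 (hp.symm.trans h2))
        have h3 := ih _ (by have := step_length hsB; omega)
          A ((x.take (x.length - k) ++ y) :: R1) a b rfl hA0 (by simp) hA (step_let hsB hB)
          hEA (hEB.step hsB)
        exact h3 t (run_perm ht' (((List.perm_cons _).2 hR).trans List.perm_middle.symm))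
      · exact cross k (overlap_cross (P := P) (hA x hz) (hB y hw) hov) hmax'
      · exact cross k (overlap_cross (P := fun c => ¬ P c) (hB x hz)
          (fun c hc => not_not.2 (hA y hw c hc)) hov) hmax'

/-! ### renaming of the letters, backwards -/

theorem step_map_inv {f : ℕ → ℕ} (hf : Function.Injective f) {F G : List (List ℕ)}
    (h : Step (F.map (List.map f)) G) : ∃ F', G = F'.map (List.map f) ∧ Step F F' := by
  obtain ⟨x', y', R', k, h1, h2, h3, h4⟩ := h
  have hm : ∀ r ∈ x' :: y' :: R', r ∈ Set.range (List.map f) := by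
    intro r hr
    obtain ⟨s, -, hs⟩ := List.mem_map.1 (h1.mem_iff.2 hr)
    exact ⟨s, hs⟩
  obtain ⟨x, rfl⟩ := hm x' List.mem_cons_self
  obtain ⟨y, rfl⟩ := hm y' (List.mem_cons_of_mem _ List.mem_cons_self)
  have hR : R' ∈ Set.range (List.map (List.map f)) := by
    rw [Set.range_list_map]
    intro r hr
    exact hm r (List.mem_cons_of_mem _ (List.mem_cons_of_mem _ hr))
  obtain ⟨R, rfl⟩ := hR
  have hp : F.Perm (x :: y :: R) := by
    have h5 : (F.map (List.map f)).Perm ((x :: y :: R).map (List.map f)) := h1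
    exact (List.map_perm_map_iff hf.list_map).1 h5
  refine ⟨(x.take (x.length - k) ++ y) :: R, ?_, x, y, R, k, hp, (overlap_map hf).1 h2, ?_, rfl⟩
  · rw [h4]
    simp [List.map_take]
  · intro z w R'' l hq hl
    exact h3 (z.map f) (w.map f) (R''.map (List.map f)) l (hq.map (List.map f))
      ((overlap_map hf).2 hl)

theorem run_map_inv {f : ℕ → ℕ} (hf : Function.Injective f) {F G : List (List ℕ)}
    (h : Relation.ReflTransGen Step (F.map (List.map f)) G) :
    ∃ F', G = F'.map (List.map f) ∧ Relation.ReflTransGen Step F F' := by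
  induction h with
  | refl => exact ⟨F, rfl, Relation.ReflTransGen.refl⟩
  | tail _ h2 ih =>
    obtain ⟨F', rfl, h4⟩ := ih
    obtain ⟨F'', rfl, h6⟩ := step_map_inv hf h2
    exact ⟨F'', rfl, h4.tail h6⟩

theorem EndsC.map {F : List (List ℕ)} {n : ℕ} (h : EndsC F n) {f : ℕ → ℕ}
    (hf : Function.Injective f) : EndsC (F.map (List.map f)) n := by
  intro t ht
  obtain ⟨F', h1, h2⟩ := run_map_inv hf ht
  cases F' with
  | nil => simp at h1
  | cons s F' =>
    cases F' with
    | nil =>
      have h3 : t = s.map f := by simpa using h1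
      rw [h3, List.length_map]
      exact h s h2
    | cons s' F' => simp at h1

/-! ### copies -/

/-- an instance all outputs of which have length `a` -/
structure Forced (S : List (List ℕ)) (a b : ℕ) : Prop where
  inst : Inst S a b
  nonempty : S ≠ []
  ends : EndsC S a

theorem Forced.copies {S : List (List ℕ)} {a b : ℕ} (h : Forced S a b) : ∀ N : ℕ, 0 < N →
    ∃ S' : List (List ℕ), Forced S' (N * a) (N * b) := by
  intro N hN
  induction N, hN using Nat.le_induction with
  | base => exact ⟨S, by simpa using h⟩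
  | succ n hn ih =>
    obtain ⟨S', h'⟩ := ih
    have e : Function.Injective (fun c : ℕ => 2 * c) := fun c d hcd => by
      have : 2 * c = 2 * d := hcd
      omega
    have o : Function.Injective (fun c : ℕ => 2 * c + 1) := fun c d hcd => by
      have : 2 * c + 1 = 2 * d + 1 := hcd
      omega
    have hP : Let (fun c => c % 2 = 0) (S'.map (List.map fun c => 2 * c)) := by
      intro s hs c hc
      obtain ⟨s', -, rfl⟩ := List.mem_map.1 hs
      obtain ⟨d, -, rfl⟩ := List.mem_map.1 hc
      show 2 * d % 2 = 0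
      omega
    have hP' : Let (fun c => ¬ c % 2 = 0) (S.map (List.map fun c => 2 * c + 1)) := by
      intro s hs c hc
      obtain ⟨s', -, rfl⟩ := List.mem_map.1 hs
      obtain ⟨d, -, rfl⟩ := List.mem_map.1 hc
      show ¬ (2 * d + 1) % 2 = 0
      omega
    refine ⟨S'.map (List.map fun c => 2 * c) ++ S.map (List.map fun c => 2 * c + 1), ?_⟩
    rw [Nat.succ_mul, Nat.succ_mul]
    have n1 : S'.map (List.map fun c => 2 * c) ≠ [] := fun h0 =>
      h'.nonempty (List.map_eq_nil_iff.1 h0)
    have n2 : S.map (List.map fun c => 2 * c + 1) ≠ [] := fun h0 =>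
      h.nonempty (List.map_eq_nil_iff.1 h0)
    exact ⟨Inst.union (P := fun c => c % 2 = 0) (h'.inst.map e) (h.inst.map o) hP hP',
      fun h0 => n1 (List.append_eq_nil_iff.1 h0).1,
      ends_union (P := fun c => c % 2 = 0) _ _ _ _ _ rfl n1 n2 hP hP' (h'.ends.map e)
        (h.ends.map o)⟩

theorem reduced_perm {S F : List (List ℕ)} (hS : Reduced S S) (hF : Reduced S F) : F.Perm S := by
  rw [List.perm_ext_iff_of_nodup hF.1 hS.1]
  intro s
  rw [hF.2 s]
  exact (hS.2 s).symm

theorem EndsC.output {S : List (List ℕ)} {n : ℕ} (hS : Reduced S S) (h : EndsC S n)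
    {t : List ℕ} (ht : Output S t) : t.length = n := by
  obtain ⟨F, hF, hr⟩ := ht
  exact h t (run_perm hr (reduced_perm hS hF))

/-- **For every way of breaking the ties, no bound with an additive constant.** -/
theorem all_unbounded {S : List (List ℕ)} {T : List ℕ} {a : ℕ} (hred : Reduced S S)
    (hne : ∀ s ∈ S, s ≠ []) (hS : S ≠ [])
    (hE : ∀ t, Relation.ReflTransGen Step S [t] → t.length = a)
    (hT : IsSuperstring S T) {p q : ℕ} (h : p * T.length < q * a) (C : ℕ) :
    ∃ S' : List (List ℕ), Reduced S' S' ∧ (∃ t, Output S' t) ∧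
      ∀ t, Output S' t → p * opt S' + C < q * t.length := by
  have hl : 0 < S.length := List.length_pos_iff.2 hS
  obtain ⟨t₀, ht₀⟩ := Gr.exists_run (S.length - 1) S (by omega)
  have hF : Forced S a T.length :=
    ⟨⟨hred, hne, ⟨t₀, ht₀, hE t₀ ht₀⟩, ⟨T, hT, rfl⟩⟩, hS, hE⟩
  obtain ⟨S', hF'⟩ := hF.copies (C + 1) (Nat.succ_pos C)
  obtain ⟨t', h1, -⟩ := hF'.inst.run
  obtain ⟨T', h3, h4⟩ := hF'.inst.sup
  refine ⟨S', hF'.inst.red, ⟨t', S', hF'.inst.red, h1⟩, fun t ht => ?_⟩
  rw [hF'.ends.output hF'.inst.red ht]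
  have h5 : opt S' ≤ (C + 1) * T.length := h4 ▸ opt_le h3
  have h6 : p * opt S' ≤ p * ((C + 1) * T.length) := Nat.mul_le_mul_left _ h5
  have h7 : p * ((C + 1) * T.length) = (C + 1) * (p * T.length) := by ring
  have h8 : q * ((C + 1) * a) = (C + 1) * (q * a) := by ring
  have h9 : (C + 1) * (p * T.length + 1) ≤ (C + 1) * (q * a) := Nat.mul_le_mul_left _ h
  have h10 : (C + 1) * (p * T.length + 1) = (C + 1) * (p * T.length) + (C + 1) := by ring
  omega

end Vale.Agent.P333.H705.Copies
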