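import Vale.Agent.P333.H705.Copies2

set_option autoImplicit false

/-!
P333: copies of an instance over disjoint alphabets: form with the optimum.
-/

namespace Vale.Agent.P333.H705.Copies

open Vale.Agent.P333.Greedy

/-- **If all outputs for one family have the same length and violate a bound, then all outputs
for other families violate it by more than any constant.** -/
theorem all_unbounded_opt {S : List (List ℕ)} {a : ℕ} (hred : Reduced S S)
    (hne : ∀ s ∈ S, s ≠ []) (hS : S ≠ []) (hO : ∀ t, Output S t → t.length = a)
    {p q : ℕ} (h : p * opt S < q * a) (C : ℕ) :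
    ∃ S' : List (List ℕ), Reduced S' S' ∧ (∃ t, Output S' t) ∧
      ∀ t, Output S' t → p * opt S' + C < q * t.length := by
  obtain ⟨t, ht⟩ := Gr.exists_output hS
  have h1 : {n : ℕ | ∃ T : List ℕ, IsSuperstring S T ∧ T.length = n}.Nonempty :=
    ⟨t.length, t, (Gr.output_le ht).1, rfl⟩
  obtain ⟨T, hT, hTl⟩ := Nat.sInf_mem h1
  have h2 : T.length = opt S := hTl
  exact all_unbounded hred hne hS (fun t ht => hO t ⟨S, hred, ht⟩) hT (by rw [h2]; exact h) C

end Vale.Agent.P333.H705.Copies
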