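import Mathlib

set_option autoImplicit false

/-!
P333, the greedy algorithm: a bound for matchings by prescribed values of tails and heads.
-/

namespace Vale.Agent.P333.H705.Gr

/-- The exchange property of overlaps. -/
def Exch {V : Type*} (o : V → V → ℕ) : Prop :=
  ∀ i j i' j', o i j' ≤ o i j → o i' j ≤ o i j → o i j' + o i' j ≤ o i j + o i' j'

theorem split_fst {V : Type*} (P : List (V × V)) (x : V) (h : x ∈ P.map Prod.fst) :
    ∃ y P', P.Perm ((x, y) :: P') := by
  classical
  obtain ⟨e, he, rfl⟩ := List.mem_map.1 h
  exact ⟨e.2, P.erase e, List.perm_cons_erase he⟩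

theorem split_snd {V : Type*} (P : List (V × V)) (y : V) (h : y ∈ P.map Prod.snd) :
    ∃ x P', P.Perm ((x, y) :: P') := by
  classical
  obtain ⟨e, he, rfl⟩ := List.mem_map.1 h
  exact ⟨e.1, P.erase e, List.perm_cons_erase he⟩

theorem exists_max {V : Type*} (α β : V → ℕ) (X Y : Finset V)
    (h : X.Nonempty ∨ Y.Nonempty) :
    (∃ x ∈ X, (∀ x' ∈ X, α x' ≤ α x) ∧ ∀ y ∈ Y, β y ≤ α x) ∨
      ∃ y ∈ Y, (∀ x ∈ X, α x ≤ β y) ∧ ∀ y' ∈ Y, β y' ≤ β y := by
  have hne : (X.disjSum Y).Nonempty := by
    rcases h with ⟨x, hx⟩ | ⟨y, hy⟩
    · exact ⟨Sum.inl x, Finset.inl_mem_disjSum.2 hx⟩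
    · exact ⟨Sum.inr y, Finset.inr_mem_disjSum.2 hy⟩
  obtain ⟨z, hz, hmax⟩ := Finset.exists_max_image _ (Sum.elim α β) hne
  rcases z with x | y
  · left
    refine ⟨x, Finset.inl_mem_disjSum.1 hz, ?_, ?_⟩
    · intro x' hx'
      exact hmax (Sum.inl x') (Finset.inl_mem_disjSum.2 hx')
    · intro y hy
      exact hmax (Sum.inr y) (Finset.inr_mem_disjSum.2 hy)
  · right
    refine ⟨y, Finset.inr_mem_disjSum.1 hz, ?_, ?_⟩
    · intro x' hx'
      exact hmax (Sum.inl x') (Finset.inl_mem_disjSum.2 hx')
    · intro y hy
      exact hmax (Sum.inr y) (Finset.inr_mem_disjSum.2 hy)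

/-- The conditions on a matching with tails in `X`, heads in `Y`, increasing in rank. -/
structure Mat {V : Type*} (r : V → ℕ) (X Y : Finset V) (P : List (V × V)) : Prop where
  fst : (P.map Prod.fst).Nodup
  snd : (P.map Prod.snd).Nodup
  mem : ∀ e ∈ P, e.1 ∈ X ∧ e.2 ∈ Y ∧ r e.1 ≤ r e.2

theorem Mat.perm {V : Type*} {r : V → ℕ} {X Y : Finset V} {P Q : List (V × V)}
    (h : Mat r X Y P) (hPQ : P.Perm Q) : Mat r X Y Q :=
  ⟨(hPQ.map _).nodup_iff.1 h.fst, (hPQ.map _).nodup_iff.1 h.snd,
    fun e he => h.mem e (hPQ.mem_iff.2 he)⟩

theorem Mat.tail {V : Type*} [DecidableEq V] {r : V → ℕ} {X Y : Finset V} {P : List (V × V)}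
    {x y : V} (h : Mat r X Y ((x, y) :: P)) : Mat r (X.erase x) (Y.erase y) P := by
  have h1 := h.fst
  have h2 := h.snd
  rw [List.map_cons, List.nodup_cons] at h1 h2
  refine ⟨h1.2, h2.2, ?_⟩
  intro e he
  have h3 := h.mem e (List.mem_cons_of_mem _ he)
  refine ⟨Finset.mem_erase.2 ⟨?_, h3.1⟩, Finset.mem_erase.2 ⟨?_, h3.2.1⟩, h3.2.2⟩
  · intro h4
    exact h1.1 (List.mem_map.2 ⟨e, he, h4⟩)
  · intro h4
    exact h2.1 (List.mem_map.2 ⟨e, he, h4⟩)

theorem Mat.mono {V : Type*} {r : V → ℕ} {X Y X' Y' : Finset V} {P : List (V × V)}
    (h : Mat r X Y P) (hX : X ⊆ X') (hY : Y ⊆ Y') : Mat r X' Y' P :=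
  ⟨h.fst, h.snd, fun e he => ⟨hX (h.mem e he).1, hY (h.mem e he).2.1, (h.mem e he).2.2⟩⟩

theorem Mat.eraseX {V : Type*} [DecidableEq V] {r : V → ℕ} {X Y : Finset V} {P : List (V × V)}
    {x : V} (h : Mat r X Y P) (hx : x ∉ P.map Prod.fst) : Mat r (X.erase x) Y P := by
  refine ⟨h.fst, h.snd, fun e he => ⟨Finset.mem_erase.2 ⟨?_, (h.mem e he).1⟩, (h.mem e he).2⟩⟩
  intro h4
  exact hx (List.mem_map.2 ⟨e, he, h4⟩)

theorem Mat.eraseY {V : Type*} [DecidableEq V] {r : V → ℕ} {X Y : Finset V} {P : List (V × V)}
    {y : V} (h : Mat r X Y P) (hy : y ∉ P.map Prod.snd) : Mat r X (Y.erase y) P := by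
  refine ⟨h.fst, h.snd, fun e he => ⟨(h.mem e he).1, Finset.mem_erase.2 ⟨?_, (h.mem e he).2.1⟩,
    (h.mem e he).2.2⟩⟩
  intro h4
  exact hy (List.mem_map.2 ⟨e, he, h4⟩)

/-- The value of a matching. -/
def val {V : Type*} (o : V → V → ℕ) (P : List (V × V)) : ℕ := (P.map (fun e => o e.1 e.2)).sum

theorem val_perm {V : Type*} {o : V → V → ℕ} {P Q : List (V × V)} (h : P.Perm Q) :
    val o P = val o Q := (h.map _).sum_eq

theorem val_cons {V : Type*} {o : V → V → ℕ} (x y : V) (P : List (V × V)) :
    val o ((x, y) :: P) = o x y + val o P := by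
  simp [val]

/-- The values on tails and heads bound every matching increasing in rank. -/
theorem lemE {V : Type*} [DecidableEq V] {o : V → V → ℕ} (hM : Exch o) (α β r : V → ℕ)
    (c : V → V) : ∀ (n : ℕ) (X Y C : Finset V) (P : List (V × V)), X.card + Y.card ≤ n →
      C ⊆ X → (∀ i ∈ C, c i ∈ Y) → (∀ i ∈ C, ∀ j ∈ C, c i = c j → i = j) →
      (∀ i ∈ C, r (c i) ≤ r i) → (∀ i ∈ C, o i (c i) = α i) → (∀ i ∈ C, o i (c i) = β (c i)) →
      (∀ x ∈ X, ∀ y ∈ Y, r x ≤ r y → o x y ≤ max (α x) (β y)) → Mat r X Y P →
      val o P ≤ ∑ x ∈ X, α x + ∑ y ∈ Y.filter (fun y => y ∉ C.image c), β y := by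
  intro n
  induction n with
  | zero =>
    intro X Y C P hn _ _ _ _ _ _ _ hP
    have hX : X = ∅ := Finset.card_eq_zero.1 (by omega)
    have hP0 : P = [] := by
      rcases P with _ | ⟨e, P⟩
      · rfl
      · have := (hP.mem e (by simp)).1
        rw [hX] at this
        exact absurd this (Finset.notMem_empty _)
    rw [hP0]
    simp [val]
  | succ n ih =>
    intro X Y C P hn hCX hCY hinj hr hα hβ hdom hP
    -- the case of a chosen pair of maximal value
    have key : ∀ i ∈ C, (∀ x' ∈ X, α x' ≤ α i) → (∀ y ∈ Y, β y ≤ α i) →
        val o P ≤ ∑ x ∈ X, α x + ∑ y ∈ Y.filter (fun y => y ∉ C.image c), β y := by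
      intro i hi m1 m2
      have hiX := hCX hi
      have hjY := hCY i hi
      have hle : ∀ x ∈ X, ∀ y ∈ Y, r x ≤ r y → o x y ≤ o i (c i) := by
        intro x hx y hy hxy
        have h1 := hdom x hx y hy hxy
        have h2 := m1 x hx
        have h3 := m2 y hy
        rw [hα i hi]
        exact h1.trans (max_le h2 h3)
      -- the new matching
      have hnew : ∃ P', Mat r (X.erase i) (Y.erase (c i)) P' ∧ val o P ≤ o i (c i) + val o P' := by
        by_cases h1 : i ∈ P.map Prod.fst
        · obtain ⟨y', P1, hP1⟩ := split_fst P i h1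
          have hM1 := hP.perm hP1
          have hv1 := val_perm (o := o) hP1
          rw [val_cons] at hv1
          have hy' := hM1.mem (i, y') (by simp)
          by_cases h2 : c i = y'
          · refine ⟨P1, ?_, ?_⟩
            · rw [h2]; exact hM1.tail
            · rw [h2]; omega
          · have hT1 := hM1.tail
            by_cases h3 : c i ∈ P1.map Prod.snd
            · obtain ⟨z, P2, hP2⟩ := split_snd P1 (c i) h3
              have hM2 := hT1.perm hP2
              have hv2 := val_perm (o := o) hP2
              rw [val_cons] at hv2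
              have hz := hM2.mem (z, c i) (by simp)
              have hT2 := hM2.tail
              refine ⟨(z, y') :: P2, ?_, ?_⟩
              · have hf := hT2.fst
                have hs := hT2.snd
                refine ⟨?_, ?_, ?_⟩
                · rw [List.map_cons, List.nodup_cons]
                  refine ⟨?_, hf⟩
                  intro h4
                  obtain ⟨e, he, he2⟩ := List.mem_map.1 h4
                  have h5 := (hT2.mem e he).1
                  rw [Finset.mem_erase] at h5
                  exact h5.1 he2
                · rw [List.map_cons, List.nodup_cons]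
                  refine ⟨?_, hs⟩
                  intro h4
                  obtain ⟨e, he, he2⟩ := List.mem_map.1 h4
                  have h5 := (hT2.mem e he).2.1
                  rw [Finset.mem_erase, Finset.mem_erase] at h5
                  exact h5.2.1 he2
                · intro e he
                  rcases List.mem_cons.1 he with rfl | he
                  · refine ⟨hz.1, Finset.mem_erase.2 ⟨fun h => h2 h.symm, hy'.2.1⟩, ?_⟩
                    have h4 := hr i hi
                    have h5 := hz.2.2
                    have h6 := hy'.2.2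
                    dsimp only at h4 h5 h6 ⊢
                    omega
                  · have h5 := hT2.mem e he
                    rw [Finset.mem_erase, Finset.mem_erase, Finset.mem_erase] at h5
                    have h6 := hT2.mem e he
                    exact ⟨Finset.mem_of_mem_erase h6.1,
                      Finset.mem_erase.2 ⟨h5.2.1.1,
                        Finset.mem_of_mem_erase (Finset.mem_of_mem_erase h6.2.1)⟩, h5.2.2⟩
              · have h4 := hM i (c i) z y' (hle _ hy'.1 _ hy'.2.1 hy'.2.2)
                  (hle _ (Finset.mem_of_mem_erase hz.1) _ (Finset.mem_of_mem_erase hz.2.1) hz.2.2)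
                rw [val_cons]
                omega
            · refine ⟨P1, ?_, ?_⟩
              · exact (hT1.eraseY h3).mono (Finset.Subset.refl _)
                  (Finset.erase_subset_erase _ (Finset.erase_subset _ _))
              · have := hle _ hy'.1 _ hy'.2.1 hy'.2.2
                dsimp only at this
                omega
        · by_cases h3 : c i ∈ P.map Prod.snd
          · obtain ⟨z, P2, hP2⟩ := split_snd P (c i) h3
            have hM2 := hP.perm hP2
            have hv2 := val_perm (o := o) hP2
            rw [val_cons] at hv2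
            have hz := hM2.mem (z, c i) (by simp)
            refine ⟨P2, ?_, ?_⟩
            · have h4 : i ∉ P2.map Prod.fst := by
                intro h
                apply h1
                rw [(hP2.map Prod.fst).mem_iff, List.map_cons]
                exact List.mem_cons_of_mem _ h
              have h5 := (hM2.tail).eraseX h4
              refine h5.mono ?_ (Finset.Subset.refl _)
              exact Finset.erase_subset_erase _ (Finset.erase_subset _ _)
            · have := hle _ hz.1 _ hz.2.1 hz.2.2
              dsimp only at this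
              omega
          · refine ⟨P, (hP.eraseX h1).eraseY h3, ?_⟩
            omega
      obtain ⟨P', hP', hval⟩ := hnew
      have hcard : (X.erase i).card + (Y.erase (c i)).card ≤ n := by
        have e1 := Finset.card_erase_of_mem hiX
        have e2 := Finset.card_erase_of_mem hjY
        have e3 : 0 < X.card := Finset.card_pos.2 ⟨i, hiX⟩
        have e4 : 0 < Y.card := Finset.card_pos.2 ⟨_, hjY⟩
        omega
      have h1 := ih (X.erase i) (Y.erase (c i)) (C.erase i) P' hcard
        (Finset.erase_subset_erase _ hCX) ?_ ?_ ?_ ?_ ?_ ?_ hP'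
      · have hf : (Y.erase (c i)).filter (fun y => y ∉ (C.erase i).image c) =
            Y.filter (fun y => y ∉ C.image c) := by
          ext y
          rw [Finset.mem_filter, Finset.mem_filter, Finset.mem_erase]
          constructor
          · rintro ⟨⟨h2, h3⟩, h4⟩
            refine ⟨h3, fun h5 => ?_⟩
            obtain ⟨k, hk, hk2⟩ := Finset.mem_image.1 h5
            apply h4
            refine Finset.mem_image.2 ⟨k, Finset.mem_erase.2 ⟨?_, hk⟩, hk2⟩
            rintro rfl
            exact h2 hk2.symm
          · rintro ⟨h3, h4⟩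
            refine ⟨⟨?_, h3⟩, fun h5 => ?_⟩
            · rintro rfl
              exact h4 (Finset.mem_image_of_mem _ hi)
            · exact h4 (Finset.image_subset_image (Finset.erase_subset _ _) h5)
        rw [hf] at h1
        have h2 := Finset.add_sum_erase X α hiX
        have h3 := hα i hi
        omega
      · intro k hk
        have hk' := Finset.mem_erase.1 hk
        refine Finset.mem_erase.2 ⟨?_, hCY k hk'.2⟩
        intro h
        exact hk'.1 (hinj k hk'.2 i hi h)
      · intro k hk l hl
        exact hinj k (Finset.mem_of_mem_erase hk) l (Finset.mem_of_mem_erase hl)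
      · intro k hk
        exact hr k (Finset.mem_of_mem_erase hk)
      · intro k hk
        exact hα k (Finset.mem_of_mem_erase hk)
      · intro k hk
        exact hβ k (Finset.mem_of_mem_erase hk)
      · intro x hx y hy
        exact hdom x (Finset.mem_of_mem_erase hx) y (Finset.mem_of_mem_erase hy)
    by_cases hne : X.Nonempty ∨ Y.Nonempty
    · rcases exists_max α β X Y hne with ⟨x, hx, m1, m2⟩ | ⟨y, hy, m1, m2⟩
      · by_cases hxC : x ∈ C
        · exact key x hxC m1 m2
        · -- a single tail of maximal value
          have hnew : ∃ P', Mat r (X.erase x) Y P' ∧ val o P ≤ α x + val o P' := by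
            by_cases h1 : x ∈ P.map Prod.fst
            · obtain ⟨y', P1, hP1⟩ := split_fst P x h1
              have hM1 := hP.perm hP1
              have hv1 := val_perm (o := o) hP1
              rw [val_cons] at hv1
              have hy' := hM1.mem (x, y') (by simp)
              refine ⟨P1, (hM1.tail).mono (Finset.Subset.refl _) (Finset.erase_subset _ _), ?_⟩
              have h2 := hdom _ hy'.1 _ hy'.2.1 hy'.2.2
              have h3 := m2 _ hy'.2.1
              dsimp only at h2 h3
              have h4 : o x y' ≤ α x := h2.trans (max_le le_rfl h3)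
              omega
            · exact ⟨P, hP.eraseX h1, by omega⟩
          obtain ⟨P', hP', hval⟩ := hnew
          have hcard : (X.erase x).card + Y.card ≤ n := by
            have e1 := Finset.card_erase_of_mem hx
            have e3 : 0 < X.card := Finset.card_pos.2 ⟨x, hx⟩
            omega
          have h1 := ih (X.erase x) Y C P' hcard (fun k hk => Finset.mem_erase.2
            ⟨fun h => hxC (h ▸ hk), hCX hk⟩) hCY hinj hr hα hβ
            (fun z hz => hdom z (Finset.mem_of_mem_erase hz)) hP'
          have h2 := Finset.add_sum_erase X α hx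
          omega
      · by_cases hyC : y ∈ C.image c
        · obtain ⟨i, hi, rfl⟩ := Finset.mem_image.1 hyC
          have h1 := hα i hi
          have h2 := hβ i hi
          refine key i hi ?_ ?_
          · intro x' hx'
            have := m1 x' hx'
            omega
          · intro y' hy'
            have := m2 y' hy'
            omega
        · -- a single head of maximal value
          have hnew : ∃ P', Mat r X (Y.erase y) P' ∧ val o P ≤ β y + val o P' := by
            by_cases h1 : y ∈ P.map Prod.snd
            · obtain ⟨x', P1, hP1⟩ := split_snd P y h1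
              have hM1 := hP.perm hP1
              have hv1 := val_perm (o := o) hP1
              rw [val_cons] at hv1
              have hx' := hM1.mem (x', y) (by simp)
              refine ⟨P1, (hM1.tail).mono (Finset.erase_subset _ _) (Finset.Subset.refl _), ?_⟩
              have h2 := hdom _ hx'.1 _ hx'.2.1 hx'.2.2
              have h3 := m1 _ hx'.1
              dsimp only at h2 h3
              have h4 : o x' y ≤ β y := h2.trans (max_le h3 le_rfl)
              omega
            · exact ⟨P, hP.eraseY h1, by omega⟩
          obtain ⟨P', hP', hval⟩ := hnew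
          have hcard : X.card + (Y.erase y).card ≤ n := by
            have e1 := Finset.card_erase_of_mem hy
            have e3 : 0 < Y.card := Finset.card_pos.2 ⟨y, hy⟩
            omega
          have h1 := ih X (Y.erase y) C P' hcard hCX (fun k hk => Finset.mem_erase.2
            ⟨fun h => hyC (h ▸ Finset.mem_image_of_mem _ hk), hCY k hk⟩) hinj hr hα hβ
            (fun z hz w hw => hdom z hz w (Finset.mem_of_mem_erase hw)) hP'
          have hf : (Y.erase y).filter (fun y => y ∉ C.image c) =
              (Y.filter (fun y => y ∉ C.image c)).erase y := by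
            ext z
            rw [Finset.mem_filter, Finset.mem_erase, Finset.mem_erase, Finset.mem_filter]
            tauto
          rw [hf] at h1
          have h2 := Finset.add_sum_erase (Y.filter (fun y => y ∉ C.image c)) β
            (Finset.mem_filter.2 ⟨hy, hyC⟩)
          omega
    · have hX : ∀ x, x ∉ X := fun x hx => hne (Or.inl ⟨x, hx⟩)
      have hP0 : P = [] := by
        rcases P with _ | ⟨e, P⟩
        · rfl
        · exact absurd (hP.mem e (by simp)).1 (hX _)
      rw [hP0]
      simp [val]

end Vale.Agent.P333.H705.Gr
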