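import Vale.Agent.P333.H120.Walk
import Vale.Agent.P333.H705.GrE

set_option autoImplicit false

/-!
P333, the greedy algorithm: the exchange property of overlaps, one merge.
-/

namespace Vale.Agent.P333.H705.Gr

open Vale.Agent.P333 Vale.Agent.P333.U Vale.Agent.P333.H120

/-! ### Overlaps by prefixes and suffixes -/

theorem le_ov' {s t w : List ℕ} (h1 : w <:+ s) (h2 : w <+: t) (h3 : w.length < s.length)
    (h4 : w.length < t.length) : w.length ≤ ov s t := by
  apply le_ov (by omega)
  rw [← List.suffix_iff_eq_drop.1 h1]
  exact List.prefix_iff_eq_take.1 h2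

theorem ov_wit (s t : List ℕ) : ∃ w : List ℕ, w <:+ s ∧ w <+: t ∧ w.length = ov s t := by
  refine ⟨t.take (ov s t), ?_, List.take_prefix _ _, ?_⟩
  · rw [← ov_spec]
    exact List.drop_suffix _ _
  · rw [List.length_take]
    have := ov_le_right s t
    omega

/-- The exchange property of overlaps. -/
theorem exch_ov : Exch ov := by
  intro i j i' j' h1 h2
  by_contra hcon
  obtain ⟨d, hd⟩ : ∃ d, d + ov i j = ov i j' + ov i' j := ⟨ov i j' + ov i' j - ov i j, by omega⟩
  have e1 := ov_spec i j
  have e2 := ov_spec i j'
  have e3 := ov_spec i' j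
  have l1 := ov_le_min i j
  have l2 := ov_le_min i j'
  have l3 := ov_le_min i' j
  have key : d ≤ ov i' j' := by
    apply le_ov (by omega)
    have f1 : j'.take d = (j.drop (ov i j - ov i j')).take d := by
      have g1 : j'.take d = (j'.take (ov i j')).take d := by
        rw [List.take_take]
        congr 1
        omega
      rw [g1, ← e2]
      have g2 : i.drop (i.length - ov i j') =
          (i.drop (i.length - ov i j)).drop (ov i j - ov i j') := by
        rw [List.drop_drop]
        congr 1
        omega
      rw [g2, e1, List.drop_take, List.take_take]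
      congr 1
      omega
    have f2 : i'.drop (i'.length - d) = (j.drop (ov i j - ov i j')).take d := by
      have g1 : i'.drop (i'.length - d) =
          (i'.drop (i'.length - ov i' j)).drop (ov i' j - d) := by
        rw [List.drop_drop]
        congr 1
        omega
      rw [g1, e3, List.drop_take]
      have g2 : ov i' j - d = ov i j - ov i j' := by omega
      rw [g2]
      congr 1
      omega
    rw [f1, f2]
  omega

/-! ### One merge -/

theorem ov_right_merge {x z m : List ℕ} (hm : x <+: m) (hx : ¬ x <:+: z) : ov z m = ov z x := by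
  apply le_antisymm
  · by_cases h0 : ov z m = 0
    · omega
    obtain ⟨w, h1, h2, h3⟩ := ov_wit z m
    have h4 := ov_le_min z m
    rw [← h3]
    rcases Nat.lt_or_ge w.length x.length with h5 | h5
    · exact le_ov' h1 (List.prefix_of_prefix_length_le h2 hm (by omega)) (by omega) h5
    · exact absurd ((List.prefix_of_prefix_length_le hm h2 h5).isInfix.trans h1.isInfix) hx
  · by_cases h0 : ov z x = 0
    · omega
    obtain ⟨w, h1, h2, h3⟩ := ov_wit z x
    have h4 := ov_le_min z x
    rw [← h3]
    have h5 := hm.length_le
    exact le_ov' h1 (h2.trans hm) (by omega) (by omega)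

theorem ov_left_merge {y z m : List ℕ} (hm : y <:+ m) (hy : ¬ y <:+: z) : ov m z = ov y z := by
  apply le_antisymm
  · by_cases h0 : ov m z = 0
    · omega
    obtain ⟨w, h1, h2, h3⟩ := ov_wit m z
    have h4 := ov_le_min m z
    rw [← h3]
    rcases Nat.lt_or_ge w.length y.length with h5 | h5
    · exact le_ov' (List.suffix_of_suffix_length_le h1 hm (by omega)) h2 h5 (by omega)
    · exact absurd ((List.suffix_of_suffix_length_le hm h1 h5).isInfix.trans h2.isInfix) hy
  · by_cases h0 : ov y z = 0
    · omega
    obtain ⟨w, h1, h2, h3⟩ := ov_wit y z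
    have h4 := ov_le_min y z
    rw [← h3]
    have h5 := hm.length_le
    exact le_ov' (h1.trans hm) h2 (by omega) (by omega)

theorem occ_mid (u z v : List ℕ) : OccAt (fun q => (u ++ z ++ v).getD q 0) z u.length := by
  intro i hi
  show z[i] = (u ++ z ++ v).getD (u.length + i) 0
  rw [List.append_assoc, List.getD_append_right _ _ _ _ (by omega), Nat.add_sub_cancel_left,
    List.getD_append _ _ _ _ hi, List.getD_eq_getElem _ _ hi]

theorem not_infix_merge {x y z : List ℕ} (hxz : ¬ x <:+: z) (hzx : ¬ z <:+: x)
    (hyz : ¬ y <:+: z) (hzy : ¬ z <:+: y) (hmax : ov x z ≤ ov x y) (hz : z ≠ []) :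
    ¬ z <:+: mergeL [x, y] := by
  rintro ⟨u, v, huv⟩
  have hm : mergeL [x, y] = x.take (x.length - ov x y) ++ y := by
    rw [spec_mergeL]; rfl
  have o1 : OccAt (fun q => (mergeL [x, y]).getD q 0) z u.length := by
    rw [← huv]; exact occ_mid u z v
  have o2 : OccAt (fun q => (mergeL [x, y]).getD q 0) x 0 := by
    obtain ⟨r, hr⟩ := head_prefix_mergeL x [y]
    have := occ_mid [] x r
    rw [List.nil_append, hr] at this
    exact this
  have hl : (x.take (x.length - ov x y)).length = x.length - ov x y := by
    rw [List.length_take]; omega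
  have o3 : OccAt (fun q => (mergeL [x, y]).getD q 0) y (x.length - ov x y) := by
    have := occ_mid (x.take (x.length - ov x y)) y []
    rw [List.append_nil, ← hm, hl] at this
    exact this
  have hlen : u.length + z.length ≤ (x.length - ov x y) + y.length := by
    have h1 := congrArg List.length huv
    rw [hm, List.length_append, List.length_append, List.length_append, hl] at h1
    omega
  rcases Nat.eq_zero_or_pos u.length with h0 | h0
  · rw [h0] at o1
    rcases Nat.le_total x.length z.length with h | h
    · exact hxz (o2.prefix_of_le o1 h).isInfix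
    · exact hzx (o1.prefix_of_le o2 h).isInfix
  · have h1 := o2.gap_le o1 h0 (Or.inr hzx)
    have h2 : x.length - ov x y ≤ u.length := by omega
    rcases Nat.eq_or_lt_of_le h2 with h3 | h3
    · rw [← h3] at o1
      rcases Nat.le_total y.length z.length with h | h
      · exact hyz (o3.prefix_of_le o1 h).isInfix
      · exact hzy (o1.prefix_of_le o3 h).isInfix
    · have h4 := o3.gap_le o1 h3 (Or.inr hzy)
      have h5 := ov_lt_right y hz
      omega

theorem sfree_perm {S S' : List (List ℕ)} (h : Sfree S) (hp : S.Perm S') : Sfree S' :=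
  ⟨fun s hs => h.1 s (hp.mem_iff.2 hs),
    (hp.pairwise_iff (fun hab => ⟨hab.2, hab.1⟩)).1 h.2⟩

/-- After a merge along the largest overlap the family is still factor-free. -/
theorem sfree_step {x y : List ℕ} {R : List (List ℕ)} (h : Sfree (x :: y :: R))
    (hmax : ∀ z ∈ R, ov x z ≤ ov x y) : Sfree (mergeL [x, y] :: R) := by
  obtain ⟨h1, h2⟩ := h
  rw [List.pairwise_cons, List.pairwise_cons] at h2
  obtain ⟨h3, h4, h5⟩ := h2
  have hxm : x <+: mergeL [x, y] := head_prefix_mergeL x [y]
  refine ⟨?_, ?_⟩
  · intro s hs
    rcases List.mem_cons.1 hs with rfl | hs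
    · intro h0
      rw [h0] at hxm
      exact h1 x (by simp) (List.prefix_nil.1 hxm)
    · exact h1 s (by simp [hs])
  · rw [List.pairwise_cons]
    refine ⟨?_, h5⟩
    intro z hz
    constructor
    · intro h6
      exact (h3 z (by simp [hz])).1 (hxm.isInfix.trans h6)
    · exact not_infix_merge (h3 z (by simp [hz])).1 (h3 z (by simp [hz])).2
        (h4 z hz).1 (h4 z hz).2 (hmax z hz) (h1 z (by simp [hz]))

end Vale.Agent.P333.H705.Gr
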