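import Vale.Agent.P333.H705.GrM

set_option autoImplicit false

/-!
P333, the greedy algorithm: the invariant of the run.
-/

namespace Vale.Agent.P333.H705.Gr

open Vale.Agent.P333 Vale.Agent.P333.U Vale.Agent.P333.H120

/-- The overlap of the strings `q - 1` and `q`, plus one; zero at the ends. -/
def lk (p : List (List ℕ)) (q : ℕ) : ℕ :=
  if 0 < q ∧ q < p.length then ov (p.getD (q - 1) []) (p.getD q []) + 1 else 0

/-- The last string. -/
def la (p : List (List ℕ)) : List ℕ := p.getD (p.length - 1) []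

/-- The first string. -/
def fi (p : List (List ℕ)) : List ℕ := p.getD 0 []

/-- Every pair of strings of a path is dominated. -/
def GP (p : List (List ℕ)) : Prop := ∀ i j, i < p.length → j < p.length →
  ov (p.getD i []) (p.getD j []) < lk p (i + 1) ∨ ov (p.getD i []) (p.getD j []) < lk p j ∨
    (j ≤ i ∧ ∀ q, j < q → q ≤ i → ov (p.getD i []) (p.getD j []) < lk p q)

/-- Every pair of strings of two paths is dominated. -/
def CP (p q : List (List ℕ)) : Prop := ∀ i j, i < p.length → j < q.length →
  ov (p.getD i []) (q.getD j []) < lk p (i + 1) ∨ ov (p.getD i []) (q.getD j []) < lk q j ∨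
    (i + 1 = p.length ∧ j = 0)

theorem lk_left (p q : List (List ℕ)) (k : ℕ) : lk p k ≤ lk (p ++ q) k := by
  unfold lk
  by_cases h : 0 < k ∧ k < p.length
  · rw [if_pos h, if_pos ⟨h.1, by rw [List.length_append]; omega⟩,
      List.getD_append _ _ _ _ (by omega), List.getD_append _ _ _ _ (by omega)]
  · rw [if_neg h]
    exact Nat.zero_le _

theorem lk_right (p q : List (List ℕ)) (k : ℕ) : lk q k ≤ lk (p ++ q) (p.length + k) := by
  unfold lk
  by_cases h : 0 < k ∧ k < q.length
  · have e : p.length + k - 1 - p.length = k - 1 := by omega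
    rw [if_pos h, if_pos ⟨by omega, by rw [List.length_append]; omega⟩,
      List.getD_append_right _ _ _ _ (by omega), List.getD_append_right _ _ _ _ (by omega), e,
      Nat.add_sub_cancel_left]
  · rw [if_neg h]
    exact Nat.zero_le _

theorem lk_mid {p q : List (List ℕ)} (hp : p ≠ []) (hq : q ≠ []) :
    lk (p ++ q) p.length = ov (la p) (fi q) + 1 := by
  have h1 := List.length_pos_of_ne_nil hp
  have h2 := List.length_pos_of_ne_nil hq
  unfold lk la fi
  rw [if_pos ⟨h1, by rw [List.length_append]; omega⟩, List.getD_append _ _ _ _ (by omega),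
    List.getD_append_right _ _ _ _ (by omega), Nat.sub_self]

theorem GP.append {p q : List (List ℕ)} {M : ℕ} (hp : p ≠ []) (hq : q ≠ []) (h1 : GP p)
    (h2 : GP q) (h3 : CP p q) (h4 : CP q p) (h5 : ∀ k, 0 < k → k < p.length → M < lk p k)
    (h6 : ∀ k, 0 < k → k < q.length → M < lk q k) (h7 : ov (la p) (fi q) = M)
    (h8 : ov (la q) (fi p) ≤ M) : GP (p ++ q) := by
  intro i j hi hj
  rw [List.length_append] at hi hj
  have hmid := lk_mid hp hq
  rcases Nat.lt_or_ge i p.length with hi' | hi'
  · rw [List.getD_append _ _ _ _ hi']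
    rcases Nat.lt_or_ge j p.length with hj' | hj'
    · rw [List.getD_append _ _ _ _ hj']
      rcases h1 i j hi' hj' with h | h | ⟨h, h'⟩
      · exact Or.inl (h.trans_le (lk_left _ _ _))
      · exact Or.inr (Or.inl (h.trans_le (lk_left _ _ _)))
      · exact Or.inr (Or.inr ⟨h, fun r hr hr' => (h' r hr hr').trans_le (lk_left _ _ _)⟩)
    · obtain ⟨j, rfl⟩ := Nat.exists_eq_add_of_le hj'
      rw [List.getD_append_right _ _ _ _ hj', Nat.add_sub_cancel_left]
      rcases h3 i j hi' (by omega) with h | h | ⟨h, h'⟩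
      · exact Or.inl (h.trans_le (lk_left _ _ _))
      · exact Or.inr (Or.inl (h.trans_le (lk_right _ _ _)))
      · left
        rw [h, hmid, h']
        have e : i = p.length - 1 := by omega
        rw [e]
        exact Nat.lt_succ_self _
  · obtain ⟨i, rfl⟩ := Nat.exists_eq_add_of_le hi'
    rw [List.getD_append_right _ _ _ _ hi', Nat.add_sub_cancel_left]
    rcases Nat.lt_or_ge j p.length with hj' | hj'
    · rw [List.getD_append _ _ _ _ hj']
      rcases h4 i j (by omega) hj' with h | h | ⟨h, h'⟩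
      · left
        rw [Nat.add_assoc]
        exact h.trans_le (lk_right _ _ _)
      · exact Or.inr (Or.inl (h.trans_le (lk_left _ _ _)))
      · right
        right
        refine ⟨by omega, fun r hr hr' => ?_⟩
        have e : i = q.length - 1 := by omega
        have e2 : ov (q.getD i []) (p.getD j []) ≤ M := by
          rw [e, h']
          exact h8
        rcases Nat.lt_trichotomy r p.length with hr2 | hr2 | hr2
        · exact e2.trans_lt ((h5 r (by omega) hr2).trans_le (lk_left _ _ _))
        · rw [hr2, hmid, h7]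
          omega
        · obtain ⟨r, rfl⟩ := Nat.exists_eq_add_of_le hr2.le
          exact e2.trans_lt ((h6 r (by omega) (by omega)).trans_le (lk_right _ _ _))
    · obtain ⟨j, rfl⟩ := Nat.exists_eq_add_of_le hj'
      rw [List.getD_append_right _ _ _ _ hj', Nat.add_sub_cancel_left]
      rcases h2 i j (by omega) (by omega) with h | h | ⟨h, h'⟩
      · left
        rw [Nat.add_assoc]
        exact h.trans_le (lk_right _ _ _)
      · exact Or.inr (Or.inl (h.trans_le (lk_right _ _ _)))
      · right
        right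
        refine ⟨by omega, fun r hr hr' => ?_⟩
        obtain ⟨r, rfl⟩ := Nat.exists_eq_add_of_le (show p.length ≤ r by omega)
        exact (h' r (by omega) (by omega)).trans_le (lk_right _ _ _)

theorem CP.append_left {p q z : List (List ℕ)} (hp : p ≠ []) (hq : q ≠ []) (h1 : CP p z)
    (h2 : CP q z) (h3 : ov (la p) (fi z) ≤ ov (la p) (fi q)) : CP (p ++ q) z := by
  intro i j hi hj
  rw [List.length_append] at hi
  have hmid := lk_mid hp hq
  rcases Nat.lt_or_ge i p.length with hi' | hi'
  · rw [List.getD_append _ _ _ _ hi']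
    rcases h1 i j hi' hj with h | h | ⟨h, h'⟩
    · exact Or.inl (h.trans_le (lk_left _ _ _))
    · exact Or.inr (Or.inl h)
    · left
      rw [h, hmid, h']
      have e : i = p.length - 1 := by omega
      rw [e]
      exact Nat.lt_succ_of_le h3
  · obtain ⟨i, rfl⟩ := Nat.exists_eq_add_of_le hi'
    rw [List.getD_append_right _ _ _ _ hi', Nat.add_sub_cancel_left]
    rcases h2 i j (by omega) hj with h | h | ⟨h, h'⟩
    · left
      rw [Nat.add_assoc]
      exact h.trans_le (lk_right _ _ _)
    · exact Or.inr (Or.inl h)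
    · right
      right
      exact ⟨by rw [List.length_append]; omega, h'⟩

theorem CP.append_right {p q z : List (List ℕ)} (hp : p ≠ []) (hq : q ≠ []) (h1 : CP z p)
    (h2 : CP z q) (h3 : ov (la z) (fi q) ≤ ov (la p) (fi q)) : CP z (p ++ q) := by
  intro i j hi hj
  rw [List.length_append] at hj
  have hmid := lk_mid hp hq
  rcases Nat.lt_or_ge j p.length with hj' | hj'
  · rw [List.getD_append _ _ _ _ hj']
    rcases h1 i j hi hj' with h | h | ⟨h, h'⟩
    · exact Or.inl h
    · exact Or.inr (Or.inl (h.trans_le (lk_left _ _ _)))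
    · exact Or.inr (Or.inr ⟨h, h'⟩)
  · obtain ⟨j, rfl⟩ := Nat.exists_eq_add_of_le hj'
    rw [List.getD_append_right _ _ _ _ hj', Nat.add_sub_cancel_left]
    rcases h2 i j hi (by omega) with h | h | ⟨h, h'⟩
    · exact Or.inl h
    · exact Or.inr (Or.inl (h.trans_le (lk_right _ _ _)))
    · right
      left
      rw [h', Nat.add_zero, hmid]
      have e : i = z.length - 1 := by omega
      rw [e]
      exact Nat.lt_succ_of_le h3

theorem la_append (p : List (List ℕ)) {q : List (List ℕ)} (hq : q ≠ []) :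
    la (p ++ q) = la q := by
  have h2 := List.length_pos_of_ne_nil hq
  unfold la
  rw [List.length_append, List.getD_append_right _ _ _ _ (by omega)]
  congr 1
  omega

theorem fi_append {p : List (List ℕ)} (hp : p ≠ []) (q : List (List ℕ)) :
    fi (p ++ q) = fi p := by
  have h2 := List.length_pos_of_ne_nil hp
  unfold fi
  rw [List.getD_append _ _ _ _ h2]

theorem la_eq (p : List (List ℕ)) : la p = p.getLastD [] := by
  unfold la
  rw [List.getLastD_eq_getLast?, List.getLast?_eq_getElem?, List.getD_eq_getElem?_getD]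

theorem fi_eq (p : List (List ℕ)) : fi p = p.headD [] := by
  cases p <;> rfl

/-- The merge of a concatenation is the merge of the merges. -/
theorem merge_app {p q : List (List ℕ)} (hp : p ≠ []) (hq : q ≠ [])
    (h : ov (mergeL p) (mergeL q) = ov (la p) (fi q)) :
    mergeL (p ++ q) = mergeL [mergeL p, mergeL q] := by
  rw [spec_mergeL, h, mergeL_app p q hp hq, linW_snoc' p hp, length_mergeL, la_eq, fi_eq]
  have h2 := ov_le_left (p.getLastD []) (q.headD [])
  have e : linW p + ((p.getLastD []).length - ov (p.getLastD []) (q.headD [])) =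
      linW p + (p.getLastD []).length - ov (p.getLastD []) (q.headD []) := by omega
  rw [e]
  rfl

/-- The relation of two paths. -/
structure Rel (B : ℕ) (p q : List (List ℕ)) : Prop where
  eq : ov (mergeL p) (mergeL q) = ov (la p) (fi q)
  le : ov (la p) (fi q) ≤ B
  cp : CP p q

/-- The invariant. -/
structure Inv (B : ℕ) (𝓟 : List (List (List ℕ))) : Prop where
  ne : ∀ p ∈ 𝓟, p ≠ []
  sf : Sfree (𝓟.map mergeL)
  pw : 𝓟.Pairwise (fun p q => Rel B p q ∧ Rel B q p)
  inn : ∀ p ∈ 𝓟, ∀ q, 0 < q → q < p.length → B < lk p q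
  gp : ∀ p ∈ 𝓟, GP p

theorem Inv.perm {B : ℕ} {𝓟 𝓠 : List (List (List ℕ))} (h : Inv B 𝓟) (hp : 𝓟.Perm 𝓠) :
    Inv B 𝓠 :=
  ⟨fun p hp' => h.ne p (hp.mem_iff.2 hp'), sfree_perm h.sf (hp.map _),
    (hp.pairwise_iff (fun hab => ⟨hab.2, hab.1⟩)).1 h.pw,
    fun p hp' => h.inn p (hp.mem_iff.2 hp'), fun p hp' => h.gp p (hp.mem_iff.2 hp')⟩

theorem Inv.step {B : ℕ} {p q : List (List ℕ)} {𝓡 : List (List (List ℕ))}
    (h : Inv B (p :: q :: 𝓡))
    (hmax : (p :: q :: 𝓡).Pairwise (fun a b =>
      ov (mergeL a) (mergeL b) ≤ ov (mergeL p) (mergeL q) ∧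
      ov (mergeL b) (mergeL a) ≤ ov (mergeL p) (mergeL q))) :
    Inv (ov (mergeL p) (mergeL q)) ((p ++ q) :: 𝓡) ∧
      mergeL (p ++ q) = mergeL [mergeL p, mergeL q] := by
  have hp := h.ne p (by simp)
  have hq := h.ne q (by simp)
  have hpw := h.pw
  have hsf := h.sf
  rw [List.map_cons, List.map_cons] at hsf
  have hsf2 := hsf.2
  rw [List.pairwise_cons, List.pairwise_cons] at hpw hmax hsf2
  obtain ⟨a1, a2, a3⟩ := hpw
  obtain ⟨b1, b2, b3⟩ := hmax
  obtain ⟨c1, c2, -⟩ := hsf2
  have r1 := a1 q (by simp)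
  have hmerge := merge_app hp hq r1.1.eq
  have hMB : ov (mergeL p) (mergeL q) ≤ B := by rw [r1.1.eq]; exact r1.1.le
  have hpm : mergeL p <+: mergeL (p ++ q) := by
    rw [hmerge]; exact head_prefix_mergeL _ _
  have hqm : mergeL q <:+ mergeL (p ++ q) := by
    rw [hmerge, spec_mergeL]
    exact List.suffix_append _ _
  refine ⟨⟨?_, ?_, ?_, ?_, ?_⟩, hmerge⟩
  · intro r hr
    rcases List.mem_cons.1 hr with rfl | hr
    · intro h0
      exact hp (List.append_eq_nil_iff.1 h0).1
    · exact h.ne r (by simp [hr])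
  · rw [List.map_cons, hmerge]
    refine sfree_step hsf ?_
    intro z hz
    obtain ⟨r, hr, rfl⟩ := List.mem_map.1 hz
    exact (b1 r (by simp [hr])).1
  · rw [List.pairwise_cons]
    constructor
    · intro z hz
      have z1 := a1 z (by simp [hz])
      have z2 := a2 z hz
      have y1 := b1 z (by simp [hz])
      have y2 := b2 z hz
      have x1 := c1 (mergeL z) (List.mem_cons_of_mem _ (List.mem_map_of_mem hz))
      have x2 := c2 (mergeL z) (List.mem_map_of_mem hz)
      refine ⟨⟨?_, ?_, ?_⟩, ⟨?_, ?_, ?_⟩⟩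
      · rw [ov_left_merge hqm x2.1, z2.1.eq, la_append p hq]
      · rw [la_append p hq, ← z2.1.eq]
        exact y2.1
      · refine CP.append_left hp hq z1.1.cp z2.1.cp ?_
        rw [← z1.1.eq, ← r1.1.eq]
        exact y1.1
      · rw [ov_right_merge hpm x1.1, z1.2.eq, fi_append hp]
      · rw [fi_append hp, ← z1.2.eq]
        exact y1.2
      · refine CP.append_right hp hq z1.2.cp z2.2.cp ?_
        rw [← z2.2.eq, ← r1.1.eq]
        exact y2.2
    · have h5 := List.Pairwise.and a3 b3
      refine h5.imp ?_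
      rintro a b ⟨⟨d1, d2⟩, ⟨e1, e2⟩⟩
      exact ⟨⟨d1.eq, by rw [← d1.eq]; exact e1, d1.cp⟩, ⟨d2.eq, by rw [← d2.eq]; exact e2, d2.cp⟩⟩
  · intro r hr k hk hk'
    rcases List.mem_cons.1 hr with rfl | hr
    · rw [List.length_append] at hk'
      rcases Nat.lt_trichotomy k p.length with h1 | h1 | h1
      · have := h.inn p (by simp) k hk h1
        have := lk_left p q k
        omega
      · rw [h1, lk_mid hp hq, r1.1.eq]
        omega
      · obtain ⟨k, rfl⟩ := Nat.exists_eq_add_of_le h1.le
        have := h.inn q (by simp) k (by omega) (by omega)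
        have := lk_right p q k
        omega
    · have := h.inn r (by simp [hr]) k hk hk'
      omega
  · intro r hr
    rcases List.mem_cons.1 hr with rfl | hr
    · refine GP.append (M := ov (mergeL p) (mergeL q)) hp hq (h.gp p (by simp))
        (h.gp q (by simp)) r1.1.cp r1.2.cp ?_ ?_ r1.1.eq.symm ?_
      · intro k hk hk'
        have := h.inn p (by simp) k hk hk'
        omega
      · intro k hk hk'
        have := h.inn q (by simp) k hk hk'
        omega
      · rw [← r1.2.eq]
        exact (b1 q (by simp)).2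
    · exact h.gp r (by simp [hr])

/-- One step of the greedy algorithm. -/
def GStep (F F' : List (List ℕ)) : Prop :=
  ∃ x y R, F.Perm (x :: y :: R) ∧ (∀ z w R', F.Perm (z :: w :: R') → ov z w ≤ ov x y) ∧
    F' = mergeL [x, y] :: R

theorem pairwise_of_max {F : List (List ℕ)} {M : ℕ}
    (h : ∀ z w R', F.Perm (z :: w :: R') → ov z w ≤ M) :
    F.Pairwise (fun a b => ov a b ≤ M ∧ ov b a ≤ M) := by
  rw [List.pairwise_iff_forall_sublist]
  intro c c' hsub
  obtain ⟨R, hR⟩ := hsub.exists_perm_append
  exact ⟨h c c' R hR, h c' c R (hR.trans (List.Perm.append_right R (List.Perm.swap _ _ _)))⟩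

theorem inv_step {B : ℕ} {𝓟 : List (List (List ℕ))} {F' : List (List ℕ)} (h : Inv B 𝓟)
    (hs : GStep (𝓟.map mergeL) F') :
    ∃ B' 𝓠, Inv B' 𝓠 ∧ 𝓠.map mergeL = F' ∧ 𝓠.flatten.Perm 𝓟.flatten := by
  obtain ⟨x, y, R, h1, h2, rfl⟩ := hs
  obtain ⟨l', h3, h4⟩ := exists_map_of_perm h1.symm mergeL 𝓟 rfl
  rcases l' with _ | ⟨p, _ | ⟨q, 𝓡⟩⟩
  · simp at h4
  · simp at h4
  · rw [List.map_cons, List.map_cons, List.cons.injEq, List.cons.injEq] at h4
    obtain ⟨rfl, rfl, rfl⟩ := h4
    have hmax := pairwise_of_max (F := (p :: q :: 𝓡).map mergeL)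
      (M := ov (mergeL p) (mergeL q)) (fun z w R' hR' => h2 z w R' (h1.trans hR'))
    rw [List.pairwise_map] at hmax
    obtain ⟨h5, h6⟩ := (h.perm h3.symm).step hmax
    refine ⟨_, _, h5, ?_, ?_⟩
    · rw [List.map_cons, h6]
    · have h7 := h3.flatten
      rw [List.flatten_cons, List.flatten_cons, ← List.append_assoc] at h7
      rw [List.flatten_cons]
      exact h7

theorem inv_init {F : List (List ℕ)} (hF : Sfree F) :
    Inv (F.map List.length).sum (F.map (fun s => [s])) := by
  have e : (F.map (fun s => [s])).map mergeL = F := by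
    rw [List.map_map]
    conv_rhs => rw [← List.map_id F]
    exact List.map_congr_left fun s _ => rfl
  refine ⟨?_, ?_, ?_, ?_, ?_⟩
  · intro p hp
    obtain ⟨s, _, rfl⟩ := List.mem_map.1 hp
    simp
  · rw [e]; exact hF
  · have hR : ∀ a ∈ F, ∀ b : List ℕ, Rel (F.map List.length).sum [a] [b] := by
      intro a ha b
      refine ⟨rfl, ?_, ?_⟩
      · have h1 := ov_le_left a b
        have h2 : a.length ≤ (F.map List.length).sum :=
          List.le_sum_of_mem (List.mem_map_of_mem ha)
        exact h1.trans h2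
      · intro i j hi hj
        right; right
        simp only [List.length_singleton] at hi hj ⊢
        omega
    rw [List.pairwise_map]
    refine List.Pairwise.imp_of_mem ?_ hF.2
    intro a b ha hb _
    exact ⟨hR a ha b, hR b hb a⟩
  · intro p hp q hq hq'
    obtain ⟨s, _, rfl⟩ := List.mem_map.1 hp
    simp only [List.length_singleton] at hq'
    omega
  · intro p hp i j hi hj
    obtain ⟨s, _, rfl⟩ := List.mem_map.1 hp
    simp only [List.length_singleton] at hi hj
    right; right
    exact ⟨by omega, fun q hq hq' => by omega⟩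

/-- Every run of the greedy algorithm produces the merge of an ordering which is dominated. -/
theorem greedy_run {F : List (List ℕ)} (hF : Sfree F) {F' : List (List ℕ)}
    (h : Relation.ReflTransGen GStep F F') :
    ∃ B 𝓟, Inv B 𝓟 ∧ 𝓟.map mergeL = F' ∧ 𝓟.flatten.Perm F := by
  induction h with
  | refl =>
    refine ⟨_, _, inv_init hF, ?_, ?_⟩
    · rw [List.map_map]
      conv_rhs => rw [← List.map_id F]
      exact List.map_congr_left fun s _ => rfl
    · rw [← List.flatMap_def, List.flatMap_singleton']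
  | tail _ hs ih =>
    obtain ⟨B, 𝓟, h1, rfl, h3⟩ := ih
    obtain ⟨B', 𝓠, h4, h5, h6⟩ := inv_step h1 hs
    exact ⟨B', 𝓠, h4, h5, h6.trans h3⟩

theorem greedy_order {F : List (List ℕ)} (hF : Sfree F) {t : List ℕ}
    (h : Relation.ReflTransGen GStep F [t]) :
    ∃ P : List (List ℕ), P.Perm F ∧ P ≠ [] ∧ mergeL P = t ∧ GP P := by
  obtain ⟨B, 𝓟, h1, h2, h3⟩ := greedy_run hF h
  rcases 𝓟 with _ | ⟨P, _ | ⟨Q, 𝓡⟩⟩
  · simp at h2
  · rw [List.map_cons, List.map_nil, List.cons.injEq] at h2
    refine ⟨P, ?_, h1.ne P (by simp), h2.1, h1.gp P (by simp)⟩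
    simpa using h3
  · simp at h2

end Vale.Agent.P333.H705.Gr
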